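/-
P235-M (helper611).  Metric part of the widening from every edge lies on a shortest path from `s`
to `t` to every vertex does.
-/
import Vale.Agent.P235.R2.H802.Defs
import Vale.Agent.P235.R2.H673.SweepBags
import Vale.Agent.P235.R2.H341.F0

set_option linter.all false
set_option autoImplicit false

namespace Vale.Agent.P235.Tight

open SimpleGraph Vale.Agent.P235.Red.F0 Vale.Agent.P235.R2.H673

section basic

variable {V W : Type} {G : SimpleGraph V} {F : SimpleGraph W} {ℓ : Sym2 V → ℝ} {ℓ' : Sym2 W → ℝ}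
  {h : V → ℝ} {s t : V}

theorem pos_edge (hp : ∀ u v, G.Adj u v → 0 < ℓ s(u, v)) : ∀ e ∈ G.edgeSet, 0 < ℓ e := by
  intro e he
  induction e using Sym2.ind with
  | _ a b => exact hp a b he

/-- maps which do not stretch edges do not stretch distances -/
theorem pd_map_le (hc : G.Connected) (hF : F.Connected) (hp : ∀ u v, F.Adj u v → 0 < ℓ' s(u, v))
    (φ : V → W) (hφ : ∀ u v, G.Adj u v → pathDist F ℓ' (φ u) (φ v) ≤ ℓ s(u, v)) (x y : V) :
    pathDist F ℓ' (φ x) (φ y) ≤ pathDist G ℓ x y := by
  have hp' := pos_edge hp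
  have hne : Nonempty (G.Walk x y) := hc x y
  refine le_ciInf fun w => ?_
  induction w with
  | nil => rw [d_self hp']; simp
  | @cons u v z a p ih =>
    rw [Walk.edges_cons, List.map_cons, List.sum_cons]
    have h1 := hφ u v a
    have h2 := d_tri hF hp' (φ u) (φ v) (φ z)
    have h3 := ih (hc v z)
    linarith

theorem Bip.pe (hB : Bip G ℓ h s t) : ∀ e ∈ G.edgeSet, 0 < ℓ e := pos_edge hB.pos

theorem Bip.abs_le (hB : Bip G ℓ h s t) (x y : V) : |h x - h y| ≤ pathDist G ℓ x y :=
  abs_sub_le_pathDist hB.lip (hB.conn x y)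

theorem Bip.neg (hB : Bip G ℓ h s t) : Bip G ℓ (fun v => - h v) t s where
  conn := hB.conn
  pos := hB.pos
  lip := fun u v ha => by
    have h1 := hB.lip u v ha
    rwa [show - h u - - h v = -(h u - h v) by ring, abs_neg]
  up := fun v hv => by
    obtain ⟨w, hw, h1⟩ := hB.dn v hv
    exact ⟨w, hw, by linarith⟩
  dn := fun v hv => by
    obtain ⟨w, hw, h1⟩ := hB.up v hv
    exact ⟨w, hw, by linarith⟩

/-- induction downwards along a height -/
theorem wf_h [Finite V] (h : V → ℝ) : WellFounded fun x y : V => h y < h x := by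
  have : IsTrans V fun x y : V => h y < h x := ⟨fun a b c h1 h2 => h2.trans h1⟩
  have : Std.Irrefl fun x y : V => h y < h x := ⟨fun a h1 => lt_irrefl _ h1⟩
  exact Finite.wellFounded_of_trans_of_irrefl _

/-- the distance to the top is the difference of heights -/
theorem Bip.dist_top [Finite V] (hB : Bip G ℓ h s t) (v : V) : pathDist G ℓ v t = h t - h v := by
  refine le_antisymm ?_ ?_
  · induction v using (wf_h h).induction with
    | _ v ih =>
      by_cases hv : v = t
      · rw [hv, d_self hB.pe]; simp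
      · obtain ⟨w, hw, h1⟩ := hB.up v hv
        have h2 := hB.pos v w hw
        have h3 := ih w (by show h v < h w; linarith)
        have h4 := d_tri hB.conn hB.pe v w t
        have h5 := d_adj hB.pe hw
        linarith
  · have h1 := hB.abs_le t v
    rw [d_symm hB.conn hB.pe t v] at h1
    exact (le_abs_self _).trans h1

theorem Bip.dist_bot [Finite V] (hB : Bip G ℓ h s t) (v : V) : pathDist G ℓ s v = h v - h s := by
  have h1 := hB.neg.dist_top v
  rw [d_symm hB.conn hB.pe s v, h1]
  ring

/-- (M0b) if all edges are tight they lie on shortest paths -/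
theorem Bip.all_tight [Finite V] (hB : Bip G ℓ h s t)
    (ht : ∀ u v, G.Adj u v → ℓ s(u, v) ≤ |h u - h v|) (u v : V) (ha : G.Adj u v) :
    pathDist G ℓ s u + ℓ s(u, v) + pathDist G ℓ v t = pathDist G ℓ s t ∨
      pathDist G ℓ s v + ℓ s(u, v) + pathDist G ℓ u t = pathDist G ℓ s t := by
  have h1 := le_antisymm (ht u v ha) (hB.lip u v ha)
  rw [hB.dist_bot, hB.dist_bot, hB.dist_bot, hB.dist_top, hB.dist_top, h1]
  rcases le_total (h u) (h v) with h2 | h2
  · left
    rw [abs_of_nonpos (by linarith)]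
    ring
  · right
    rw [abs_of_nonneg (by linarith)]
    ring

/-- the last edge of a shortest path -/
theorem exists_first [Finite V] (hc : G.Connected) (hℓ : ∀ e ∈ G.edgeSet, 0 < ℓ e) {r v : V}
    (hv : v ≠ r) : ∃ w, G.Adj v w ∧ ℓ s(v, w) + pathDist G ℓ w r ≤ pathDist G ℓ v r := by
  classical
  have := Fintype.ofFinite V
  have hne : Nonempty (G.Walk v r) := hc v r
  have hex : ∃ w : {w // G.Adj v w}, True := by
    obtain ⟨w, hw, _⟩ := exists_closer hc hℓ hv
    exact ⟨⟨w, hw⟩, trivial⟩
  obtain ⟨w₀, _⟩ := hex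
  obtain ⟨w, _, hw⟩ := Set.exists_min_image (Set.univ : Set {w // G.Adj v w})
    (fun w => ℓ s(v, w.1) + pathDist G ℓ w.1 r) (Set.toFinite _) ⟨w₀, trivial⟩
  refine ⟨w.1, w.2, ?_⟩
  refine le_ciInf fun p => ?_
  cases p with
  | nil => exact absurd rfl hv
  | @cons _ u _ ha p =>
    rw [Walk.edges_cons, List.map_cons, List.sum_cons]
    have h1 := d_le hℓ p
    have h2 := hw ⟨u, ha⟩ trivial
    linarith

/-- (M0a) every vertex lies on a shortest path from `s` to `t` -/
theorem bip_of_vertices [Finite V] (hc : G.Connected) (hp : ∀ e ∈ G.edgeSet, 0 < ℓ e)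
    (hg : ∀ v, pathDist G ℓ s v + pathDist G ℓ v t = pathDist G ℓ s t) :
    Bip G ℓ (pathDist G ℓ s) s t where
  conn := hc
  pos := fun u v ha => hp _ ha
  lip := fun u v ha => by
    have h1 := d_tri hc hp s u v
    have h2 := d_tri hc hp s v u
    have h3 := d_adj hp ha
    rw [d_symm hc hp v u] at h2
    rw [abs_le]
    constructor <;> linarith
  up := fun v hv => by
    obtain ⟨w, hw, h1⟩ := exists_first hc hp hv
    refine ⟨w, hw, ?_⟩
    have h2 := hg v
    have h3 := hg w
    have h4 := d_tri hc hp s v w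
    have h5 := d_adj hp hw
    linarith
  dn := fun v hv => by
    obtain ⟨w, hw, h1⟩ := exists_first hc hp hv
    refine ⟨w, hw, ?_⟩
    rw [d_symm hc hp w s, d_symm hc hp v s] at h1
    have h4 := d_tri hc hp s w v
    have h5 := d_adj hp hw
    rw [d_symm hc hp v w] at h5
    linarith

end basic

/-! ## deleting a slack edge -/

section del

variable {V : Type} {G : SimpleGraph V} {ℓ : Sym2 V → ℝ} {h : V → ℝ} {s t : V}

/-- pairs of neighbours joined by a slack edge -/
def slk (G : SimpleGraph V) (ℓ : Sym2 V → ℝ) (h : V → ℝ) : Set (V × V) :=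
  {p | G.Adj p.1 p.2 ∧ |h p.1 - h p.2| < ℓ s(p.1, p.2)}

theorem tight_ne {a b : V} (he : |h a - h b| < ℓ s(a, b)) {v w : V}
    (h1 : ℓ s(v, w) ≤ |h v - h w|) : s(v, w) ≠ s(a, b) := by
  intro h2
  have h3 : |h v - h w| = |h a - h b| := by
    rcases Sym2.eq_iff.1 h2 with ⟨rfl, rfl⟩ | ⟨rfl, rfl⟩
    · rfl
    · exact abs_sub_comm _ _
  rw [h3, h2] at h1
  exact absurd he (not_lt.2 h1)

theorem conn_of_up [Finite V] {G' : SimpleGraph V}
    (hu : ∀ v, v ≠ t → ∃ w, G'.Adj v w ∧ h v < h w) : G'.Connected := by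
  have h1 : ∀ v, G'.Reachable v t := by
    intro v
    induction v using (wf_h h).induction with
    | _ v ih =>
      by_cases hv : v = t
      · rw [hv]
      · obtain ⟨w, hw, h1⟩ := hu v hv
        exact hw.reachable.trans (ih w h1)
  have : Nonempty V := ⟨t⟩
  exact ⟨fun x y => (h1 x).trans (h1 y).symm⟩

theorem del_adj {a b u v : V} :
    (G.deleteEdges {s(a, b)}).Adj u v ↔ G.Adj u v ∧ s(u, v) ≠ s(a, b) := by
  rw [deleteEdges_adj, Set.mem_singleton_iff]

/-- (M1) deleting a slack edge -/
theorem Bip.del [Finite V] (hB : Bip G ℓ h s t) {a b : V} (he : |h a - h b| < ℓ s(a, b)) :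
    Bip (G.deleteEdges {s(a, b)}) ℓ h s t where
  conn := by
    refine conn_of_up (t := t) (h := h) fun v hv => ?_
    obtain ⟨w, hw, h1⟩ := hB.up v hv
    have h2 := hB.pos v w hw
    refine ⟨w, del_adj.2 ⟨hw, tight_ne he ?_⟩, by linarith⟩
    rw [← h1, abs_sub_comm]
    exact le_abs_self _
  pos := fun u v ha => hB.pos u v (del_adj.1 ha).1
  lip := fun u v ha => hB.lip u v (del_adj.1 ha).1
  up := fun v hv => by
    obtain ⟨w, hw, h1⟩ := hB.up v hv
    refine ⟨w, del_adj.2 ⟨hw, tight_ne he ?_⟩, h1⟩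
    rw [← h1, abs_sub_comm]
    exact le_abs_self _
  dn := fun v hv => by
    obtain ⟨w, hw, h1⟩ := hB.dn v hv
    refine ⟨w, del_adj.2 ⟨hw, tight_ne he ?_⟩, h1⟩
    rw [← h1]
    exact le_abs_self _

theorem Bip.del_dist_ge [Finite V] (hB : Bip G ℓ h s t) {a b : V}
    (he : |h a - h b| < ℓ s(a, b)) (x y : V) :
    pathDist G ℓ x y ≤ pathDist (G.deleteEdges {s(a, b)}) ℓ x y :=
  pd_map_le (hB.del he).conn hB.conn hB.pos id
    (fun u v ha => d_adj hB.pe (del_adj.1 ha).1) x y

theorem Bip.del_dist [Finite V] (hB : Bip G ℓ h s t) {a b : V} (he : |h a - h b| < ℓ s(a, b))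
    (hr : pathDist (G.deleteEdges {s(a, b)}) ℓ a b ≤ ℓ s(a, b)) :
    pathDist (G.deleteEdges {s(a, b)}) ℓ = pathDist G ℓ := by
  have hD := hB.del he
  funext x y
  refine le_antisymm ?_ (hB.del_dist_ge he x y)
  refine pd_map_le hB.conn hD.conn hD.pos id (fun u v ha => ?_) x y
  by_cases h1 : s(u, v) = s(a, b)
  · rw [h1]
    rcases Sym2.eq_iff.1 h1 with ⟨rfl, rfl⟩ | ⟨rfl, rfl⟩
    · exact hr
    · show pathDist _ ℓ u v ≤ _
      rw [d_symm hD.conn hD.pe]
      exact hr
  · exact d_adj hD.pe (del_adj.2 ⟨ha, h1⟩)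

theorem slk_del [Finite V] {a b : V} (hab : G.Adj a b) (he : |h a - h b| < ℓ s(a, b)) :
    (slk (G.deleteEdges {s(a, b)}) ℓ h).ncard < (slk G ℓ h).ncard := by
  refine Set.ncard_lt_ncard ⟨fun p hp => ⟨(del_adj.1 hp.1).1, hp.2⟩, fun hh => ?_⟩
    (Set.toFinite _)
  have h1 : (a, b) ∈ slk (G.deleteEdges {s(a, b)}) ℓ h := hh ⟨hab, he⟩
  exact (del_adj.1 h1.1).2 rfl

end del

/-! ## the star -/

section star

variable {V : Type} {G : SimpleGraph V} {ℓ : Sym2 V → ℝ} {h : V → ℝ} {s t a b q : V}

/-- heights with one more vertex -/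
def starH (h : V → ℝ) (z : ℝ) : Option V → ℝ
  | some v => h v
  | none => z

/-- lengths with one more vertex -/
noncomputable def starL (ℓ : Sym2 V → ℝ) (h : V → ℝ) (z : ℝ) : Sym2 (Option V) → ℝ :=
  Sym2.lift ⟨fun x y => match x, y with
    | some u, some v => ℓ s(u, v)
    | none, some v => |z - h v|
    | some v, none => |z - h v|
    | none, none => 0, by
      rintro (_ | u) (_ | v)
      · rfl
      · rfl
      · rfl
      · show ℓ s(u, v) = ℓ s(v, u)
        rw [Sym2.eq_swap]⟩

theorem starL_ss (z : ℝ) (u v : V) : starL ℓ h z s(some u, some v) = ℓ s(u, v) := rfl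
theorem starL_ns (z : ℝ) (v : V) : starL ℓ h z s(none, some v) = |z - h v| := rfl
theorem starL_sn (z : ℝ) (v : V) : starL ℓ h z s(some v, none) = |z - h v| := rfl

/-- the graph with the star in place of the edge `ab` -/
def starG (G : SimpleGraph V) (a b q : V) : SimpleGraph (Option V) :=
  (addZ G a b q).deleteEdges {s(some a, some b)}

theorem star_ss {u v : V} : (starG G a b q).Adj (some u) (some v) ↔
    (G.deleteEdges {s(a, b)}).Adj u v := by
  unfold starG
  rw [del_adj, del_adj]
  have h1 : s(some u, some v) = s(some a, some b) ↔ s(u, v) = s(a, b) := by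
    simp only [Sym2.eq_iff, Option.some.injEq]
  rw [Ne, Ne, h1]
  exact Iff.rfl

theorem star_ns {v : V} : (starG G a b q).Adj none (some v) ↔ (v = a ∨ v = b ∨ v = q) := by
  unfold starG
  rw [del_adj]
  have h1 : s((none : Option V), some v) ≠ s(some a, some b) := by
    simp [Sym2.eq_iff]
  exact ⟨fun h => h.1, fun h => ⟨h, h1⟩⟩

theorem star_nn : ¬ (starG G a b q).Adj none none := fun h => h.ne rfl

theorem star_sn {v : V} : (starG G a b q).Adj (some v) none ↔ (v = a ∨ v = b ∨ v = q) := by
  rw [adj_comm]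
  exact star_ns

theorem star_reach {u v : V} (w : (G.deleteEdges {s(a, b)}).Walk u v) :
    (starG G a b q).Reachable (some u) (some v) := by
  induction w with
  | nil => exact Reachable.refl _
  | @cons u v z ha p ih => exact (star_ss.2 ha).reachable.trans ih

/-- the height of the new vertex -/
noncomputable def zH (ℓ : Sym2 V → ℝ) (h : V → ℝ) (a b : V) : ℝ := (h a + h b + ℓ s(a, b)) / 2

/-- the hypotheses of the star step -/
structure StarHyp (G : SimpleGraph V) (ℓ : Sym2 V → ℝ) (h : V → ℝ) (s t a b q : V) : Prop where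
  bip : Bip G ℓ h s t
  adj : G.Adj a b
  slack : |h a - h b| < ℓ s(a, b)
  ess : ℓ s(a, b) < pathDist (G.deleteEdges {s(a, b)}) ℓ a b
  ca : pathDist (G.deleteEdges {s(a, b)}) ℓ a q ≤ h q - h a
  cb : pathDist (G.deleteEdges {s(a, b)}) ℓ b q ≤ h q - h b

theorem StarHyp.za (H : StarHyp G ℓ h s t a b q) : h a < zH ℓ h a b := by
  have h1 := (abs_lt.1 H.slack).2
  unfold zH
  linarith

theorem StarHyp.zb (H : StarHyp G ℓ h s t a b q) : h b < zH ℓ h a b := by
  have h1 := (abs_lt.1 H.slack).1
  unfold zH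
  linarith

theorem StarHyp.zq [Finite V] (H : StarHyp G ℓ h s t a b q) : zH ℓ h a b < h q := by
  have hD := H.bip.del H.slack
  have h1 := d_tri hD.conn hD.pe a q b
  have h2 := H.ess
  have h3 := H.ca
  have h4 := H.cb
  rw [d_symm hD.conn hD.pe] at h4
  unfold zH
  linarith

/-- (M2) the star graph satisfies the same hypotheses -/
theorem StarHyp.star [Finite V] (H : StarHyp G ℓ h s t a b q) :
    Bip (starG G a b q) (starL ℓ h (zH ℓ h a b)) (starH h (zH ℓ h a b)) (some s) (some t) := by
  have hD := H.bip.del H.slack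
  have za := H.za
  have zb := H.zb
  have zq := H.zq
  set z := zH ℓ h a b with hz
  have hnew : ∀ v, (v = a ∨ v = b ∨ v = q) → 0 < |z - h v| := by
    rintro v (rfl | rfl | rfl)
    · exact abs_pos.2 (by linarith)
    · exact abs_pos.2 (by linarith)
    · exact abs_pos.2 (by linarith)
  refine ⟨?_, ?_, ?_, ?_, ?_⟩
  · -- connected
    have h1 : ∀ v : V, (starG G a b q).Reachable (some v) (some t) := by
      intro v
      obtain ⟨w⟩ := hD.conn v t
      exact star_reach w
    have h2 : ∀ v : Option V, (starG G a b q).Reachable v (some t) := by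
      rintro (_ | v)
      · exact (star_ns.2 (Or.inl rfl)).reachable.trans (h1 a)
      · exact h1 v
    have : Nonempty (Option V) := ⟨none⟩
    exact ⟨fun x y => (h2 x).trans (h2 y).symm⟩
  · rintro (_ | u) (_ | v) ha
    · exact absurd ha star_nn
    · rw [starL_ns]
      exact hnew v (star_ns.1 ha)
    · rw [starL_sn]
      exact hnew u (star_sn.1 ha)
    · rw [starL_ss]
      exact hD.pos u v (star_ss.1 ha)
  · rintro (_ | u) (_ | v) ha
    · exact absurd ha star_nn
    · rw [starL_ns]
      exact le_rfl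
    · rw [starL_sn]
      show |h u - z| ≤ _
      rw [abs_sub_comm]
    · rw [starL_ss]
      exact hD.lip u v (star_ss.1 ha)
  · rintro (_ | v) hv
    · refine ⟨some q, star_ns.2 (Or.inr (Or.inr rfl)), ?_⟩
      show h q - z = |z - h q|
      rw [abs_of_neg (by linarith)]
      ring
    · obtain ⟨w, hw, h1⟩ := hD.up v fun h => hv (by rw [h])
      exact ⟨some w, star_ss.2 hw, h1⟩
  · rintro (_ | v) hv
    · refine ⟨some a, star_ns.2 (Or.inl rfl), ?_⟩
      show z - h a = |z - h a|
      rw [abs_of_pos (by linarith)]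
    · obtain ⟨w, hw, h1⟩ := hD.dn v fun h => hv (by rw [h])
      exact ⟨some w, star_ss.2 hw, h1⟩

/-- (M2) distances between old vertices do not change -/
theorem StarHyp.dist [Finite V] (H : StarHyp G ℓ h s t a b q) (x y : V) :
    pathDist (starG G a b q) (starL ℓ h (zH ℓ h a b)) (some x) (some y) = pathDist G ℓ x y := by
  have hB := H.bip
  have hD := H.bip.del H.slack
  have hS := H.star
  have za := H.za
  have zb := H.zb
  have zq := H.zq
  have hzz : (zH ℓ h a b - h a) + (zH ℓ h a b - h b) = ℓ s(a, b) := by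
    unfold zH
    ring
  set z := zH ℓ h a b with hz
  have ea : starL ℓ h z s(none, some a) = z - h a := by
    rw [starL_ns, abs_of_pos (by linarith)]
  have eb : starL ℓ h z s(none, some b) = z - h b := by
    rw [starL_ns, abs_of_pos (by linarith)]
  have eq : starL ℓ h z s(none, some q) = h q - z := by
    rw [starL_ns, abs_of_neg (by linarith)]
    ring
  have hab : pathDist (starG G a b q) (starL ℓ h z) (some a) (some b) ≤ ℓ s(a, b) := by
    have h1 := d_tri hS.conn hS.pe (some a) none (some b)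
    have h2 := d_adj hS.pe (star_ns (G := G) (a := a) (b := b) (q := q) (v := a) |>.2 (Or.inl rfl))
    have h3 := d_adj hS.pe
      (star_ns (G := G) (a := a) (b := b) (q := q) (v := b) |>.2 (Or.inr (Or.inl rfl)))
    rw [d_symm hS.conn hS.pe, ea] at h2
    rw [eb] at h3
    linarith
  refine le_antisymm ?_ ?_
  · refine pd_map_le hB.conn hS.conn hS.pos some (fun u v ha => ?_) x y
    by_cases h1 : s(u, v) = s(a, b)
    · rw [h1]
      rcases Sym2.eq_iff.1 h1 with ⟨rfl, rfl⟩ | ⟨rfl, rfl⟩
      · exact hab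
      · rw [d_symm hS.conn hS.pe]
        exact hab
    · exact d_adj hS.pe (star_ss.2 (del_adj.2 ⟨ha, h1⟩))
  · -- a nonexpansive function
    set f : V → ℝ := fun v => pathDist G ℓ x v with hf
    have fl : ∀ u v : V, f u - f v ≤ pathDist G ℓ u v := by
      intro u v
      have h1 := d_tri hB.conn hB.pe x v u
      rw [d_symm hB.conn hB.pe v u] at h1
      show pathDist G ℓ x u - pathDist G ℓ x v ≤ _
      linarith
    have fab : ∀ u v : V, G.Adj u v → f u - f v ≤ ℓ s(u, v) := fun u v ha =>
      (fl u v).trans (d_adj hB.pe ha)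
    have dq : ∀ v, pathDist (G.deleteEdges {s(a, b)}) ℓ v q ≤ h q - h v →
        f v - f q ≤ h q - h v ∧ f q - f v ≤ h q - h v := by
      intro v hv
      have h1 := hB.del_dist_ge H.slack v q
      have h2 := fl v q
      have h3 := fl q v
      rw [d_symm hB.conn hB.pe q v] at h3
      constructor <;> linarith
    have qa := dq a H.ca
    have qb := dq b H.cb
    have ab1 := fab a b H.adj
    have ab2 := fab b a H.adj.symm
    rw [Sym2.eq_swap] at ab2
    set m := max (f a - (z - h a)) (max (f b - (z - h b)) (f q - (h q - z))) with hm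
    have m1 : f a - (z - h a) ≤ m := le_max_left _ _
    have m2 : f b - (z - h b) ≤ m := (le_max_left _ _).trans (le_max_right _ _)
    have m3 : f q - (h q - z) ≤ m := (le_max_right _ _).trans (le_max_right _ _)
    have m4 : m ≤ f a + (z - h a) := by
      refine max_le (by linarith) (max_le (by linarith) (by linarith [qa.2]))
    have m5 : m ≤ f b + (z - h b) := by
      refine max_le (by linarith) (max_le (by linarith) (by linarith [qb.2]))
    have m6 : m ≤ f q + (h q - z) := by
      refine max_le (by linarith [qa.1]) (max_le (by linarith [qb.1]) (by linarith))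
    set g : Option V → ℝ := starH f m with hg
    have gn : ∀ v, (v = a ∨ v = b ∨ v = q) → |m - f v| ≤ |z - h v| := by
      rintro v (rfl | rfl | rfl)
      · rw [abs_of_pos (show 0 < z - h v by linarith), abs_le]
        constructor <;> linarith
      · rw [abs_of_pos (show 0 < z - h v by linarith), abs_le]
        constructor <;> linarith
      · rw [abs_of_neg (show z - h v < 0 by linarith), abs_le]
        constructor <;> linarith
    have hlip : ∀ u v, (starG G a b q).Adj u v → |g u - g v| ≤ starL ℓ h z s(u, v) := by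
      rintro (_ | u) (_ | v) ha
      · exact absurd ha star_nn
      · rw [starL_ns]
        exact gn v (star_ns.1 ha)
      · rw [starL_sn]
        show |f u - m| ≤ _
        rw [abs_sub_comm]
        exact gn u (star_sn.1 ha)
      · rw [starL_ss]
        have h1 := (del_adj.1 (star_ss.1 ha)).1
        have h2 := fab u v h1
        have h3 := fab v u h1.symm
        rw [Sym2.eq_swap] at h3
        show |f u - f v| ≤ _
        rw [abs_le]
        constructor <;> linarith
    have h1 := abs_sub_le_pathDist hlip (hS.conn (some x) (some y))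
    have h2 : |f x - f y| ≤ pathDist (starG G a b q) (starL ℓ h z) (some x) (some y) := h1
    have h3 : f x = 0 := d_self hB.pe x
    rw [h3, zero_sub, abs_neg] at h2
    exact (le_abs_self _).trans h2

/-- the number of slack edges goes down -/
theorem StarHyp.slk_lt [Finite V] (H : StarHyp G ℓ h s t a b q) :
    (slk (starG G a b q) (starL ℓ h (zH ℓ h a b)) (starH h (zH ℓ h a b))).ncard <
      (slk G ℓ h).ncard := by
  refine lt_of_le_of_lt ?_ (slk_del H.adj H.slack)
  rw [← Set.ncard_image_of_injective _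
    ((Option.some_injective V).prodMap (Option.some_injective V))]
  refine Set.ncard_le_ncard ?_ (Set.toFinite _)
  rintro ⟨_ | u, _ | v⟩ ⟨h1, h2⟩
  · exact absurd h1 star_nn
  · exact absurd h2 (lt_irrefl _)
  · refine absurd h2 (not_lt.2 ?_)
    show |zH ℓ h a b - h u| ≤ |h u - zH ℓ h a b|
    rw [abs_sub_comm]
  · exact ⟨(u, v), ⟨star_ss.1 h1, h2⟩, rfl⟩

end star

/-- restriction of an embedding along an isometric map -/
theorem embeds_restrict {X Y : Type} {d : X → X → ℝ} {d' : Y → Y → ℝ} {C : ℝ} (ι : X → Y)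
    (hι : ∀ x y, d' (ι x) (ι y) = d x y) (h : EmbedsL1 d' C) : EmbedsL1 d C := by
  obtain ⟨Ω, m, μ, f, hf⟩ := h
  exact ⟨Ω, m, μ, fun x => f (ι x), fun x y => by rw [← hι]; exact hf _ _⟩

end Vale.Agent.P235.Tight
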