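/-
P235-M (helper611).  Terminals on shortest s-t paths of an arbitrary plane graph: the literal rows.
-/
import Vale.Agent.P235.H536.PlaneDefs

namespace Vale.Agent.P235.Quo

/-- quotient graph (image graph) of `G` under `π` -/
def quo {V W : Type} (G : SimpleGraph V) (π : V → W) : SimpleGraph W where
  Adj w w' := w ≠ w' ∧ ∃ x y, G.Adj x y ∧ π x = w ∧ π y = w'
  symm := ⟨fun _ _ ⟨h, x, y, h1, h2, h3⟩ => ⟨h.symm, y, x, h1.symm, h3, h2⟩⟩
  loopless := ⟨fun _ h => h.1 rfl⟩

/-- identify `y` with `x` -/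
noncomputable def pinch {V : Type} (x y : V) (hxy : x ≠ y) (v : V) : {v : V // v ≠ y} := by
  classical
  exact if h : v = y then ⟨x, hxy⟩ else ⟨v, h⟩

/-- (Q1) contraction of one edge whose ends have no common neighbour -/
def RowCon : Prop :=
  ∀ (V : Type) [Finite V] (G : SimpleGraph V) (σ : Equiv.Perm G.Dart) (x y : V) (hxy : G.Adj x y),
    G.Connected → PlaneMap G σ → (∀ v, G.Adj x v → ¬ G.Adj y v) → 3 ≤ Nat.card V →
    ∃ σ' : Equiv.Perm (quo G (pinch x y hxy.ne)).Dart, PlaneMap (quo G (pinch x y hxy.ne)) σ'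

/-- (Q2) quotients with connected fibres of plane graphs are plane -/
def RowQuo : Prop :=
  ∀ (V W : Type) [Finite V] [Finite W] (G : SimpleGraph V) (π : V → W), G.Connected →
    (∃ σ : Equiv.Perm G.Dart, PlaneMap G σ) → (∀ w, (G.induce {v | π v = w}).Connected) →
    2 ≤ Nat.card W → ∃ σ' : Equiv.Perm (quo G π).Dart, PlaneMap (quo G π) σ'

/-- (Q3) plane graphs have no minor `K_{3,3}` with three branch sets single vertices -/
def RowK33 : Prop :=
  ∀ (V : Type) [Finite V] (G : SimpleGraph V), G.Connected →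
    (∃ σ : Equiv.Perm G.Dart, PlaneMap G σ) → ∀ (a : Fin 3 → V) (S : Fin 3 → Set V),
    Function.Injective a → (∀ i, (G.induce (S i)).Connected) →
    (∀ i j, i ≠ j → Disjoint (S i) (S j)) → (∀ i j, a j ∉ S i) →
    (∀ i j, ∃ x ∈ S i, G.Adj x (a j)) → False

/-- (Q4) `U` is a set of upward edges inside `L`; every vertex of `L` except `t` has one leaving it,
every vertex of `L` except `s` has one entering it. If a connected set `K` outside `L` touches
`a`, `b`, `c` in `L` then two of them are joined by an upward path. -/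
def RowW2 : Prop :=
  ∀ (V : Type) [Finite V] (G : SimpleGraph V), G.Connected →
    (∃ σ : Equiv.Perm G.Dart, PlaneMap G σ) → ∀ (L : Set V) (h : V → ℝ) (s t : V)
    (U : V → V → Prop), (∀ u v, U u v → G.Adj u v ∧ h u < h v ∧ u ∈ L ∧ v ∈ L) →
    s ∈ L → t ∈ L → (∀ v ∈ L, v ≠ s → ∃ u, U u v) → (∀ v ∈ L, v ≠ t → ∃ w, U v w) →
    ∀ K : Set V, (G.induce K).Connected → Disjoint K L →
    ∀ a ∈ L, ∀ b ∈ L, ∀ c ∈ L, (∃ x ∈ K, G.Adj x a) → (∃ x ∈ K, G.Adj x b) →
    (∃ x ∈ K, G.Adj x c) →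
    Relation.ReflTransGen U a b ∨ Relation.ReflTransGen U b a ∨
      Relation.ReflTransGen U a c ∨ Relation.ReflTransGen U c a ∨
      Relation.ReflTransGen U b c ∨ Relation.ReflTransGen U c b

end Vale.Agent.P235.Quo
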