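/-
P235-M (helper611).  Connected partitions extending given connected sets, and row K33 from the case
of six vertices.
-/
import Vale.Agent.P235.R2.H611.QDefs

set_option linter.all false
set_option autoImplicit false

namespace Vale.Agent.P235.Quo

open SimpleGraph

section part

variable {V ι : Type} {G : SimpleGraph V}

theorem conn_insert {S : Set V} {x y : V} (hc : (G.induce S).Connected) (hx : x ∈ S)
    (h : G.Adj x y) : (G.induce (insert y S)).Connected := by
  have hy : y ∈ insert y S := Or.inl rfl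
  have hx' : x ∈ insert y S := Or.inr hx
  have key : ∀ a b : S, (G.induce S).Walk a b →
      (G.induce (insert y S)).Reachable ⟨a, Or.inr a.2⟩ ⟨b, Or.inr b.2⟩ := by
    intro a b w
    induction w with
    | nil => exact Reachable.refl _
    | @cons a c b ha p ih =>
      exact (show (G.induce (insert y S)).Adj ⟨a, Or.inr a.2⟩ ⟨c, Or.inr c.2⟩ from
        ha).reachable.trans ih
  have key2 : ∀ a : V, ∀ ha : a ∈ insert y S,
      (G.induce (insert y S)).Reachable ⟨a, ha⟩ ⟨x, hx'⟩ := by
    rintro a (rfl | ha)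
    · exact (show (G.induce (insert a S)).Adj ⟨a, hy⟩ ⟨x, hx'⟩ from h.symm).reachable
    · obtain ⟨w⟩ := hc ⟨a, ha⟩ ⟨x, hx⟩
      exact key _ _ w
  have : Nonempty ↥(insert y S) := ⟨⟨x, hx'⟩⟩
  exact ⟨fun a b => (key2 a a.2).trans (key2 b b.2).symm⟩

theorem exists_cross {S : Set V} {u v : V} (w : G.Walk u v) (hu : u ∈ S) (hv : v ∉ S) :
    ∃ x y, G.Adj x y ∧ x ∈ S ∧ y ∉ S := by
  induction w with
  | nil => exact absurd hu hv
  | @cons u z v ha p ih =>
    by_cases hz : z ∈ S
    · exact ih hz hv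
    · exact ⟨u, z, ha, hu, hz⟩

/-- disjoint connected sets extend to a partition into connected sets -/
theorem exists_part [Finite V] [Nonempty ι] (hc : G.Connected) :
    ∀ (n : ℕ) (B : ι → Set V), (∀ i, (G.induce (B i)).Connected) →
      (∀ i j, i ≠ j → Disjoint (B i) (B j)) → (⋃ i, B i)ᶜ.ncard = n →
      ∃ π : V → ι, (∀ i, ∀ v ∈ B i, π v = i) ∧ ∀ i, (G.induce {v | π v = i}).Connected := by
  classical
  intro n
  induction n using Nat.strong_induction_on with
  | _ n ih =>
  intro B hB hd hn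
  by_cases hU : (⋃ i, B i) = Set.univ
  · have hex : ∀ v, ∃ i, v ∈ B i := fun v => Set.mem_iUnion.1 (hU ▸ Set.mem_univ v)
    choose π hπ using hex
    have huniq : ∀ i, ∀ v ∈ B i, π v = i := by
      intro i v hv
      by_contra hne
      exact Set.disjoint_left.1 (hd _ _ hne) (hπ v) hv
    refine ⟨π, huniq, fun i => ?_⟩
    have : {v | π v = i} = B i := by
      ext v
      exact ⟨fun h => h ▸ hπ v, fun h => huniq i v h⟩
    rw [this]
    exact hB i
  · obtain ⟨v, hv⟩ := (Set.ne_univ_iff_exists_notMem _).1 hU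
    obtain ⟨i₀⟩ := ‹Nonempty ι›
    obtain ⟨u⟩ := (hB i₀).nonempty
    have hu : (u : V) ∈ ⋃ i, B i := Set.mem_iUnion.2 ⟨i₀, u.2⟩
    obtain ⟨w⟩ := hc u v
    obtain ⟨x, y, hxy, hx, hy⟩ := exists_cross w hu hv
    obtain ⟨k, hk⟩ := Set.mem_iUnion.1 hx
    have hy' : ∀ i, y ∉ B i := fun i hi => hy (Set.mem_iUnion.2 ⟨i, hi⟩)
    set B' : ι → Set V := fun i => if i = k then insert y (B k) else B i with hB'
    have hk' : B' k = insert y (B k) := if_pos rfl
    have hne' : ∀ i, i ≠ k → B' i = B i := fun i hi => if_neg hi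
    have hsub : ∀ i, B i ⊆ B' i := by
      intro i
      by_cases hi : i = k
      · subst hi
        rw [hk']
        exact Set.subset_insert _ _
      · rw [hne' i hi]
    have hU' : (⋃ i, B' i)ᶜ ⊂ (⋃ i, B i)ᶜ := by
      refine ⟨Set.compl_subset_compl.2 (Set.iUnion_mono hsub), fun hh => ?_⟩
      have h1 : y ∈ (⋃ i, B' i)ᶜ := hh hy
      exact h1 (Set.mem_iUnion.2 ⟨k, by rw [hk']; exact Or.inl rfl⟩)
    have hlt : (⋃ i, B' i)ᶜ.ncard < n := by
      rw [← hn]
      exact Set.ncard_lt_ncard hU' (Set.toFinite _)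
    obtain ⟨π, h1, h2⟩ := ih _ hlt B' (fun i => by
      by_cases hi : i = k
      · subst hi
        rw [hk']
        exact conn_insert (hB i) hk hxy
      · rw [hne' i hi]
        exact hB i) (fun i j hij => by
      by_cases hi : i = k
      · subst hi
        have hj : j ≠ i := fun h => hij h.symm
        rw [hk', hne' j hj, Set.disjoint_insert_left]
        exact ⟨hy' j, hd i j hij⟩
      · by_cases hj : j = k
        · subst hj
          rw [hk', hne' i hi, Set.disjoint_insert_right]
          exact ⟨hy' i, hd i j hij⟩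
        · rw [hne' i hi, hne' j hj]
          exact hd i j hij) rfl
    exact ⟨π, fun i v hv => h1 i v (hsub i hv), h2⟩

theorem conn_singleton (a : V) : (G.induce {a}).Connected := by
  have : Nonempty ({a} : Set V) := ⟨⟨a, rfl⟩⟩
  refine ⟨fun x y => ?_⟩
  have : x = y := Subtype.ext (x.2.trans y.2.symm)
  rw [this]

end part

/-- the case of six vertices -/
def NoK33 : Prop :=
  ∀ Q : SimpleGraph (Fin 3 ⊕ Fin 3), (∀ i j, Q.Adj (.inl i) (.inr j)) →
    ¬ ∃ σ : Equiv.Perm Q.Dart, PlaneMap Q σ

theorem rowK33 (hQ : RowQuo) (hK : NoK33) : RowK33 := by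
  intro V _ G hc hP a S ha hS hd hna hadj
  set B : Fin 3 ⊕ Fin 3 → Set V := fun k => match k with
    | .inl i => S i
    | .inr j => {a j} with hB
  obtain ⟨π, h1, h2⟩ := exists_part hc _ B (by
    rintro (i | j)
    · exact hS i
    · exact conn_singleton (a j)) (by
    rintro (i | i) (j | j) hij
    · exact hd i j fun h => hij (by rw [h])
    · exact Set.disjoint_singleton_right.2 (hna i j)
    · exact Set.disjoint_singleton_left.2 (hna j i)
    · refine Set.disjoint_singleton.2 fun h => hij ?_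
      rw [ha h]) rfl
  have hcard : 2 ≤ Nat.card (Fin 3 ⊕ Fin 3) := by
    rw [Nat.card_eq_fintype_card]
    decide
  refine hK (quo G π) (fun i j => ?_) (hQ V _ G π hc hP h2 hcard)
  obtain ⟨x, hx, hxa⟩ := hadj i j
  exact ⟨by simp, x, a j, hxa, h1 (.inl i) x hx, h1 (.inr j) (a j) rfl⟩

end Vale.Agent.P235.Quo
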