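/-
P235-M (helper611).  Quotients with connected fibres of plane graphs are plane, from the contraction
of one edge.
-/
import Vale.Agent.P235.R2.H611.QDefs
import Vale.Agent.P235.R2.H105.Del

set_option linter.all false
set_option autoImplicit false

namespace Vale.Agent.P235.Quo

open SimpleGraph Vale.Agent.P235.R2.H105

/-! ## isomorphic graphs -/

theorem planeMap_iso {V W : Type} {G : SimpleGraph V} {G' : SimpleGraph W} (φ : G ≃g G')
    (h : ∃ σ : Equiv.Perm G.Dart, PlaneMap G σ) : ∃ σ : Equiv.Perm G'.Dart, PlaneMap G' σ := by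
  obtain ⟨σ, hσ⟩ := h
  let e : G.Dart ≃ G'.Dart :=
    { toFun := fun d => ⟨(φ d.fst, φ d.snd), φ.map_adj_iff.2 d.adj⟩
      invFun := fun d => ⟨(φ.symm d.fst, φ.symm d.snd), φ.symm.map_adj_iff.2 d.adj⟩
      left_inv := fun d => by
        ext
        · exact φ.symm_apply_apply _
        · exact φ.symm_apply_apply _
      right_inv := fun d => by
        ext
        · exact φ.apply_symm_apply _
        · exact φ.apply_symm_apply _ }
  let σ' : Equiv.Perm G'.Dart := (e.symm.trans σ).trans e
  have h1 : ∀ d, σ' (e d) = e (σ d) := fun d => by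
    show e (σ (e.symm (e d))) = _
    rw [e.symm_apply_apply]
  have hp : ∀ (n : ℤ) (d : G.Dart), (σ' ^ n) (e d) = e ((σ ^ n) d) := by
    intro n
    induction n using Int.induction_on with
    | zero => intro d; rfl
    | succ n ih =>
      intro d
      rw [zpow_add_one, Equiv.Perm.mul_apply, h1, ih, zpow_add_one, Equiv.Perm.mul_apply]
    | pred n ih =>
      intro d
      have h3 : σ'⁻¹ (e d) = e (σ⁻¹ d) := by
        rw [Equiv.Perm.inv_eq_iff_eq, h1, show σ (σ⁻¹ d) = d from Equiv.apply_symm_apply _ _]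
      rw [zpow_sub_one, Equiv.Perm.mul_apply, h3, ih, zpow_sub_one, Equiv.Perm.mul_apply]
  have h2 : ∀ d, faceNext σ' (e d) = e (faceNext σ d) := fun d => h1 d.symm
  have hf : ∀ (n : ℤ) (d : G.Dart), (faceNext σ' ^ n) (e d) = e ((faceNext σ ^ n) d) := by
    intro n
    induction n using Int.induction_on with
    | zero => intro d; rfl
    | succ n ih =>
      intro d
      rw [zpow_add_one, Equiv.Perm.mul_apply, h2, ih, zpow_add_one, Equiv.Perm.mul_apply]
    | pred n ih =>
      intro d
      have h3 : (faceNext σ')⁻¹ (e d) = e ((faceNext σ)⁻¹ d) := by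
        rw [Equiv.Perm.inv_eq_iff_eq, h2,
          show faceNext σ ((faceNext σ)⁻¹ d) = d from Equiv.apply_symm_apply _ _]
      rw [zpow_sub_one, Equiv.Perm.mul_apply, h3, ih, zpow_sub_one, Equiv.Perm.mul_apply]
  refine ⟨σ', ?_, ?_, ?_⟩
  · intro d
    obtain ⟨d, rfl⟩ := e.surjective d
    rw [h1]
    exact congrArg φ (hσ.fst d)
  · intro d d' hd
    obtain ⟨d, rfl⟩ := e.surjective d
    obtain ⟨d', rfl⟩ := e.surjective d'
    obtain ⟨n, hn⟩ := hσ.cyc d d' (φ.injective hd)
    exact ⟨n, by rw [hp, hn]⟩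
  · have e1 : Nat.card V = Nat.card W := Nat.card_congr φ.toEquiv
    have e2 : Nat.card G.edgeSet = Nat.card G'.edgeSet := Nat.card_congr φ.mapEdgeSet
    have e3 : Nat.card (Quotient (Equiv.Perm.SameCycle.setoid (faceNext σ))) =
        Nat.card (Quotient (Equiv.Perm.SameCycle.setoid (faceNext σ'))) := by
      refine Nat.card_congr (Quotient.congr e fun a b => ?_)
      constructor
      · rintro ⟨n, hn⟩
        exact ⟨n, by rw [hf, hn]⟩
      · rintro ⟨n, hn⟩
        rw [hf] at hn
        exact ⟨n, e.injective hn⟩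
    rw [← e1, ← e2, ← e3]
    exact hσ.euler

/-! ## quotients -/

section quot

variable {V W X : Type} {G : SimpleGraph V}

theorem quo_quo (f : V → W) (g : W → X) : quo (quo G f) g = quo G (g ∘ f) := by
  ext a b
  constructor
  · rintro ⟨h, _, _, ⟨_, x, y, h1, rfl, rfl⟩, h2, h3⟩
    exact ⟨h, x, y, h1, h2, h3⟩
  · rintro ⟨h, x, y, h1, h2, h3⟩
    refine ⟨h, f x, f y, ⟨fun hh => h ?_, x, y, h1, rfl, rfl⟩, h2, h3⟩
    rw [← h2, ← h3]
    exact congrArg g hh

theorem quo_conn (hc : G.Connected) {f : V → W} (hf : Function.Surjective f) :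
    (quo G f).Connected := by
  have key : ∀ x y : V, G.Walk x y → (quo G f).Reachable (f x) (f y) := by
    intro x y w
    induction w with
    | nil => exact Reachable.refl _
    | @cons x z y ha p ih =>
      by_cases hh : f x = f z
      · rw [hh]
        exact ih
      · exact (show (quo G f).Adj (f x) (f z) from ⟨hh, x, z, ha, rfl, rfl⟩).reachable.trans ih
  obtain ⟨v⟩ := hc.nonempty
  have : Nonempty W := ⟨f v⟩
  refine ⟨fun a b => ?_⟩
  obtain ⟨x, rfl⟩ := hf a
  obtain ⟨y, rfl⟩ := hf b
  obtain ⟨w⟩ := hc x y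
  exact key x y w

theorem quo_fib {f : V → W} (hf : Function.Surjective f) {g : W → X} {c : X}
    (hc : (G.induce {v | g (f v) = c}).Connected) :
    ((quo G f).induce {u | g u = c}).Connected := by
  have key : ∀ x y : {v | g (f v) = c}, (G.induce {v | g (f v) = c}).Walk x y →
      ((quo G f).induce {u | g u = c}).Reachable ⟨f x, x.2⟩ ⟨f y, y.2⟩ := by
    intro x y w
    induction w with
    | nil => exact Reachable.refl _
    | @cons x z y ha p ih =>
      by_cases hh : f x = f z
      · have : (⟨f x, x.2⟩ : {u | g u = c}) = ⟨f z, z.2⟩ := Subtype.ext hh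
        rw [this]
        exact ih
      · exact (show ((quo G f).induce {u | g u = c}).Adj ⟨f x, x.2⟩ ⟨f z, z.2⟩ from
          ⟨hh, x, z, ha, rfl, rfl⟩).reachable.trans ih
  obtain ⟨v⟩ := hc.nonempty
  have : Nonempty {u | g u = c} := ⟨⟨f v, v.2⟩⟩
  refine ⟨fun a b => ?_⟩
  obtain ⟨x, hx⟩ := hf a
  obtain ⟨y, hy⟩ := hf b
  have hx' : g (f x) = c := by rw [hx]; exact a.2
  have hy' : g (f y) = c := by rw [hy]; exact b.2
  obtain ⟨w⟩ := hc ⟨x, hx'⟩ ⟨y, hy'⟩
  have h1 := key _ _ w
  have e1 : (⟨f x, hx'⟩ : {u | g u = c}) = a := Subtype.ext hx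
  have e2 : (⟨f y, hy'⟩ : {u | g u = c}) = b := Subtype.ext hy
  rwa [e1, e2] at h1

theorem pinch_self {x y : V} (hxy : x ≠ y) : pinch x y hxy y = ⟨x, hxy⟩ := by
  unfold pinch
  exact dif_pos rfl

theorem pinch_ne {x y : V} (hxy : x ≠ y) {v : V} (hv : v ≠ y) : pinch x y hxy v = ⟨v, hv⟩ := by
  unfold pinch
  exact dif_neg hv

theorem pinch_surj {x y : V} (hxy : x ≠ y) : Function.Surjective (pinch x y hxy) := fun v =>
  ⟨v, pinch_ne hxy v.2⟩

theorem pinch_comp {x y : V} (hxy : x ≠ y) (π : V → W) (h : π x = π y) :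
    (fun v : {v : V // v ≠ y} => π v) ∘ pinch x y hxy = π := by
  funext v
  by_cases hv : v = y
  · subst hv
    show π (pinch x v hxy v) = π v
    rw [pinch_self]
    exact h
  · show π (pinch x y hxy v) = π v
    rw [pinch_ne hxy hv]

/-- deleting one side of a triangle does not change connectedness inside a set which contains the
third vertex as soon as it contains the deleted side -/
theorem tri_conn {x y v : V} (hxy : G.Adj x y) (hxv : G.Adj x v) (hyv : G.Adj y v) {S : Set V}
    (hS : y ∈ S → v ∈ S → x ∈ S) (hc : (G.induce S).Connected) :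
    ((G.deleteEdges {s(y, v)}).induce S).Connected := by
  have n1 : s(x, y) ≠ s(y, v) := by
    intro h
    rcases Sym2.eq_iff.1 h with ⟨h1, h2⟩ | ⟨h1, h2⟩
    · exact hxy.ne h1
    · exact hxv.ne h1
  have n2 : s(x, v) ≠ s(y, v) := by
    intro h
    rcases Sym2.eq_iff.1 h with ⟨h1, h2⟩ | ⟨h1, h2⟩
    · exact hxy.ne h1
    · exact hxv.ne h1
  have a1 : (G.deleteEdges {s(y, v)}).Adj x y := deleteEdges_adj.2 ⟨hxy, n1⟩
  have a2 : (G.deleteEdges {s(y, v)}).Adj x v := deleteEdges_adj.2 ⟨hxv, n2⟩
  have key : ∀ a b : S, (G.induce S).Walk a b →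
      ((G.deleteEdges {s(y, v)}).induce S).Reachable a b := by
    intro a b w
    induction w with
    | nil => exact Reachable.refl _
    | @cons a c b ha p ih =>
      refine Reachable.trans ?_ ih
      have ha' : G.Adj a c := ha
      by_cases hh : s((a : V), (c : V)) = s(y, v)
      · rcases Sym2.eq_iff.1 hh with ⟨h1, h2⟩ | ⟨h1, h2⟩
        · have hx : x ∈ S := hS (h1 ▸ a.2) (h2 ▸ c.2)
          have k1 : ((G.deleteEdges {s(y, v)}).induce S).Adj a ⟨x, hx⟩ := by
            show (G.deleteEdges {s(y, v)}).Adj a x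
            rw [h1]
            exact a1.symm
          have k2 : ((G.deleteEdges {s(y, v)}).induce S).Adj ⟨x, hx⟩ c := by
            show (G.deleteEdges {s(y, v)}).Adj x c
            rw [h2]
            exact a2
          exact k1.reachable.trans k2.reachable
        · have hx : x ∈ S := hS (h2 ▸ c.2) (h1 ▸ a.2)
          have k1 : ((G.deleteEdges {s(y, v)}).induce S).Adj a ⟨x, hx⟩ := by
            show (G.deleteEdges {s(y, v)}).Adj a x
            rw [h1]
            exact a2.symm
          have k2 : ((G.deleteEdges {s(y, v)}).induce S).Adj ⟨x, hx⟩ c := by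
            show (G.deleteEdges {s(y, v)}).Adj x c
            rw [h2]
            exact a1
          exact k1.reachable.trans k2.reachable
      · have k : ((G.deleteEdges {s(y, v)}).induce S).Adj a c :=
          deleteEdges_adj.2 ⟨ha', hh⟩
        exact k.reachable
  have := hc.nonempty
  refine ⟨fun a b => ?_⟩
  obtain ⟨w⟩ := hc a b
  exact key a b w

theorem tri_quo {x y v : V} (hxy : G.Adj x y) (hxv : G.Adj x v) (hyv : G.Adj y v) {π : V → W}
    (hπ : π x = π y) : quo (G.deleteEdges {s(y, v)}) π = quo G π := by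
  have n2 : s(x, v) ≠ s(y, v) := by
    intro h
    rcases Sym2.eq_iff.1 h with ⟨h1, h2⟩ | ⟨h1, h2⟩
    · exact hxy.ne h1
    · exact hxv.ne h1
  have a2 : (G.deleteEdges {s(y, v)}).Adj x v := deleteEdges_adj.2 ⟨hxv, n2⟩
  ext a b
  constructor
  · rintro ⟨h, p, q, h1, h2, h3⟩
    exact ⟨h, p, q, (deleteEdges_adj.1 h1).1, h2, h3⟩
  · rintro ⟨h, p, q, h1, h2, h3⟩
    by_cases hh : s(p, q) = s(y, v)
    · rcases Sym2.eq_iff.1 hh with ⟨rfl, rfl⟩ | ⟨rfl, rfl⟩
      · exact ⟨h, x, q, a2, hπ.trans h2, h3⟩
      · exact ⟨h, p, x, a2.symm, h2, hπ.trans h3⟩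
    · exact ⟨h, p, q, deleteEdges_adj.2 ⟨h1, hh⟩, h2, h3⟩

end quot

theorem induce_univ_conn {V : Type} {G : SimpleGraph V} (h : (G.induce Set.univ).Connected) :
    G.Connected :=
  (Iso.connected_iff (induceUnivIso G)).1 h

theorem rowQuo (hC : RowCon) : RowQuo := by
  -- strong induction on the number of vertices, then on the number of edges
  have main : ∀ (n m : ℕ) (V W : Type) [Finite V] [Finite W] (G : SimpleGraph V) (π : V → W),
      Nat.card V = n → Nat.card G.edgeSet = m → G.Connected →
      (∃ σ : Equiv.Perm G.Dart, PlaneMap G σ) → (∀ w, (G.induce {v | π v = w}).Connected) →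
      2 ≤ Nat.card W → ∃ σ' : Equiv.Perm (quo G π).Dart, PlaneMap (quo G π) σ' := by
    intro n
    induction n using Nat.strong_induction_on with
    | _ n ihn =>
    intro m
    induction m using Nat.strong_induction_on with
    | _ m ihm =>
    intro V W _ _ G π hn hm hc hP hfib hW
    have hsurj : Function.Surjective π := fun w => by
      obtain ⟨v⟩ := (hfib w).nonempty
      exact ⟨v.1, v.2⟩
    by_cases hinj : Function.Injective π
    · -- an isomorphism
      refine planeMap_iso (G := G) ⟨Equiv.ofBijective π ⟨hinj, hsurj⟩, ?_⟩ hP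
      intro a b
      constructor
      · rintro ⟨_, x, y, h1, h2, h3⟩
        have e1 := hinj h2
        have e2 := hinj h3
        rwa [e1, e2] at h1
      · intro h
        exact ⟨fun hh => h.ne (hinj hh), a, b, h, rfl, rfl⟩
    -- an edge inside a fibre
    have hexy : ∃ x y, G.Adj x y ∧ π x = π y := by
      unfold Function.Injective at hinj
      push Not at hinj
      obtain ⟨u, v, huv, hne⟩ := hinj
      obtain ⟨w⟩ := hfib (π v) ⟨u, huv⟩ ⟨v, rfl⟩
      cases w with
      | nil => exact absurd rfl hne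
      | @cons _ z _ ha p =>
        have ha' : G.Adj u z := ha
        exact ⟨u, z, ha', huv.trans z.2.symm⟩
    obtain ⟨x, y, hxy, hπ⟩ := hexy
    by_cases hcom : ∃ v, G.Adj x v ∧ G.Adj y v
    · -- delete a parallel edge
      obtain ⟨v, hxv, hyv⟩ := hcom
      have hc' : (G.deleteEdges {s(y, v)}).Connected := by
        refine induce_univ_conn (tri_conn hxy hxv hyv (fun _ _ => Set.mem_univ _) ?_)
        exact (Iso.connected_iff (induceUnivIso G)).2 hc
      have hP' : ∃ σ' : Equiv.Perm (G.deleteEdges {s(y, v)}).Dart,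
          PlaneMap (G.deleteEdges {s(y, v)}) σ' := by
        obtain ⟨σ, hσ⟩ := hP
        obtain ⟨σ', h1, -⟩ := del_step hσ ⟨(y, v), hyv⟩ (two_sides hc hσ ⟨(y, v), hyv⟩ hc') hc'
        exact ⟨σ', h1⟩
      have hlt : Nat.card (G.deleteEdges {s(y, v)}).edgeSet < m := by
        rw [← hm]
        have h1 : (G.deleteEdges {s(y, v)}).edgeSet ⊂ G.edgeSet := by
          refine ⟨edgeSet_mono (deleteEdges_le _), fun hh => ?_⟩
          have h2 : s(y, v) ∈ (G.deleteEdges {s(y, v)}).edgeSet := hh (G.mem_edgeSet.2 hyv)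
          rw [edgeSet_deleteEdges] at h2
          exact h2.2 rfl
        exact Set.ncard_lt_ncard h1 (Set.toFinite _)
      have h3 := ihm _ hlt V W (G.deleteEdges {s(y, v)}) π hn rfl hc' hP'
        (fun w => tri_conn hxy hxv hyv (fun h1 _ => by
          show π x = w
          rw [hπ]
          exact h1) (hfib w)) hW
      rwa [tri_quo hxy hxv hyv hπ] at h3
    · -- contract
      push Not at hcom
      have h3 : 3 ≤ Nat.card V := by
        have hz : ∃ z, π z ≠ π x := by
          by_contra hh
          push Not at hh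
          have : Subsingleton W := ⟨fun a b => by
            obtain ⟨a, rfl⟩ := hsurj a
            obtain ⟨b, rfl⟩ := hsurj b
            rw [hh a, hh b]⟩
          have h4 : Nat.card W ≤ 1 := Finite.card_le_one_iff_subsingleton.2 this
          omega
        obtain ⟨z, hz⟩ := hz
        have h4 : ({x, y, z} : Set V).ncard = 3 := by
          rw [Set.ncard_eq_three]
          exact ⟨x, y, z, hxy.ne, fun h => hz (by rw [h]), fun h => hz (by rw [← h, hπ]), rfl⟩
        rw [← h4, ← Set.ncard_univ]
        exact Set.ncard_le_ncard (Set.subset_univ _) (Set.toFinite _)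
      obtain ⟨σ, hσ⟩ := hP
      have hP' := hC V G σ x y hxy hc hσ hcom h3
      have hcomp := pinch_comp hxy.ne π hπ
      have hlt : Nat.card {v : V // v ≠ y} < n := by
        rw [← hn]
        exact Finite.card_subtype_lt (x := y) (by simp)
      have h5 := ihn _ hlt _ {v : V // v ≠ y} W (quo G (pinch x y hxy.ne)) (fun v => π v) rfl rfl
        (quo_conn hc (pinch_surj hxy.ne)) hP'
        (fun w => quo_fib (pinch_surj hxy.ne) (g := fun v : {v : V // v ≠ y} => π v) (by
          have h6 : {v | (fun v : {v : V // v ≠ y} => π v) (pinch x y hxy.ne v) = w} =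
              {v | π v = w} := by
            ext v
            have h7 := congrFun hcomp v
            show π (pinch x y hxy.ne v) = w ↔ π v = w
            rw [show π (pinch x y hxy.ne v) = π v from h7]
          rw [h6]
          exact hfib w)) hW
      rwa [quo_quo, hcomp] at h5
  intro V W _ _ G π hc hP hfib hW
  exact main _ _ V W G π rfl rfl hc hP hfib hW

end Vale.Agent.P235.Quo
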