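/-
P235-M (helper611).  From every edge lies on a shortest path from `s` to `t` to every vertex
does: the induction over the slack edges.  The only hypothesis is the literal row W of helper26.
-/
import Vale.Agent.P235.R2.H611.StarMetric
import Vale.Agent.P235.R2.H680.Star
import Vale.Agent.P235.R2.H105.Del
import Vale.Agent.P235.R2.H26.W1Defs

set_option linter.all false
set_option autoImplicit false

namespace Vale.Agent.P235.Tight

open SimpleGraph Vale.Agent.P235.Red Vale.Agent.P235.Red.F0 Vale.Agent.P235.W1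

variable {V : Type} {G : SimpleGraph V} {ℓ : Sym2 V → ℝ} {h : V → ℝ} {s t : V}

/-- a walk avoiding an edge is a walk of the smaller graph -/
theorem del_dist_le_walk (hp : ∀ u v, G.Adj u v → 0 < ℓ s(u, v)) {e : Sym2 V} {x y : V}
    (p : G.Walk x y) (he : e ∉ p.edges) :
    pathDist (G.deleteEdges {e}) ℓ x y ≤ (p.edges.map ℓ).sum := by
  have h1 := d_le (G := G.deleteEdges {e}) (ℓ := ℓ)
    (pos_edge fun u v ha => hp u v (deleteEdges_adj.1 ha).1) (p.toDeleteEdge e he)
  rwa [Walk.toDeleteEdge, Walk.toDeleteEdges, Walk.edges_transfer] at h1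

/-- tight upward paths survive the deletion of a slack edge -/
theorem le_dist [Finite V] (hB : Bip G ℓ h s t) {a b : V} (he : |h a - h b| < ℓ s(a, b)) {x y : V}
    (hxy : Le G ℓ h x y) : pathDist (G.deleteEdges {s(a, b)}) ℓ x y ≤ h y - h x := by
  have hD := hB.del he
  induction hxy with
  | refl => rw [d_self hD.pe]; simp
  | @tail u v _ huv ih =>
    obtain ⟨h1, h2⟩ := huv
    have h3 : s(u, v) ≠ s(a, b) := tight_ne he (by
      rw [← h2, abs_sub_comm]
      exact le_abs_self _)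
    have h4 := d_tri hD.conn hD.pe x u v
    have h5 := d_adj hD.pe (del_adj.2 ⟨h1, h3⟩)
    linarith

theorem slack_of_NT (hB : Bip G ℓ h s t) {a b : V} (hN : NT G ℓ h a b) :
    |h a - h b| < ℓ s(a, b) := by
  obtain ⟨h1, h2, h3⟩ := hN
  refine lt_of_le_of_ne (hB.lip a b h1) fun h4 => ?_
  rcases abs_cases (h a - h b) with ⟨h5, _⟩ | ⟨h5, _⟩
  · refine h3 ⟨h1.symm, ?_⟩
    rw [Sym2.eq_swap, ← h4, h5]
  · refine h2 ⟨h1, ?_⟩
    rw [← h4, h5]
    ring

/-- two vertices on one face after deleting an edge -/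
theorem stPlane_del [Finite V] {a b : V} (hc : G.Connected) (hab : G.Adj a b)
    (hc' : (G.deleteEdges {s(a, b)}).Connected) (hS : StPlane G s t) :
    StPlane (G.deleteEdges {s(a, b)}) s t := by
  obtain ⟨σ, d₀, hσ, h1, h2⟩ := hS
  exact Vale.Agent.P235.R2.H105.rowDel V G σ d₀ ⟨(a, b), hab⟩ s t hσ h1 h2
    (Vale.Agent.P235.R2.H105.two_sides hc hσ ⟨(a, b), hab⟩ hc') hc'

/-- **one step**: the number of slack edges goes down, the metric on the old vertices stays -/
theorem reduce (hW : RowW) : ∀ (n : ℕ) (V : Type) [Finite V] (G : SimpleGraph V)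
    (ℓ : Sym2 V → ℝ) (h : V → ℝ) (s t : V), Bip G ℓ h s t → StPlane G s t →
    (slk G ℓ h).ncard ≤ n →
    ∃ (V' : Type) (_ : Finite V') (G' : SimpleGraph V') (ℓ' : Sym2 V' → ℝ) (h' : V' → ℝ)
      (s' t' : V') (ι : V → V'), Bip G' ℓ' h' s' t' ∧ StPlane G' s' t' ∧ slk G' ℓ' h' = ∅ ∧
      (∀ x y, pathDist G' ℓ' (ι x) (ι y) = pathDist G ℓ x y) ∧ Nat.card V' ≤ Nat.card V + n := by
  intro n
  induction n with
  | zero =>
    intro V _ G ℓ h s t hB hS hn
    refine ⟨V, inferInstance, G, ℓ, h, s, t, id, hB, hS, ?_, fun _ _ => rfl, le_rfl⟩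
    exact (Set.ncard_eq_zero (Set.toFinite _)).1 (Nat.le_zero.1 hn)
  | succ n ih =>
    intro V _ G ℓ h s t hB hS hn
    by_cases hred : ∃ a b, G.Adj a b ∧ |h a - h b| < ℓ s(a, b) ∧
        pathDist (G.deleteEdges {s(a, b)}) ℓ a b ≤ ℓ s(a, b)
    · -- a redundant edge
      obtain ⟨a, b, hab, hsl, hr⟩ := hred
      have hD := hB.del hsl
      have h1 := slk_del (ℓ := ℓ) (h := h) hab hsl
      obtain ⟨V', i, G', ℓ', h', s', t', ι, k1, k2, k3, k4, k5⟩ :=
        ih V _ ℓ h s t hD (stPlane_del hB.conn hab hD.conn hS) (by omega)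
      refine ⟨V', i, G', ℓ', h', s', t', ι, k1, k2, k3, fun x y => ?_, by omega⟩
      rw [k4, hB.del_dist hsl hr]
    push Not at hred
    by_cases hex : ∃ a b, NT G ℓ h a b
    · -- a star
      obtain ⟨σ, d₀, hσ, hs, ht⟩ := hS
      have hSt : St G ℓ h s t := by
        refine ⟨hB.pe, fun u v ha => ?_, fun v hv => ?_, fun v hv => ?_, fun u v hN p hp => ?_⟩
        · have h1 := hB.lip u v ha
          exact (le_abs_self _).trans (by rwa [abs_sub_comm])
        · obtain ⟨w, hw, h1⟩ := hB.dn v hv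
          exact ⟨w, hw.symm, by rw [h1, Sym2.eq_swap]⟩
        · obtain ⟨w, hw, h1⟩ := hB.up v hv
          exact ⟨w, hw, h1⟩
        · exact (hred u v hN.1 (slack_of_NT hB hN)).trans_le (del_dist_le_walk hB.pos p hp)
      obtain ⟨a, b, w, hab, hN, hlea, hleb, hw, hsF⟩ := hW V G σ ℓ h s t hB.conn hσ hSt hex
      have hsl := slack_of_NT hB hN
      have H : StarHyp G ℓ h s t a b w :=
        ⟨hB, hab, hsl, hred a b hab hsl, le_dist hB hsl hlea, le_dist hB hsl hleb⟩
      have hwa : w ≠ a := by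
        rintro rfl
        have h1 := H.zq
        have h2 := H.za
        linarith
      have hwb : w ≠ b := by
        rintro rfl
        have h1 := H.zq
        have h2 := H.zb
        linarith
      have hnf : ¬ (faceNext σ).SameCycle d₀ ⟨(a, b), hab⟩ := by
        intro hh
        obtain ⟨d', h1, h2⟩ := hs
        exact hsF ⟨d', hh.symm.trans h1, h2⟩
      have hA : StPlane (addZ G a b w) (some s) (some t) :=
        rowStar V G σ d₀ ⟨(a, b), hab⟩ w s t hB.conn hσ hs ht hnf hw hwa hwb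
      have hAc : (addZ G a b w).Connected := by
        refine Connected.mono ?_ H.star.conn
        exact deleteEdges_le _
      have hG' : StPlane (starG G a b w) (some s) (some t) :=
        stPlane_del hAc (show (addZ G a b w).Adj (some a) (some b) from hab) H.star.conn hA
      have h1 := H.slk_lt
      obtain ⟨V', i, G', ℓ', h', s', t', ι, k1, k2, k3, k4, k5⟩ :=
        ih (Option V) _ _ _ _ _ H.star hG' (by omega)
      refine ⟨V', i, G', ℓ', h', s', t', fun x => ι (some x), k1, k2, k3, fun x y => ?_, ?_⟩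
      · rw [k4, H.dist]
      · rw [Finite.card_option] at k5
        omega
    · -- nothing left
      push Not at hex
      refine ⟨V, inferInstance, G, ℓ, h, s, t, id, hB, hS, ?_, fun _ _ => rfl, by omega⟩
      rw [Set.eq_empty_iff_forall_notMem]
      rintro ⟨a, b⟩ ⟨h1, h2⟩
      refine hex a b ⟨h1, fun h3 => ?_, fun h3 => ?_⟩
      · have h4 := h3.2
        have h5 : |h a - h b| = |h b - h a| := abs_sub_comm _ _
        have h6 := le_abs_self (h b - h a)
        have h7 : |h a - h b| < ℓ s(a, b) := h2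
        linarith
      · have h4 := h3.2
        have h5 : ℓ s(b, a) = ℓ s(a, b) := by rw [Sym2.eq_swap]
        have h6 := le_abs_self (h a - h b)
        have h7 : |h a - h b| < ℓ s(a, b) := h2
        linarith

/-- every vertex on a shortest path from `s` to `t`, `s` and `t` on one face -/
theorem vertex_geodesic (hW : RowW) {f : ℕ → ℝ} (hF : RowF f) (V : Type) [Finite V]
    (G : SimpleGraph V) (σ : Equiv.Perm G.Dart) (d₀ : G.Dart) (ℓ : Sym2 V → ℝ) (s t : V)
    (hc : G.Connected) (hσ : PlaneMap G σ) (hs : s ∈ onFace σ d₀) (ht : t ∈ onFace σ d₀)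
    (hp : ∀ e ∈ G.edgeSet, 0 < ℓ e)
    (hg : ∀ v, pathDist G ℓ s v + pathDist G ℓ v t = pathDist G ℓ s t) :
    ∃ n : ℕ, n ≤ Nat.card V + Nat.card V ^ 2 ∧ EmbedsL1 (pathDist G ℓ) (2 + 4 * f (n ^ 2)) := by
  have hB := bip_of_vertices hc hp hg
  have hcard : (slk G ℓ (pathDist G ℓ s)).ncard ≤ Nat.card V ^ 2 := by
    have h1 : (slk G ℓ (pathDist G ℓ s)).ncard ≤ Nat.card (V × V) := by
      rw [← Set.ncard_univ]
      exact Set.ncard_le_ncard (Set.subset_univ _) (Set.toFinite _)
    rwa [Nat.card_prod, ← sq] at h1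
  obtain ⟨V', i, G', ℓ', h', s', t', ι, k1, ⟨σ', d', k2, k2a, k2b⟩, k3, k4, k5⟩ :=
    reduce hW _ V G ℓ _ s t hB ⟨σ, d₀, hσ, hs, ht⟩ hcard
  refine ⟨Nat.card V', k5, embeds_restrict ι k4 (hF V' G' σ' d' ℓ' s' t' k1.conn k2 k2a k2b k1.pe
    (k1.all_tight fun u v ha => ?_))⟩
  by_contra hlt
  have h1 : (u, v) ∈ slk G' ℓ' h' := ⟨ha, not_le.1 hlt⟩
  rw [k3] at h1
  exact h1

end Vale.Agent.P235.Tight
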