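/-
P235-M (helper611).  Plane graphs with a nonexpansive function `h` such that every vertex except one
has a steep edge downwards and every vertex except one has a steep edge upwards; the other edges are
arbitrary.
-/
import Vale.Agent.P235.R2.H611.W1Main
import Vale.Agent.P235.R2.H26.RowW
import Vale.Agent.P235.R2.RED.Final2

set_option linter.all false
set_option autoImplicit false

namespace Vale.Agent.P235.Tight

open SimpleGraph Vale.Agent.P235.Red Vale.Agent.P235.Red.F0 Vale.Agent.P235.W1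

/-- deleting an edge of a plane map -/
theorem plane_del {V : Type} [Finite V] {G : SimpleGraph V} {a b : V} (hc : G.Connected)
    (hab : G.Adj a b) (hc' : (G.deleteEdges {s(a, b)}).Connected)
    (hS : ∃ σ : Equiv.Perm G.Dart, PlaneMap G σ) :
    ∃ σ : Equiv.Perm (G.deleteEdges {s(a, b)}).Dart, PlaneMap (G.deleteEdges {s(a, b)}) σ := by
  obtain ⟨σ, hσ⟩ := hS
  obtain ⟨σ', d', h1, -⟩ := stPlane_del (s := a) (t := a) hc hab hc'
    ⟨σ, ⟨(a, b), hab⟩, hσ, ⟨_, Equiv.Perm.SameCycle.refl _ _, rfl⟩,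
      ⟨_, Equiv.Perm.SameCycle.refl _ _, rfl⟩⟩
  exact ⟨σ', h1⟩

/-- the induction over the slack edges, without outer face -/
theorem reduceA (hW : RowW) : ∀ (n : ℕ) (V : Type) [Finite V] (G : SimpleGraph V)
    (ℓ : Sym2 V → ℝ) (h : V → ℝ) (s t : V), Bip G ℓ h s t →
    (∃ σ : Equiv.Perm G.Dart, PlaneMap G σ) → (slk G ℓ h).ncard ≤ n →
    ∃ (V' : Type) (_ : Finite V') (G' : SimpleGraph V') (ℓ' : Sym2 V' → ℝ) (h' : V' → ℝ)
      (s' t' : V') (ι : V → V'), Bip G' ℓ' h' s' t' ∧
      (∃ σ : Equiv.Perm G'.Dart, PlaneMap G' σ) ∧ slk G' ℓ' h' = ∅ ∧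
      (∀ x y, pathDist G' ℓ' (ι x) (ι y) = pathDist G ℓ x y) ∧ Nat.card V' ≤ Nat.card V + n := by
  intro n
  induction n with
  | zero =>
    intro V _ G ℓ h s t hB hS hn
    refine ⟨V, inferInstance, G, ℓ, h, s, t, id, hB, hS, ?_, fun _ _ => rfl, le_rfl⟩
    exact (Set.ncard_eq_zero (Set.toFinite _)).1 (Nat.le_zero.1 hn)
  | succ n ih =>
    intro V _ G ℓ h s t hB hS hn
    by_cases hred : ∃ a b, G.Adj a b ∧ |h a - h b| < ℓ s(a, b) ∧
        pathDist (G.deleteEdges {s(a, b)}) ℓ a b ≤ ℓ s(a, b)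
    · -- a redundant edge
      obtain ⟨a, b, hab, hsl, hr⟩ := hred
      have hD := hB.del hsl
      have h1 := slk_del (ℓ := ℓ) (h := h) hab hsl
      obtain ⟨V', i, G', ℓ', h', s', t', ι, k1, k2, k3, k4, k5⟩ :=
        ih V _ ℓ h s t hD (plane_del hB.conn hab hD.conn hS) (by omega)
      refine ⟨V', i, G', ℓ', h', s', t', ι, k1, k2, k3, fun x y => ?_, by omega⟩
      rw [k4, hB.del_dist hsl hr]
    push Not at hred
    by_cases hex : ∃ a b, NT G ℓ h a b
    · -- a star
      obtain ⟨σ, hσ⟩ := hS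
      have hSt : St G ℓ h s t := by
        refine ⟨hB.pe, fun u v ha => ?_, fun v hv => ?_, fun v hv => ?_, fun u v hN p hp => ?_⟩
        · have h1 := hB.lip u v ha
          exact (le_abs_self _).trans (by rwa [abs_sub_comm])
        · obtain ⟨w, hw, h1⟩ := hB.dn v hv
          exact ⟨w, hw.symm, by rw [h1, Sym2.eq_swap]⟩
        · obtain ⟨w, hw, h1⟩ := hB.up v hv
          exact ⟨w, hw, h1⟩
        · exact (hred u v hN.1 (slack_of_NT hB hN)).trans_le (del_dist_le_walk hB.pos p hp)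
      obtain ⟨a, b, w, hab, hN, hlea, hleb, hw, -⟩ := hW V G σ ℓ h s t hB.conn hσ hSt hex
      have hsl := slack_of_NT hB hN
      have H : StarHyp G ℓ h s t a b w :=
        ⟨hB, hab, hsl, hred a b hab hsl, le_dist hB hsl hlea, le_dist hB hsl hleb⟩
      have hwa : w ≠ a := by
        rintro rfl
        have h1 := H.zq
        have h2 := H.za
        linarith
      have hwb : w ≠ b := by
        rintro rfl
        have h1 := H.zq
        have h2 := H.zb
        linarith
      have hts := Vale.Agent.P235.R2.H105.two_sides hB.conn hσ ⟨(a, b), hab⟩ (hB.del hsl).conn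
      have hA : StPlane (addZ G a b w) (some b) (some b) :=
        rowStar V G σ (⟨(a, b), hab⟩ : G.Dart).symm ⟨(a, b), hab⟩ w b b hB.conn hσ
          ⟨_, Equiv.Perm.SameCycle.refl _ _, rfl⟩ ⟨_, Equiv.Perm.SameCycle.refl _ _, rfl⟩
          (fun hh => hts hh.symm) hw hwa hwb
      have hAc : (addZ G a b w).Connected := by
        refine Connected.mono ?_ H.star.conn
        exact deleteEdges_le _
      have hG' : ∃ σ' : Equiv.Perm (starG G a b w).Dart, PlaneMap (starG G a b w) σ' := by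
        obtain ⟨σ', -, k, -⟩ := hA
        exact plane_del hAc (show (addZ G a b w).Adj (some a) (some b) from hab) H.star.conn
          ⟨σ', k⟩
      have h1 := H.slk_lt
      obtain ⟨V', i, G', ℓ', h', s', t', ι, k1, k2, k3, k4, k5⟩ :=
        ih (Option V) _ _ _ _ _ H.star hG' (by omega)
      refine ⟨V', i, G', ℓ', h', s', t', fun x => ι (some x), k1, k2, k3, fun x y => ?_, ?_⟩
      · rw [k4, H.dist]
      · rw [Finite.card_option] at k5
        omega
    · -- nothing left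
      push Not at hex
      refine ⟨V, inferInstance, G, ℓ, h, s, t, id, hB, hS, ?_, fun _ _ => rfl, by omega⟩
      rw [Set.eq_empty_iff_forall_notMem]
      rintro ⟨a, b⟩ ⟨h1, h2⟩
      refine hex a b ⟨h1, fun h3 => ?_, fun h3 => ?_⟩
      · have h4 := h3.2
        have h5 : |h a - h b| = |h b - h a| := abs_sub_comm _ _
        have h6 := le_abs_self (h b - h a)
        have h7 : |h a - h b| < ℓ s(a, b) := h2
        linarith
      · have h4 := h3.2
        have h5 : ℓ s(b, a) = ℓ s(a, b) := by rw [Sym2.eq_swap]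
        have h6 := le_abs_self (h a - h b)
        have h7 : |h a - h b| < ℓ s(a, b) := h2
        linarith

theorem ll_add_sq (m : ℕ) (hm : 1 ≤ m) {n : ℕ} (hn : n ≤ m + m ^ 2) : ll n ≤ ll m + 2 := by
  have h0 : m ≤ m ^ 2 := by nlinarith
  have h1 : Nat.log 2 n ≤ 2 * Nat.log 2 m + 2 := by
    calc Nat.log 2 n ≤ Nat.log 2 (m ^ 2 * 2) := Nat.log_mono_right (by omega)
      _ = Nat.log 2 (m ^ 2) + 1 := Nat.log_mul_base (by norm_num) (by positivity)
      _ ≤ _ := by have := log_sq m; omega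
  unfold ll
  calc Nat.log 2 (Nat.log 2 n + 1) ≤ Nat.log 2 ((Nat.log 2 m + 1) * 2 * 2) :=
        Nat.log_mono_right (by omega)
    _ = Nat.log 2 (Nat.log 2 m + 1) + 1 + 1 := by
        rw [Nat.log_mul_base (by norm_num) (by omega), Nat.log_mul_base (by norm_num) (by omega)]

/-- every vertex except `t` has a tight edge upwards, every vertex except `s` a tight edge downwards,
all other edges are arbitrary -/
theorem plane_bip_any {C : ℝ} (hC : 1 ≤ C) (hM : MStarLL C) (V : Type) [Finite V]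
    (G : SimpleGraph V) (σ : Equiv.Perm G.Dart) (ℓ : Sym2 V → ℝ) (h : V → ℝ) (s t : V)
    (hP : PlaneMap G σ) (hB : Bip G ℓ h s t) :
    EmbedsL1 (pathDist G ℓ) (219073 * 96 * C * ((ll (Nat.card V) : ℝ) + 1)) := by
  have hcard : (slk G ℓ h).ncard ≤ Nat.card V ^ 2 := by
    have h1 : (slk G ℓ h).ncard ≤ Nat.card (V × V) := by
      rw [← Set.ncard_univ]
      exact Set.ncard_le_ncard (Set.subset_univ _) (Set.toFinite _)
    rwa [Nat.card_prod, ← sq] at h1
  obtain ⟨V', i, G', ℓ', h', s', t', ι, k1, ⟨σ', k2⟩, k3, k4, k5⟩ :=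
    reduceA rowW _ V G ℓ h s t hB ⟨σ, hP⟩ hcard
  have hE := plane_slope_any hC hM V' G' σ' ℓ' h' s' t' 1 k1.conn k2 k1.pe k1.lip
    (fun u v ha => by
      rw [one_mul]
      by_contra hlt
      have h1 : (u, v) ∈ slk G' ℓ' h' := ⟨ha, not_le.1 hlt⟩
      rw [k3] at h1
      exact h1)
    (fun v hv => by
      obtain ⟨w, hw, h1⟩ := k1.dn v hv
      have h2 := k1.pos v w hw
      exact ⟨w, hw, by linarith⟩)
    (fun v hv => by
      obtain ⟨w, hw, h1⟩ := k1.up v hv
      have h2 := k1.pos v w hw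
      exact ⟨w, hw, by linarith⟩)
  obtain ⟨Ω, m, μ, g, hg⟩ := embeds_restrict ι k4 hE
  refine ⟨Ω, m, μ, g, fun x y => ⟨(hg x y).1, (hg x y).2.trans ?_⟩⟩
  refine mul_le_mul_of_nonneg_right ?_ (d_nonneg hB.pe x y)
  have hm : 1 ≤ Nat.card V := by
    have : Nonempty V := ⟨s⟩
    exact Nat.card_pos
  have h2 : (ll (Nat.card V') : ℝ) ≤ (ll (Nat.card V) : ℝ) + 2 := by
    exact_mod_cast ll_add_sq _ hm k5
  have h3 : (0 : ℝ) ≤ (ll (Nat.card V) : ℝ) := Nat.cast_nonneg _
  have h4 : (219073 * 32 * C * 1 : ℝ) * ((ll (Nat.card V') : ℝ) + 1) ≤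
      (219073 * 32 * C * 1) * (3 * ((ll (Nat.card V) : ℝ) + 1)) :=
    mul_le_mul_of_nonneg_left (by linarith) (by linarith)
  linarith

/-- differences of heights as lengths -/
noncomputable def dH {V : Type} (h : V → ℝ) : Sym2 V → ℝ :=
  Sym2.lift ⟨fun u v => |h u - h v|, fun u v => abs_sub_comm _ _⟩

/-- lengths after shrinking the steep edges -/
noncomputable def shr {V : Type} (ℓ : Sym2 V → ℝ) (h : V → ℝ) (D : ℝ) (e : Sym2 V) : ℝ := by
  classical
  exact if ℓ e ≤ D * dH h e then dH h e else ℓ e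

/-- **Plane graphs with a nonexpansive function `h` for which every vertex except `s` has an edge
downwards with slope at least `1/D` and every vertex except `t` has an edge upwards with slope at
least `1/D`.**  All other edges are arbitrary, `s` and `t` are arbitrary. -/
theorem plane_wide_any {C : ℝ} (hC : 1 ≤ C) (hM : MStarLL C) (V : Type) [Finite V]
    (G : SimpleGraph V) (σ : Equiv.Perm G.Dart) (ℓ : Sym2 V → ℝ) (h : V → ℝ) (s t : V) (D : ℝ)
    (hD : 1 ≤ D) (hc : G.Connected) (hP : PlaneMap G σ) (hℓ : ∀ e ∈ G.edgeSet, 0 < ℓ e)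
    (h1 : ∀ u v, G.Adj u v → |h u - h v| ≤ ℓ s(u, v))
    (hlow : ∀ v, v ≠ s → ∃ u, G.Adj v u ∧ ℓ s(v, u) ≤ D * (h v - h u))
    (hhigh : ∀ v, v ≠ t → ∃ u, G.Adj v u ∧ ℓ s(v, u) ≤ D * (h u - h v)) :
    EmbedsL1 (pathDist G ℓ) (219073 * 96 * C * D * ((ll (Nat.card V) : ℝ) + 1)) := by
  classical
  have pos : ∀ u v, G.Adj u v → 0 < ℓ s(u, v) := fun u v ha => hℓ _ (G.mem_edgeSet.2 ha)
  have hD0 : 0 < D := by linarith
  have s1 : ∀ u v, shr ℓ h D s(u, v) = if ℓ s(u, v) ≤ D * |h u - h v| then |h u - h v|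
      else ℓ s(u, v) := by
    intro u v
    unfold shr
    by_cases hh : ℓ s(u, v) ≤ D * |h u - h v|
    · rw [if_pos hh]
      exact if_pos hh
    · rw [if_neg hh]
      exact if_neg hh
  have a1 : ∀ u v, G.Adj u v → shr ℓ h D s(u, v) ≤ ℓ s(u, v) := by
    intro u v ha
    rw [s1]
    split
    · exact h1 u v ha
    · exact le_rfl
  have a2 : ∀ u v, G.Adj u v → ℓ s(u, v) ≤ D * shr ℓ h D s(u, v) := by
    intro u v ha
    rw [s1]
    split
    · assumption
    · have := pos u v ha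
      nlinarith
  have a3 : ∀ u v, G.Adj u v → 0 < shr ℓ h D s(u, v) := by
    intro u v ha
    have h2 := a2 u v ha
    have h3 := pos u v ha
    by_contra h4
    push Not at h4
    nlinarith
  have steep : ∀ u v, G.Adj u v → ℓ s(u, v) ≤ D * (h v - h u) →
      shr ℓ h D s(u, v) = h v - h u := by
    intro u v ha h2
    have h3 := pos u v ha
    have h4 : 0 < h v - h u := by
      by_contra h5
      push Not at h5
      nlinarith
    have h6 : |h u - h v| = h v - h u := by
      rw [abs_of_neg (by linarith)]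
      ring
    rw [s1, h6, if_pos h2]
  have hB : Bip G (shr ℓ h D) h s t := by
    refine ⟨hc, a3, fun u v ha => ?_, fun v hv => ?_, fun v hv => ?_⟩
    · rw [s1]
      split
      · exact le_rfl
      · exact h1 u v ha
    · obtain ⟨w, hw, h2⟩ := hhigh v hv
      exact ⟨w, hw, (steep v w hw h2).symm⟩
    · obtain ⟨w, hw, h2⟩ := hlow v hv
      refine ⟨w, hw, ?_⟩
      rw [Sym2.eq_swap] at h2 ⊢
      exact (steep w v hw.symm h2).symm
  have hE := plane_bip_any hC hM V G σ (shr ℓ h D) h s t hP hB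
  have e1 : ∀ x y, pathDist G ℓ x y ≤ D * pathDist G (shr ℓ h D) x y :=
    R2.H673.pathDist_le_mul hD0.le (fun u v ha => (pos u v ha).le) a2
  have e2 : ∀ x y, pathDist G (shr ℓ h D) x y ≤ 1 * pathDist G ℓ x y :=
    R2.H673.pathDist_le_mul zero_le_one (fun u v ha => (a3 u v ha).le)
      (fun u v ha => by rw [one_mul]; exact a1 u v ha)
  refine R2.H673.embedsL1_scale hD0.le hE e1 (fun x y => ?_)
  have h3 : (0 : ℝ) ≤ 219073 * 96 * C * D * ((ll (Nat.card V) : ℝ) + 1) := by positivity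
  have h4 := mul_le_mul_of_nonneg_left (e2 x y) h3
  rw [one_mul] at h4
  calc D * (219073 * 96 * C * ((ll (Nat.card V) : ℝ) + 1) * pathDist G (shr ℓ h D) x y) =
      219073 * 96 * C * D * ((ll (Nat.card V) : ℝ) + 1) * pathDist G (shr ℓ h D) x y := by ring
    _ ≤ _ := h4

/-- **Plane graphs in which every vertex lies on a shortest path from `s` to `t`**; `s` and `t` are
arbitrary, the edges need not lie on such a path. -/
theorem plane_vertex_any {C : ℝ} (hC : 1 ≤ C) (hM : MStarLL C) (V : Type) [Finite V]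
    (G : SimpleGraph V) (σ : Equiv.Perm G.Dart) (ℓ : Sym2 V → ℝ) (s t : V)
    (hc : G.Connected) (hP : PlaneMap G σ) (hℓ : ∀ e ∈ G.edgeSet, 0 < ℓ e)
    (hg : ∀ v, pathDist G ℓ s v + pathDist G ℓ v t = pathDist G ℓ s t) :
    EmbedsL1 (pathDist G ℓ) (219073 * 96 * C * ((ll (Nat.card V) : ℝ) + 1)) :=
  plane_bip_any hC hM V G σ ℓ _ s t hP (bip_of_vertices hc hℓ hg)

end Vale.Agent.P235.Tight
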