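/-
P235-M (helper611).  Terminals on shortest s-t paths of an arbitrary plane graph: the metric part.
-/
import Vale.Agent.P235.R2.H611.QDefs
import Vale.Agent.P235.R2.H611.W1Any

set_option linter.all false
set_option autoImplicit false

namespace Vale.Agent.P235.Quo

open SimpleGraph Vale.Agent.P235.Red Vale.Agent.P235.Red.F0 Vale.Agent.P235.Tight

/-! ## walks -/

section walks

variable {V : Type} {G : SimpleGraph V} {ℓ : Sym2 V → ℝ}

/-- length of a walk -/
def wl (ℓ : Sym2 V → ℝ) {x y : V} (w : G.Walk x y) : ℝ := (w.edges.map ℓ).sum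

theorem wl_nil {x : V} : wl ℓ (Walk.nil : G.Walk x x) = 0 := by simp [wl]

theorem wl_cons {x y z : V} (ha : G.Adj x y) (w : G.Walk y z) :
    wl ℓ (Walk.cons ha w) = ℓ s(x, y) + wl ℓ w := by
  simp [wl]

theorem wl_append {x y z : V} (w : G.Walk x y) (w' : G.Walk y z) :
    wl ℓ (w.append w') = wl ℓ w + wl ℓ w' := by
  simp [wl]

theorem exists_switch {P : V → Prop} {u v : V} (w : G.Walk u v) (hu : P u) (hv : ¬ P v) :
    ∃ (x y : V) (w₁ : G.Walk u x) (w₂ : G.Walk y v), G.Adj x y ∧ P x ∧ ¬ P y ∧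
      wl ℓ w = wl ℓ w₁ + ℓ s(x, y) + wl ℓ w₂ ∧ y ∈ w.support := by
  induction w with
  | nil => exact absurd hu hv
  | @cons u z v ha p ih =>
    by_cases hz : P z
    · obtain ⟨x, y, w₁, w₂, h1, h2, h3, h4, h5⟩ := ih hz hv
      refine ⟨x, y, Walk.cons ha w₁, w₂, h1, h2, h3, ?_, ?_⟩
      · rw [wl_cons, wl_cons, h4]
        ring
      · rw [Walk.support_cons]
        exact List.mem_cons_of_mem _ h5
    · refine ⟨u, z, Walk.nil, p, ha, hu, hz, ?_, ?_⟩
      · rw [wl_cons, wl_nil, zero_add]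
      · rw [Walk.support_cons]
        exact List.mem_cons_of_mem _ p.start_mem_support

theorem first_hit {L : Set V} {x b : V} (p : G.Walk x b) (hx : x ∉ L) (hb : b ∈ L) :
    ∃ (y c : V) (p₁ : G.Walk x y) (p₂ : G.Walk c b), G.Adj y c ∧ (∀ z ∈ p₁.support, z ∉ L) ∧
      c ∈ L ∧ wl ℓ p = wl ℓ p₁ + ℓ s(y, c) + wl ℓ p₂ ∧ p₂.length < p.length := by
  induction p with
  | nil => exact absurd hb hx
  | @cons x z b ha p ih =>
    by_cases hz : z ∈ L
    · refine ⟨x, z, Walk.nil, p, ha, ?_, hz, ?_, ?_⟩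
      · intro w hw
        rw [Walk.support_nil, List.mem_singleton] at hw
        rw [hw]
        exact hx
      · rw [wl_cons, wl_nil, zero_add]
      · rw [Walk.length_cons]
        exact Nat.lt_succ_self _
    · obtain ⟨y, c, p₁, p₂, h1, h2, h3, h4, h5⟩ := ih hz hb
      refine ⟨y, c, Walk.cons ha p₁, p₂, h1, ?_, h3, ?_, ?_⟩
      · intro w hw
        rw [Walk.support_cons, List.mem_cons] at hw
        rcases hw with rfl | hw
        · exact hx
        · exact h2 w hw
      · rw [wl_cons, wl_cons, h4]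
        ring
      · rw [Walk.length_cons]
        omega

/-- vertices reachable from `x` outside `L` -/
def off (G : SimpleGraph V) (L : Set V) (x : V) : Set V :=
  {v | ∃ w : G.Walk x v, ∀ z ∈ w.support, z ∉ L}

theorem off_disj {L : Set V} {x : V} : Disjoint (off G L x) L := by
  rw [Set.disjoint_left]
  rintro v ⟨w, hw⟩
  exact hw v w.end_mem_support

theorem off_conn {L : Set V} {x : V} (hx : x ∉ L) : (G.induce (off G L x)).Connected := by
  classical
  have hx' : x ∈ off G L x := ⟨Walk.nil, fun z hz => by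
    rw [Walk.support_nil, List.mem_singleton] at hz
    rw [hz]
    exact hx⟩
  have key : ∀ v : off G L x, (G.induce (off G L x)).Reachable ⟨x, hx'⟩ v := by
    rintro ⟨v, w, hw⟩
    have h1 : ∀ z ∈ w.support, z ∈ off G L x := fun z hz =>
      ⟨w.takeUntil z hz, fun y hy => hw y (w.support_takeUntil_subset_support hz hy)⟩
    exact ⟨w.induce (off G L x) h1⟩
  have : Nonempty (off G L x) := ⟨⟨x, hx'⟩⟩
  exact ⟨fun a b => (key a).symm.trans (key b)⟩

theorem off_step {L : Set V} {x y z : V} (hy : y ∈ off G L x) (ha : G.Adj y z) (hz : z ∉ L) :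
    z ∈ off G L x := by
  obtain ⟨w, hw⟩ := hy
  refine ⟨w.append (Walk.cons ha Walk.nil), fun u hu => ?_⟩
  rw [Walk.mem_support_append_iff] at hu
  rcases hu with hu | hu
  · exact hw u hu
  · rw [Walk.support_cons, Walk.support_nil, List.mem_cons, List.mem_singleton] at hu
    rcases hu with rfl | rfl
    · exact hw u w.end_mem_support
    · exact hz

end walks

/-! ## nearest point projection -/

section proj

variable {V : Type} [Finite V] {G : SimpleGraph V} {ℓ : Sym2 V → ℝ}

theorem exists_proj (hc : G.Connected) (hℓ : ∀ e ∈ G.edgeSet, 0 < ℓ e) {L : Set V}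
    (hL : L.Nonempty) : ∃ (π : V → V) (r : V → ℝ), (∀ x, π x ∈ L) ∧ (∀ x ∈ L, π x = x) ∧
      (∀ x, pathDist G ℓ x (π x) ≤ r x) ∧ (∀ x, ∀ u ∈ L, r x ≤ pathDist G ℓ x u) ∧
      (∀ x, x ∉ L → ∃ y, G.Adj x y ∧ π y = π x ∧ r y < r x) := by
  classical
  obtain ⟨l₀, hl₀⟩ := hL
  have hmin : ∀ x, ∃ u ∈ L, ∀ v ∈ L, pathDist G ℓ x u ≤ pathDist G ℓ x v := fun x =>
    Set.exists_min_image L (fun u => pathDist G ℓ x u) (Set.toFinite _) ⟨l₀, hl₀⟩
  choose u₀ hu₀ hu₁ using hmin
  set r : V → ℝ := fun x => pathDist G ℓ x (u₀ x) with hr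
  have hnx : ∀ x, x ∉ L → ∃ y, G.Adj x y ∧ ℓ s(x, y) + r y ≤ r x := by
    intro x hx
    have hne : x ≠ u₀ x := fun h => hx (h ▸ hu₀ x)
    obtain ⟨y, hy, h1⟩ := exists_first hc hℓ hne
    exact ⟨y, hy, by linarith [hu₁ y (u₀ x) (hu₀ x)]⟩
  choose! nx hnx1 hnx2 using hnx
  have hlt : ∀ x, x ∉ L → r (nx x) < r x := fun x hx => by
    have h1 := hℓ _ (G.mem_edgeSet.2 (hnx1 x hx))
    linarith [hnx2 x hx]
  have wf : WellFounded fun x y : V => - r y < - r x := wf_h (fun v => - r v)
  let F : ∀ x : V, (∀ y, - r x < - r y → V) → V := fun x rec =>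
    if h : x ∈ L then x else rec (nx x) (neg_lt_neg (hlt x h))
  let π : V → V := wf.fix F
  have hπ : ∀ x, π x = F x fun y _ => π y := fun x => wf.fix_eq F x
  have hπ1 : ∀ x ∈ L, π x = x := fun x hx => by
    rw [hπ]
    exact dif_pos hx
  have hπ2 : ∀ x, x ∉ L → π x = π (nx x) := fun x hx => by
    conv_lhs => rw [hπ]
    exact dif_neg hx
  have h3 : ∀ x, π x ∈ L := by
    intro x
    induction x using wf.induction with
    | _ x ih =>
      by_cases hx : x ∈ L
      · rw [hπ1 x hx]
        exact hx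
      · rw [hπ2 x hx]
        exact ih _ (neg_lt_neg (hlt x hx))
  have h4 : ∀ x, pathDist G ℓ x (π x) ≤ r x := by
    intro x
    induction x using wf.induction with
    | _ x ih =>
      by_cases hx : x ∈ L
      · rw [hπ1 x hx, d_self hℓ]
        exact d_nonneg hℓ _ _
      · rw [hπ2 x hx]
        have h5 := ih _ (neg_lt_neg (hlt x hx))
        have h6 := d_tri hc hℓ x (nx x) (π (nx x))
        have h7 := d_adj hℓ (hnx1 x hx)
        linarith [hnx2 x hx]
  exact ⟨π, r, h3, hπ1, h4, fun x u hu => hu₁ x u hu, fun x hx =>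
    ⟨nx x, hnx1 x hx, (hπ2 x hx).symm, hlt x hx⟩⟩

end proj

theorem d_pos {V : Type} [Finite V] {G : SimpleGraph V} {ℓ : Sym2 V → ℝ} (hc : G.Connected)
    (hℓ : ∀ e ∈ G.edgeSet, 0 < ℓ e) {x y : V} (h : x ≠ y) : 0 < pathDist G ℓ x y := by
  obtain ⟨w, hw, h1⟩ := exists_first hc hℓ h
  have h2 := hℓ _ (G.mem_edgeSet.2 hw)
  have h3 := d_nonneg hℓ w y
  linarith

/-- the metric of the subset as edge lengths -/
noncomputable def dl {V : Type} (G : SimpleGraph V) (ℓ : Sym2 V → ℝ) (L : Set V) :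
    Sym2 L → ℝ :=
  Sym2.lift ⟨fun u v => pathDist G ℓ u v, fun u v => R2.H673.pathDist_comm' G ℓ u v⟩

theorem embeds_subsingleton {X : Type} [Subsingleton X] {d : X → X → ℝ} (hd : ∀ x, d x x = 0)
    (C : ℝ) : EmbedsL1 d C := by
  refine ⟨Unit, inferInstance, 0, fun _ => 0, fun x y => ?_⟩
  obtain rfl := Subsingleton.elim x y
  rw [hd]
  simp

/-- **Terminals.** -/
theorem term_embeds (hQ : RowQuo) (hW : RowW2) {C : ℝ} (hC : 1 ≤ C) (hM : MStarLL C) (V : Type)
    [Finite V] (G : SimpleGraph V) (σ : Equiv.Perm G.Dart) (ℓ : Sym2 V → ℝ) (L : Set V)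
    (h : V → ℝ) (s t : V) (D : ℝ) (hD : 1 ≤ D) (hc : G.Connected) (hP : PlaneMap G σ)
    (hℓ : ∀ e ∈ G.edgeSet, 0 < ℓ e)
    (h1 : ∀ u ∈ L, ∀ v ∈ L, |h u - h v| ≤ pathDist G ℓ u v) (hs : s ∈ L) (ht : t ∈ L)
    (hlow : ∀ v ∈ L, v ≠ s → ∃ u ∈ L, G.Adj v u ∧ ℓ s(v, u) ≤ D * (h v - h u))
    (hhigh : ∀ v ∈ L, v ≠ t → ∃ u ∈ L, G.Adj v u ∧ ℓ s(v, u) ≤ D * (h u - h v)) :
    EmbedsL1 (fun u v : L => pathDist G ℓ u v)
      (219073 * 96 * C * D * (2 * D + 1) * ((ll (Nat.card V) : ℝ) + 1)) := by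
  classical
  by_cases hcard : 2 ≤ Nat.card L
  swap
  · have hne : Nonempty L := ⟨⟨s, hs⟩⟩
    have h2 : Nat.card L = 1 := by
      have := Nat.card_pos (α := L)
      omega
    have : Subsingleton L := (Nat.card_eq_one_iff_unique.1 h2).1
    exact embeds_subsingleton (X := L) (d := fun u v : L => pathDist G ℓ u v)
      (fun x => d_self hℓ _) _
  have pos : ∀ u v, G.Adj u v → 0 < ℓ s(u, v) := fun u v ha => hℓ _ (G.mem_edgeSet.2 ha)
  have hD0 : 0 < D := by linarith
  obtain ⟨π, r, p1, p2, p3, p4, p5⟩ := exists_proj hc hℓ (L := L) ⟨s, hs⟩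
  have wf : WellFounded fun x y : V => - r y < - r x := wf_h (fun v => - r v)
  set P : V → L := fun x => ⟨π x, p1 x⟩ with hPdef
  have hPL : ∀ u : L, P u = u := fun u => Subtype.ext (p2 u u.2)
  -- the fibres
  have hfib : ∀ w : L, (G.induce {v | P v = w}).Connected := by
    intro w
    have hw : (w : V) ∈ {v | P v = w} := hPL w
    have key : ∀ v : V, ∀ hv : v ∈ {v | P v = w},
        (G.induce {v | P v = w}).Reachable ⟨v, hv⟩ ⟨w, hw⟩ := by
      intro v
      induction v using wf.induction with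
      | _ v ih =>
        intro hv
        by_cases hvL : v ∈ L
        · have h2 : v = w := by
            have h3 : π v = w := congrArg Subtype.val hv
            rw [← h3, p2 v hvL]
          subst h2
          exact Reachable.refl _
        · obtain ⟨y, hy, hy1, hy2⟩ := p5 v hvL
          have hyf : y ∈ {v | P v = w} := by
            show P y = w
            rw [← show P v = w from hv]
            exact Subtype.ext hy1
          have h3 : (G.induce {v | P v = w}).Adj ⟨v, hv⟩ ⟨y, hyf⟩ := hy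
          exact h3.reachable.trans (ih y (neg_lt_neg hy2) hyf)
    have : Nonempty {v | P v = w} := ⟨⟨w, hw⟩⟩
    exact ⟨fun a b => (key a a.2).trans (key b b.2).symm⟩
  have hQex := hQ V L G P hc ⟨σ, hP⟩ hfib hcard
  set Q := quo G P with hQdef
  obtain ⟨σ', hσ'⟩ := hQex
  -- the quotient is connected
  have hadj : ∀ x y, G.Adj x y → P x ≠ P y → Q.Adj (P x) (P y) := fun x y ha hne =>
    ⟨hne, x, y, ha, rfl, rfl⟩
  have hQc : Q.Connected := by
    have key : ∀ x y : V, G.Walk x y → Q.Reachable (P x) (P y) := by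
      intro x y w
      induction w with
      | nil => exact Reachable.refl _
      | @cons x z y ha p ih =>
        by_cases hh : P x = P z
        · rw [hh]
          exact ih
        · exact (hadj x z ha hh).reachable.trans ih
    have : Nonempty L := ⟨⟨s, hs⟩⟩
    refine ⟨fun u v => ?_⟩
    obtain ⟨w⟩ := hc u v
    have h2 := key _ _ w
    rwa [hPL, hPL] at h2
  have hdl : ∀ u v : L, dl G ℓ L s(u, v) = pathDist G ℓ u v := fun _ _ => rfl
  have hQpos : ∀ u v, Q.Adj u v → 0 < dl G ℓ L s(u, v) := by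
    intro u v ha
    rw [hdl]
    exact d_pos hc hℓ fun hh => ha.1 (Subtype.ext hh)
  have hQe := pos_edge hQpos
  -- the edges inside `L`
  have hin : ∀ u v : L, G.Adj u v → Q.Adj u v := fun u v ha => by
    have h2 := hadj u v ha (by
      rw [hPL, hPL]
      exact fun hh => ha.ne (congrArg Subtype.val hh))
    rwa [hPL, hPL] at h2
  -- embedding of the quotient
  have hE := plane_wide_any hC hM L Q σ' (dl G ℓ L) (fun u => h u) ⟨s, hs⟩ ⟨t, ht⟩ D hD hQc hσ' hQe
    (fun u v _ => by rw [hdl]; exact h1 u u.2 v v.2)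
    (fun v hv => by
      obtain ⟨u, hu, ha, h2⟩ := hlow v v.2 fun hh => hv (Subtype.ext hh)
      refine ⟨⟨u, hu⟩, hin v ⟨u, hu⟩ ha, ?_⟩
      rw [hdl]
      exact (d_adj hℓ ha).trans h2)
    (fun v hv => by
      obtain ⟨u, hu, ha, h2⟩ := hhigh v v.2 fun hh => hv (Subtype.ext hh)
      refine ⟨⟨u, hu⟩, hin v ⟨u, hu⟩ ha, ?_⟩
      rw [hdl]
      exact (d_adj hℓ ha).trans h2)
  set dQ := pathDist Q (dl G ℓ L) with hdQ
  have tri := d_tri hQc hQe
  have dge : ∀ u v : L, pathDist G ℓ u v ≤ dQ u v := fun u v =>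
    pd_map_le hQc hc pos (fun u : L => (u : V)) (fun u v _ => le_rfl) u v
  -- steep paths
  set U : V → V → Prop := fun u v => G.Adj u v ∧ ℓ s(u, v) ≤ D * (h v - h u) ∧ u ∈ L ∧ v ∈ L
    with hU
  have hUlt : ∀ u v, U u v → h u < h v := by
    rintro u v ⟨ha, h2, -⟩
    have h3 := pos u v ha
    by_contra h4
    push Not at h4
    nlinarith
  have hUp : ∀ u v, Relation.ReflTransGen U u v → ∀ (hu : u ∈ L) (hv : v ∈ L),
      dQ ⟨u, hu⟩ ⟨v, hv⟩ ≤ D * (h v - h u) := by
    intro u v huv
    induction huv with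
    | refl =>
      intro hu hv
      rw [hdQ, d_self hQe]
      simp
    | @tail v w _ hvw ih =>
      intro hu hw
      obtain ⟨ha, h2, h3, -⟩ := hvw
      have h4 := ih hu h3
      have h5 := tri ⟨u, hu⟩ ⟨v, h3⟩ ⟨w, hw⟩
      have h6 : dQ ⟨v, h3⟩ ⟨w, hw⟩ ≤ pathDist G ℓ v w := d_adj hQe (hin ⟨v, h3⟩ ⟨w, hw⟩ ha)
      have h7 := d_adj hℓ ha
      linarith
  have hcomp : ∀ u v : L, (Relation.ReflTransGen U u v ∨ Relation.ReflTransGen U v u) →
      dQ u v ≤ D * pathDist G ℓ u v := by
    intro u v huv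
    have h2 := h1 u u.2 v v.2
    rcases huv with h3 | h3
    · have h4 := hUp _ _ h3 u.2 v.2
      have h5 := neg_le_of_abs_le h2
      refine h4.trans (mul_le_mul_of_nonneg_left (by linarith) hD0.le)
    · have h4 := hUp _ _ h3 v.2 u.2
      have h5 := le_of_abs_le h2
      have h6 : dQ u v = dQ v u := d_symm hQc hQe u v
      rw [h6]
      exact h4.trans (mul_le_mul_of_nonneg_left h5 hD0.le)
  have hedge : ∀ x y, G.Adj x y → dQ (P x) (P y) ≤ r x + ℓ s(x, y) + r y := by
    intro x y ha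
    have n1 : 0 ≤ r x := (d_nonneg hℓ _ _).trans (p3 x)
    have n2 : 0 ≤ r y := (d_nonneg hℓ _ _).trans (p3 y)
    have n3 := pos x y ha
    by_cases hh : P x = P y
    · rw [hh, hdQ, d_self hQe]
      linarith
    · have h2 : dQ (P x) (P y) ≤ pathDist G ℓ (π x) (π y) := d_adj hQe (hadj x y ha hh)
      have h3 := d_tri hc hℓ (π x) x (π y)
      have h4 := d_tri hc hℓ x y (π y)
      have h5 := d_adj hℓ ha
      have h6 := p3 x
      have h7 := p3 y
      rw [d_symm hc hℓ x] at h6
      linarith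
  -- one excursion
  have piece : ∀ (a c : L) (x y : V) (p : G.Walk x y), (∀ z ∈ p.support, z ∉ L) →
      G.Adj a x → G.Adj y c → dQ a c ≤ (2 * D + 1) * (ℓ s(↑a, x) + wl ℓ p + ℓ s(y, ↑c)) := by
    intro a c x y p hp hax hyc
    set w : G.Walk (a : V) (c : V) := Walk.cons hax (p.append (Walk.cons hyc Walk.nil)) with hw
    have hwl : wl ℓ w = ℓ s(↑a, x) + wl ℓ p + ℓ s(y, ↑c) := by
      rw [hw, wl_cons, wl_append, wl_cons, wl_nil]
      ring
    rw [← hwl]
    have hw0 : 0 ≤ wl ℓ w := w_nonneg hℓ w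
    by_cases hac : Relation.ReflTransGen U (a : V) c ∨ Relation.ReflTransGen U (c : V) a
    · have h2 := hcomp a c hac
      have h3 : pathDist G ℓ a c ≤ wl ℓ w := d_le hℓ w
      have h4 : D * pathDist G ℓ a c ≤ D * wl ℓ w := mul_le_mul_of_nonneg_left h3 hD0.le
      have h5 : 0 ≤ D * wl ℓ w := mul_nonneg hD0.le hw0
      linarith
    · set Pr : V → Prop := fun z => Relation.ReflTransGen U (π z) a ∨
        Relation.ReflTransGen U a (π z) with hPr
      have hPa : Pr a := by
        left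
        rw [p2 a a.2]
      have hPc : ¬ Pr c := by
        intro hh
        rw [hPr] at hh
        simp only [p2 (c : V) c.2] at hh
        exact hac hh.symm
      obtain ⟨x', y', w₁, w₂, k1, k2, k3, k4, k5⟩ := exists_switch (ℓ := ℓ) (P := Pr) w hPa hPc
      -- everything is comparable to one of the two ends
      have hx : x ∉ L := hp x p.start_mem_support
      have hK1 : ∀ z ∈ p.support, z ∈ off G L x := fun z hz =>
        ⟨p.takeUntil z hz, fun u hu => hp u (p.support_takeUntil_subset_support hz hu)⟩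
      have htouch : ∀ z, z ∈ off G L x → ∃ v ∈ off G L x, G.Adj v (π z) := by
        intro z
        induction z using wf.induction with
        | _ z ih =>
          intro hz
          have hzL : z ∉ L := fun hh => Set.disjoint_left.1 off_disj hz hh
          obtain ⟨v, hv, hv1, hv2⟩ := p5 z hzL
          by_cases hvL : v ∈ L
          · refine ⟨z, hz, ?_⟩
            rw [← hv1, p2 v hvL]
            exact hv
          · have h2 := ih v (neg_lt_neg hv2) (off_step hz hv hvL)
            rwa [hv1] at h2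
      have hcmp : ∀ z ∈ w.support, Pr z ∨
          (Relation.ReflTransGen U (π z) c ∨ Relation.ReflTransGen U c (π z)) := by
        intro z hz
        rw [hw, Walk.support_cons, List.mem_cons, Walk.mem_support_append_iff] at hz
        rcases hz with rfl | hz | hz
        · exact Or.inl hPa
        · have hzK := hK1 z hz
          have hyK := hK1 y p.end_mem_support
          have hxK := hK1 x p.start_mem_support
          have h2 := hW V G hc ⟨σ, hP⟩ L h s t U
            (fun u v huv => ⟨huv.1, hUlt u v huv, huv.2.2⟩) hs ht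
            (fun v hv hvs => by
              obtain ⟨u, hu, ha, h3⟩ := hlow v hv hvs
              refine ⟨u, ha.symm, ?_, hu, hv⟩
              rw [Sym2.eq_swap]
              exact h3)
            (fun v hv hvt => by
              obtain ⟨u, hu, ha, h3⟩ := hhigh v hv hvt
              exact ⟨u, ha, h3, hv, hu⟩)
            (off G L x) (off_conn hx) off_disj a a.2 c c.2 (π z) (p1 z)
            ⟨x, hxK, hax.symm⟩ ⟨y, hyK, hyc⟩ (htouch z hzK)
          rcases h2 with h2 | h2 | h2 | h2 | h2 | h2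
          · exact absurd (Or.inl h2) hac
          · exact absurd (Or.inr h2) hac
          · exact Or.inl (Or.inr h2)
          · exact Or.inl (Or.inl h2)
          · exact Or.inr (Or.inr h2)
          · exact Or.inr (Or.inl h2)
        · rw [Walk.support_cons, Walk.support_nil, List.mem_cons, List.mem_singleton] at hz
          rcases hz with rfl | rfl
          · have hzK := hK1 z p.end_mem_support
            have hxK := hK1 x p.start_mem_support
            have h2 := hW V G hc ⟨σ, hP⟩ L h s t U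
              (fun u v huv => ⟨huv.1, hUlt u v huv, huv.2.2⟩) hs ht
              (fun v hv hvs => by
                obtain ⟨u, hu, ha, h3⟩ := hlow v hv hvs
                refine ⟨u, ha.symm, ?_, hu, hv⟩
                rw [Sym2.eq_swap]
                exact h3)
              (fun v hv hvt => by
                obtain ⟨u, hu, ha, h3⟩ := hhigh v hv hvt
                exact ⟨u, ha, h3, hv, hu⟩)
              (off G L x) (off_conn hx) off_disj a a.2 c c.2 (π z) (p1 z)
              ⟨x, hxK, hax.symm⟩ ⟨z, hzK, hyc⟩ (htouch z hzK)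
            rcases h2 with h2 | h2 | h2 | h2 | h2 | h2
            · exact absurd (Or.inl h2) hac
            · exact absurd (Or.inr h2) hac
            · exact Or.inl (Or.inr h2)
            · exact Or.inl (Or.inl h2)
            · exact Or.inr (Or.inr h2)
            · exact Or.inr (Or.inl h2)
          · right
            left
            rw [p2 (c : V) c.2]
      have hy' := (hcmp y' k5).resolve_left k3
      -- the three parts
      have e1 : dQ a (P x') ≤ D * pathDist G ℓ a (π x') := hcomp a (P x') k2.symm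
      have e3 : dQ (P y') c ≤ D * pathDist G ℓ (π y') c := hcomp (P y') c hy'
      have e2 := hedge x' y' k1
      have d1 : pathDist G ℓ a x' ≤ wl ℓ w₁ := d_le hℓ w₁
      have d2 : pathDist G ℓ y' c ≤ wl ℓ w₂ := d_le hℓ w₂
      have r1 : r x' ≤ pathDist G ℓ a x' := by
        have := p4 x' a a.2
        rwa [d_symm hc hℓ] at this
      have r2 : r y' ≤ pathDist G ℓ y' c := p4 y' c c.2
      have f1 : pathDist G ℓ a (π x') ≤ 2 * wl ℓ w₁ := by
        have := d_tri hc hℓ a x' (π x')
        have := p3 x'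
        linarith
      have f3 : pathDist G ℓ (π y') c ≤ 2 * wl ℓ w₂ := by
        have h2 := d_tri hc hℓ (π y') y' c
        have h3 := p3 y'
        rw [d_symm hc hℓ y'] at h3
        linarith
      have g1 : D * pathDist G ℓ a (π x') ≤ D * (2 * wl ℓ w₁) := mul_le_mul_of_nonneg_left f1 hD0.le
      have g3 : D * pathDist G ℓ (π y') c ≤ D * (2 * wl ℓ w₂) := mul_le_mul_of_nonneg_left f3 hD0.le
      have t1 := tri a (P x') c
      have t2 := tri (P x') (P y') c
      have n1 := pos x' y' k1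
      have n2 : 0 ≤ D * ℓ s(x', y') := mul_nonneg hD0.le n1.le
      rw [k4]
      nlinarith
  -- all walks
  have hall : ∀ (n : ℕ) (a b : V) (w : G.Walk a b), w.length ≤ n → ∀ (ha : a ∈ L) (hb : b ∈ L),
      dQ ⟨a, ha⟩ ⟨b, hb⟩ ≤ (2 * D + 1) * wl ℓ w := by
    intro n
    induction n with
    | zero =>
      intro a b w hw ha hb
      cases w with
      | nil => rw [hdQ, d_self hQe, wl_nil]; simp
      | cons h p => simp at hw
    | succ n ih =>
      intro a b w hw ha hb
      cases w with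
      | nil => rw [hdQ, d_self hQe, wl_nil]; simp
      | @cons _ x _ hax p =>
        rw [Walk.length_cons] at hw
        rw [wl_cons]
        have n1 := pos a x hax
        by_cases hx : x ∈ L
        · have h2 := ih x b p (by omega) hx hb
          have h3 : dQ ⟨a, ha⟩ ⟨x, hx⟩ ≤ pathDist G ℓ a x :=
            d_adj hQe (hin ⟨a, ha⟩ ⟨x, hx⟩ hax)
          have h4 := d_adj hℓ hax
          have h5 := tri ⟨a, ha⟩ ⟨x, hx⟩ ⟨b, hb⟩
          nlinarith
        · obtain ⟨y, c, p₁, p₂, k1, k2, k3, k4, k5⟩ := first_hit (ℓ := ℓ) p hx hb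
          have h2 := ih c b p₂ (by omega) k3 hb
          have h3 := piece ⟨a, ha⟩ ⟨c, k3⟩ x y p₁ k2 hax k1
          have h5 := tri ⟨a, ha⟩ ⟨c, k3⟩ ⟨b, hb⟩
          rw [k4]
          have h6 : (2 * D + 1) * (ℓ s(a, x) + (wl ℓ p₁ + ℓ s(y, c) + wl ℓ p₂)) =
            (2 * D + 1) * (ℓ s(a, x) + wl ℓ p₁ + ℓ s(y, c)) + (2 * D + 1) * wl ℓ p₂ := by ring
          rw [h6]
          linarith
  have dle : ∀ u v : L, dQ u v ≤ (2 * D + 1) * pathDist G ℓ u v := by
    intro u v
    have hne : Nonempty (G.Walk (u : V) v) := hc u v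
    have h2 : dQ u v / (2 * D + 1) ≤ pathDist G ℓ u v := by
      refine le_ciInf fun w => ?_
      rw [div_le_iff₀ (by linarith)]
      have h3 := hall _ _ _ w le_rfl u.2 v.2
      rw [mul_comm]
      exact h3
    rwa [div_le_iff₀ (by linarith), mul_comm] at h2
  have hcL : Nat.card L ≤ Nat.card V := Finite.card_subtype_le _
  have hll : (ll (Nat.card L) : ℝ) ≤ (ll (Nat.card V) : ℝ) := by
    have : ll (Nat.card L) ≤ ll (Nat.card V) := by
      unfold ll
      exact Nat.log_mono_right (Nat.add_le_add_right (Nat.log_mono_right hcL) 1)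
    exact_mod_cast this
  refine R2.H673.embedsL1_scale zero_le_one hE (fun u v => by rw [one_mul]; exact dge u v)
    (fun u v => ?_)
  have h3 : (0 : ℝ) ≤ 219073 * 96 * C * D * ((ll (Nat.card V) : ℝ) + 1) := by positivity
  have h4 : (219073 * 96 * C * D * ((ll (Nat.card L) : ℝ) + 1) : ℝ) ≤
      219073 * 96 * C * D * ((ll (Nat.card V) : ℝ) + 1) :=
    mul_le_mul_of_nonneg_left (by linarith) (by positivity)
  have h5 : 0 ≤ dQ u v := d_nonneg hQe u v
  calc 1 * (219073 * 96 * C * D * ((ll (Nat.card L) : ℝ) + 1) * dQ u v)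
      ≤ 219073 * 96 * C * D * ((ll (Nat.card V) : ℝ) + 1) * dQ u v := by
        rw [one_mul]
        exact mul_le_mul_of_nonneg_right h4 h5
    _ ≤ 219073 * 96 * C * D * ((ll (Nat.card V) : ℝ) + 1) *
        ((2 * D + 1) * pathDist G ℓ u v) := mul_le_mul_of_nonneg_left (dle u v) h3
    _ = _ := by ring

end Vale.Agent.P235.Quo
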