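/-
P235-M (helper611).  Terminals in an arbitrary plane graph, ends = one vertex or one face each.
-/
import Vale.Agent.P235.R2.H611.Term
import Vale.Agent.P235.R2.H934.TwoFace

set_option linter.all false
set_option autoImplicit false

namespace Vale.Agent.P235.Quo

open SimpleGraph Vale.Agent.P235.Red Vale.Agent.P235.Red.F0 Vale.Agent.P235.Tight
  Vale.Agent.P235.H341W Vale.Agent.P235.Red.W3

/-- `h` is nonexpansive on the terminals `L`; every terminal outside `B₁` has a steep edge downwards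
to a terminal, every terminal outside `B₂` a steep edge upwards to a terminal -/
structure WideL {V : Type} (G : SimpleGraph V) (ℓ : Sym2 V → ℝ) (h : V → ℝ) (D : ℝ)
    (L B₁ B₂ : Set V) : Prop where
  conn : G.Connected
  pos : ∀ e ∈ G.edgeSet, 0 < ℓ e
  lip : ∀ u ∈ L, ∀ v ∈ L, |h u - h v| ≤ pathDist G ℓ u v
  low : ∀ v ∈ L, v ∉ B₁ → ∃ u ∈ L, G.Adj v u ∧ ℓ s(v, u) ≤ D * (h v - h u)
  high : ∀ v ∈ L, v ∉ B₂ → ∃ u ∈ L, G.Adj v u ∧ ℓ s(v, u) ≤ D * (h u - h v)

variable {V : Type} {G : SimpleGraph V} {ℓ : Sym2 V → ℝ} {h : V → ℝ} {D : ℝ} {L B₁ B₂ : Set V}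

theorem WideL.neg (hW : WideL G ℓ h D L B₁ B₂) : WideL G ℓ (fun v => - h v) D L B₂ B₁ where
  conn := hW.conn
  pos := hW.pos
  lip := fun u hu v hv => by
    have h1 := hW.lip u hu v hv
    rwa [show - h u - - h v = -(h u - h v) by ring, abs_neg]
  low := fun v hL hv => by
    obtain ⟨w, hw, ha, h1⟩ := hW.high v hL hv
    exact ⟨w, hw, ha, by rwa [show - h v - - h w = h w - h v by ring]⟩
  high := fun v hL hv => by
    obtain ⟨w, hw, ha, h1⟩ := hW.low v hL hv
    exact ⟨w, hw, ha, by rwa [show - h w - - h v = h v - h w by ring]⟩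

/-- the upper end contains a terminal -/
theorem WideL.top_nonempty [Finite V] (hW : WideL G ℓ h D L B₁ B₂) (hD : 0 < D)
    (hL : L.Nonempty) : (B₂ ∩ L).Nonempty := by
  obtain ⟨m, hm, hmax⟩ := Set.exists_max_image L h (Set.toFinite _) hL
  by_contra hh
  have hmB : m ∉ B₂ := fun h1 => hh ⟨m, h1, hm⟩
  obtain ⟨u, hu, ha, h1⟩ := hW.high m hm hmB
  have h2 := hmax u hu
  have h3 := hW.pos _ (G.mem_edgeSet.2 ha)
  nlinarith

theorem WideL.bot_nonempty [Finite V] (hW : WideL G ℓ h D L B₁ B₂) (hD : 0 < D)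
    (hL : L.Nonempty) : (B₁ ∩ L).Nonempty := hW.neg.top_nonempty hD hL

/-- the terminals after adding a top -/
def capSet (L : Set V) : Set (Option V) := insert none (some '' L)

theorem WideL.cap [Finite V] (hW : WideL G ℓ h D L B₁ B₂) (hD : 1 ≤ D)
    (hT : (B₂ ∩ L).Nonempty) {M H : ℝ}
    (hM : ∀ x y, pathDist G ℓ x y ≤ M) (hH : ∀ v, M < H - h v) :
    WideL (capG G (B₂ ∩ L)) (capL ℓ h H) (capH h H) D (capSet L) (some '' B₁) {none} := by
  have hT' := hT
  obtain ⟨x, hxB, hx⟩ := hT'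
  have hM0 : 0 ≤ M := (pd_nonneg hW.pos x x).trans (hM x x)
  have hcc : (capG G (B₂ ∩ L)).Connected := cap_connected hW.conn hT
  have hpos : ∀ e ∈ (capG G (B₂ ∩ L)).edgeSet, 0 < capL ℓ h H e := by
    intro e he
    induction e with
    | _ a b =>
      rcases a with _ | a <;> rcases b with _ | b
      · exact absurd he (by simp [capG])
      · rw [capL_ns]; exact abs_pos.2 (by linarith [hH b])
      · rw [capL_sn]; exact abs_pos.2 (by linarith [hH a])
      · rw [capL_some]; exact hW.pos _ he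
  have hnone : ∀ v ∈ L, |H - h v| ≤ pathDist (capG G (B₂ ∩ L)) (capL ℓ h H) none (some v) := by
    intro v hv
    set f : Option V → ℝ := fun u => match u with
      | none => H - h v
      | some u => pathDist G ℓ u v with hf
    have hl : ∀ a b, (capG G (B₂ ∩ L)).Adj a b → |f a - f b| ≤ capL ℓ h H s(a, b) := by
      have k1 : ∀ y, y ∈ B₂ ∩ L → |H - h v - pathDist G ℓ y v| ≤ |H - h y| := by
        intro y hy
        have h1 := le_of_abs_le (hW.lip y hy.2 v hv)
        have h2 := hM y v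
        have h3 := hH v
        have h4 := hH y
        rw [abs_of_nonneg (show 0 ≤ H - h y by linarith), abs_le]
        constructor <;> linarith
      rintro (_ | a) (_ | b) ha
      · exact absurd ha (fun h => h)
      · exact k1 b ha
      · show |pathDist G ℓ a v - (H - h v)| ≤ |H - h a|
        rw [abs_sub_comm]
        exact k1 a ha
      · have ha' : G.Adj a b := ha
        have h1 := d_tri hW.conn hW.pos a b v
        have h2 := d_tri hW.conn hW.pos b a v
        have h3 := d_adj hW.pos ha'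
        rw [d_symm hW.conn hW.pos b a] at h2
        show |pathDist G ℓ a v - pathDist G ℓ b v| ≤ ℓ s(a, b)
        rw [abs_le]
        constructor <;> linarith
    have h1 := R2.H673.abs_sub_le_pathDist hl (hcc none (some v))
    have h2 : f none - f (some v) = H - h v := by
      show H - h v - pathDist G ℓ v v = H - h v
      rw [d_self hW.pos, sub_zero]
    rwa [h2] at h1
  refine ⟨hcc, hpos, ?_, ?_, ?_⟩
  · rintro u (rfl | ⟨u, hu, rfl⟩) v (rfl | ⟨v, hv, rfl⟩)
    · show |H - H| ≤ _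
      rw [sub_self, abs_zero]
      exact d_nonneg hpos _ _
    · exact hnone v hv
    · show |h u - H| ≤ _
      rw [abs_sub_comm, R2.H673.pathDist_comm']
      exact hnone u hu
    · rw [cap_dist hW.conn hW.pos hT hM hH]
      exact hW.lip u hu v hv
  · rintro v (rfl | ⟨v, hv, rfl⟩) hvB
    · refine ⟨some x, Or.inr ⟨x, hx, rfl⟩, ⟨hxB, hx⟩, ?_⟩
      show |H - h x| ≤ D * (H - h x)
      rw [abs_of_nonneg (by linarith [hH x])]
      exact le_mul_of_one_le_left (by linarith [hH x]) hD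
    · obtain ⟨u, hu, ha, h1⟩ := hW.low v hv (fun h3 => hvB ⟨v, h3, rfl⟩)
      exact ⟨some u, Or.inr ⟨u, hu, rfl⟩, ha, h1⟩
  · rintro v (rfl | ⟨v, hv, rfl⟩) hvB
    · exact absurd rfl hvB
    · by_cases hvT : v ∈ B₂
      · refine ⟨none, Or.inl rfl, ⟨hvT, hv⟩, ?_⟩
        show |H - h v| ≤ D * (H - h v)
        rw [abs_of_nonneg (by linarith [hH v])]
        exact le_mul_of_one_le_left (by linarith [hH v]) hD
      · obtain ⟨u, hu, ha, h1⟩ := hW.high v hv hvT
        exact ⟨some u, Or.inr ⟨u, hu, rfl⟩, ha, h1⟩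

theorem embeds_empty {X : Type} [IsEmpty X] {d : X → X → ℝ} (C : ℝ) : EmbedsL1 d C :=
  ⟨Unit, inferInstance, 0, fun x => isEmptyElim x, fun x => isEmptyElim x⟩

section final

variable [Finite V] {C : ℝ}

/-- both ends are vertices -/
theorem termL_vv (hQ : RowQuo) (hW2 : RowW2) (hC : 1 ≤ C) (hM : MStarLL C) (hD : 1 ≤ D)
    {σ : Equiv.Perm G.Dart} (hP : PlaneMap G σ) {s t : V} (hW : WideL G ℓ h D L {s} {t}) :
    EmbedsL1 (fun u v : L => pathDist G ℓ u v)
      (219073 * 96 * C * D * (2 * D + 1) * ((ll (Nat.card V) : ℝ) + 1)) := by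
  rcases L.eq_empty_or_nonempty with rfl | hL
  · exact embeds_empty _
  obtain ⟨t', ht', ht⟩ := hW.top_nonempty (by linarith) hL
  obtain ⟨s', hs', hs⟩ := hW.bot_nonempty (by linarith) hL
  obtain rfl : t' = t := ht'
  obtain rfl : s' = s := hs'
  exact term_embeds hQ hW2 hC hM V G σ ℓ L h s' t' D hD hW.conn hP hW.pos hW.lip hs ht
    (fun v hv hne => hW.low v hv hne) (fun v hv hne => hW.high v hv hne)

/-- the lower end is a vertex, the upper end on a face -/
theorem termL_vf (hQ : RowQuo) (hW2 : RowW2) (hC : 1 ≤ C) (hM : MStarLL C) (hD : 1 ≤ D)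
    {σ : Equiv.Perm G.Dart} (hP : PlaneMap G σ) {s : V} {d₀ : G.Dart} {T : Set V}
    (hTf : T ⊆ onFace σ d₀) (hW : WideL G ℓ h D L {s} T) :
    EmbedsL1 (fun u v : L => pathDist G ℓ u v)
      (219073 * 96 * C * D * (2 * D + 1) * ((ll (Nat.card V + 1) : ℝ) + 1)) := by
  rcases L.eq_empty_or_nonempty with rfl | hL
  · exact embeds_empty _
  have hne : Nonempty V := ⟨s⟩
  have hT := hW.top_nonempty (by linarith) hL
  obtain ⟨σ', hP', -⟩ := R2.H582.rowCap2 V G σ d₀ (T ∩ L) hW.conn hP hT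
    (Set.inter_subset_left.trans hTf)
  obtain ⟨M, H, h1, h2⟩ := exists_height G ℓ h
  have hW' := hW.cap hD hT h1 h2
  rw [Set.image_singleton] at hW'
  have hE := termL_vv hQ hW2 hC hM hD hP' hW'
  rw [Finite.card_option] at hE
  exact embeds_restrict (fun u : L => (⟨some u, Or.inr ⟨u, u.2, rfl⟩⟩ : capSet L))
    (fun x y => cap_dist hW.conn hW.pos hT h1 h2 x y) hE

/-- both ends on (different) faces -/
theorem termL_ff (hQ : RowQuo) (hW2 : RowW2) (hC : 1 ≤ C) (hM : MStarLL C) (hD : 1 ≤ D)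
    {σ : Equiv.Perm G.Dart} (hP : PlaneMap G σ) {d₁ d₂ : G.Dart}
    (hd : ¬ (faceNext σ).SameCycle d₁ d₂)
    (hW : WideL G ℓ h D L (onFace σ d₁) (onFace σ d₂)) :
    EmbedsL1 (fun u v : L => pathDist G ℓ u v)
      (219073 * 96 * C * D * (2 * D + 1) * ((ll (Nat.card V + 1 + 1) : ℝ) + 1)) := by
  rcases L.eq_empty_or_nonempty with rfl | hL
  · exact embeds_empty _
  have hne : Nonempty V := ⟨d₁.fst⟩
  have hT₁ := hW.bot_nonempty (by linarith) hL
  obtain ⟨σ', hP', h0⟩ := R2.H582.rowCap2 V G σ d₁ (onFace σ d₁ ∩ L) hW.conn hP hT₁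
    Set.inter_subset_left
  obtain ⟨d', hd'⟩ := h0 d₂ hd
  obtain ⟨M, H, h1, h2⟩ := exists_height G ℓ (fun v => - h v)
  have hW' := (hW.neg.cap hD hT₁ h1 h2).neg
  have hE := termL_vf hQ hW2 hC hM hD hP' (T := some '' onFace σ d₂)
    (by rintro _ ⟨v, hv, rfl⟩; exact hd' v hv) hW'
  rw [Finite.card_option] at hE
  exact embeds_restrict (fun u : L => (⟨some u, Or.inr ⟨u, u.2, rfl⟩⟩ : capSet L))
    (fun x y => cap_dist hW.conn hW.pos hT₁ h1 h2 x y) hE

/-- **Terminals, ends = one vertex or one face each.**  `G` is any plane graph with any positive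
lengths, `L` any set of vertices (terminals), `h` any function which is nonexpansive on `L`; every
terminal outside `B₁` has a neighbour in `L` with slope at least `1/D` downwards, every terminal
outside `B₂` has a neighbour in `L` with slope at least `1/D` upwards. -/
theorem term_ends (hQ : RowQuo) (hW2 : RowW2) (hC : 1 ≤ C) (hM : MStarLL C)
    (V : Type) [Finite V] (G : SimpleGraph V) (σ : Equiv.Perm G.Dart) (ℓ : Sym2 V → ℝ)
    (h : V → ℝ) (L B₁ B₂ : Set V) (D : ℝ) (hD : 1 ≤ D) (hc : G.Connected) (hP : PlaneMap G σ)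
    (hℓ : ∀ e ∈ G.edgeSet, 0 < ℓ e) (hB : Ends σ B₁ B₂)
    (h1 : ∀ u ∈ L, ∀ v ∈ L, |h u - h v| ≤ pathDist G ℓ u v)
    (hlow : ∀ v ∈ L, v ∉ B₁ → ∃ u ∈ L, G.Adj v u ∧ ℓ s(v, u) ≤ D * (h v - h u))
    (hhigh : ∀ v ∈ L, v ∉ B₂ → ∃ u ∈ L, G.Adj v u ∧ ℓ s(v, u) ≤ D * (h u - h v)) :
    EmbedsL1 (fun u v : L => pathDist G ℓ u v)
      (219073 * 96 * C * D * (2 * D + 1) * ((ll (Nat.card V) : ℝ) + 3)) := by
  have hW : WideL G ℓ h D L B₁ B₂ := ⟨hc, hℓ, h1, hlow, hhigh⟩
  have hne : Nonempty V := hc.nonempty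
  have hm : 1 ≤ Nat.card V := Nat.card_pos
  obtain ⟨a, b, hab⟩ := planeMap_adj hc hP
  have hm2 : 2 ≤ Nat.card V := by
    have := Fintype.ofFinite V
    rw [Nat.card_eq_fintype_card]
    exact Fintype.one_lt_card_iff.2 ⟨a, b, hab.ne⟩
  have key : ∀ n : ℕ, n ≤ Nat.card V + 2 → (EmbedsL1 (fun u v : L => pathDist G ℓ u v)
      (219073 * 96 * C * D * (2 * D + 1) * ((ll n : ℝ) + 1))) →
      EmbedsL1 (fun u v : L => pathDist G ℓ u v)
        (219073 * 96 * C * D * (2 * D + 1) * ((ll (Nat.card V) : ℝ) + 3)) := by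
    intro n hn hE
    obtain ⟨Ω, m, μ, g, hg⟩ := hE
    refine ⟨Ω, m, μ, g, fun x y => ⟨(hg x y).1, (hg x y).2.trans ?_⟩⟩
    refine mul_le_mul_of_nonneg_right ?_ (d_nonneg hℓ x y)
    have h2 : (ll n : ℝ) ≤ (ll (Nat.card V) : ℝ) + 2 := by
      exact_mod_cast ll_add_sq _ hm (by nlinarith)
    have h3 : (0 : ℝ) ≤ 219073 * 96 * C * D * (2 * D + 1) := by positivity
    exact mul_le_mul_of_nonneg_left (by linarith) h3
  obtain ⟨e1, e2, e3⟩ := hB
  have hcases : ((∃ s, B₁ = {s}) ∧ ∃ t, B₂ = {t}) ∨ ((∃ s, B₁ = {s}) ∧ ∃ d₂, B₂ = onFace σ d₂) ∨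
      ((∃ d₁, B₁ = onFace σ d₁) ∧ ∃ t, B₂ = {t}) ∨
      ∃ d₁ d₂, ¬ (faceNext σ).SameCycle d₁ d₂ ∧ B₁ = onFace σ d₁ ∧ B₂ = onFace σ d₂ := by
    rcases e3 with h3 | h3 | h3
    · rcases e2 with h4 | h4
      · exact Or.inl ⟨h3, h4⟩
      · exact Or.inr (Or.inl ⟨h3, h4⟩)
    · rcases e1 with h4 | h4
      · exact Or.inl ⟨h4, h3⟩
      · exact Or.inr (Or.inr (Or.inl ⟨h4, h3⟩))
    · exact Or.inr (Or.inr (Or.inr h3))
  rcases hcases with ⟨⟨s, rfl⟩, t, rfl⟩ | ⟨⟨s, rfl⟩, d₂, rfl⟩ | ⟨⟨d₁, rfl⟩, t, rfl⟩ |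
    ⟨d₁, d₂, hd, rfl, rfl⟩
  · exact key _ (by omega) (termL_vv hQ hW2 hC hM hD hP hW)
  · exact key _ (by omega) (termL_vf hQ hW2 hC hM hD hP subset_rfl hW)
  · exact key _ (by omega) (termL_vf hQ hW2 hC hM hD hP subset_rfl hW.neg)
  · exact key _ (by omega) (termL_ff hQ hW2 hC hM hD hP hd hW)

/-- **All vertices on shortest `s`-`t` paths of an arbitrary plane graph.** -/
theorem term_geodesics (hQ : RowQuo) (hW2 : RowW2) (hC : 1 ≤ C) (hM : MStarLL C)
    (V : Type) [Finite V] (G : SimpleGraph V) (σ : Equiv.Perm G.Dart) (ℓ : Sym2 V → ℝ) (s t : V)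
    (hc : G.Connected) (hP : PlaneMap G σ) (hℓ : ∀ e ∈ G.edgeSet, 0 < ℓ e) :
    EmbedsL1 (fun u v : {v | pathDist G ℓ s v + pathDist G ℓ v t = pathDist G ℓ s t} =>
      pathDist G ℓ u v) (219073 * 96 * C * 3 * ((ll (Nat.card V) : ℝ) + 1)) := by
  set L : Set V := {v | pathDist G ℓ s v + pathDist G ℓ v t = pathDist G ℓ s t} with hL
  have hW : WideL G ℓ (pathDist G ℓ s) 1 L {s} {t} := by
    refine ⟨hc, hℓ, fun u _ v _ => ?_, fun v hv hvs => ?_, fun v hv hvt => ?_⟩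
    · have h1 := d_tri hc hℓ s u v
      have h2 := d_tri hc hℓ s v u
      rw [d_symm hc hℓ v u] at h2
      rw [abs_le]
      constructor <;> linarith
    · obtain ⟨u, hu, h1⟩ := exists_first hc hℓ (r := s) (v := v) hvs
      rw [d_symm hc hℓ u s, d_symm hc hℓ v s] at h1
      have h2 := d_adj hℓ hu
      have h3 := d_tri hc hℓ s u t
      have h4 := d_tri hc hℓ u v t
      rw [d_symm hc hℓ v u] at h2
      have hv' : pathDist G ℓ s v + pathDist G ℓ v t = pathDist G ℓ s t := hv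
      refine ⟨u, ?_, hu, by linarith⟩
      show pathDist G ℓ s u + pathDist G ℓ u t = pathDist G ℓ s t
      linarith
    · obtain ⟨u, hu, h1⟩ := exists_first hc hℓ (r := t) (v := v) hvt
      have h2 := d_adj hℓ hu
      have h3 := d_tri hc hℓ s u t
      have h4 := d_tri hc hℓ s v u
      have hv' : pathDist G ℓ s v + pathDist G ℓ v t = pathDist G ℓ s t := hv
      refine ⟨u, ?_, hu, by linarith⟩
      show pathDist G ℓ s u + pathDist G ℓ u t = pathDist G ℓ s t
      linarith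
  have hE := termL_vv hQ hW2 hC hM le_rfl hP hW
  rw [show (219073 * 96 * C * 3 * ((ll (Nat.card V) : ℝ) + 1)) =
    219073 * 96 * C * 1 * (2 * 1 + 1) * ((ll (Nat.card V) : ℝ) + 1) by ring]
  exact hE

end final

end Vale.Agent.P235.Quo
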