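/-
P235-M (helper611).  Terminals in an arbitrary plane graph: final forms.
-/
import Vale.Agent.P235.R2.H611.TermEnds
import Vale.Agent.P235.R2.H611.Quo
import Vale.Agent.P235.R2.H611.K33a
import Vale.Agent.P235.R2.H26.RowW2
import Vale.Agent.P235.R2.H26.NoK33
import Vale.Agent.P235.R2.H582.Contract

set_option linter.all false
set_option autoImplicit false

namespace Vale.Agent.P235.Quo

open SimpleGraph Vale.Agent.P235.Red Vale.Agent.P235.Red.W3

theorem quo_row : RowQuo := rowQuo Vale.Agent.P235.R2.H582.Contract.rowCon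

theorem w2_row : RowW2 := rowW2 (rowK33 quo_row noK33)

/-- **Terminals in an arbitrary plane graph.**  `G` is any plane graph with any positive lengths,
`L` any set of vertices (terminals), `h` any function which is nonexpansive on `L`, `B₁` and `B₂`
are one vertex or one face each; every terminal outside `B₁` has a neighbour in `L` with slope at
least `1/D` downwards, every terminal outside `B₂` has a neighbour in `L` with slope at least `1/D`
upwards. Nothing is assumed about the other vertices and edges. -/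
theorem terminals {C : ℝ} (hC : 1 ≤ C) (hM : MStarLL C)
    (V : Type) [Finite V] (G : SimpleGraph V) (σ : Equiv.Perm G.Dart) (ℓ : Sym2 V → ℝ)
    (h : V → ℝ) (L B₁ B₂ : Set V) (D : ℝ) (hD : 1 ≤ D) (hc : G.Connected) (hP : PlaneMap G σ)
    (hℓ : ∀ e ∈ G.edgeSet, 0 < ℓ e) (hB : Ends σ B₁ B₂)
    (h1 : ∀ u ∈ L, ∀ v ∈ L, |h u - h v| ≤ pathDist G ℓ u v)
    (hlow : ∀ v ∈ L, v ∉ B₁ → ∃ u ∈ L, G.Adj v u ∧ ℓ s(v, u) ≤ D * (h v - h u))
    (hhigh : ∀ v ∈ L, v ∉ B₂ → ∃ u ∈ L, G.Adj v u ∧ ℓ s(v, u) ≤ D * (h u - h v)) :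
    EmbedsL1 (fun u v : L => pathDist G ℓ u v)
      (219073 * 96 * C * D * (2 * D + 1) * ((ll (Nat.card V) : ℝ) + 3)) :=
  term_ends quo_row w2_row hC hM V G σ ℓ h L B₁ B₂ D hD hc hP hℓ hB h1 hlow hhigh

/-- **All vertices on shortest `s`-`t` paths of an arbitrary plane graph.** -/
theorem geodesic_terminals {C : ℝ} (hC : 1 ≤ C) (hM : MStarLL C)
    (V : Type) [Finite V] (G : SimpleGraph V) (σ : Equiv.Perm G.Dart) (ℓ : Sym2 V → ℝ) (s t : V)
    (hc : G.Connected) (hP : PlaneMap G σ) (hℓ : ∀ e ∈ G.edgeSet, 0 < ℓ e) :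
    EmbedsL1 (fun u v : {v | pathDist G ℓ s v + pathDist G ℓ v t = pathDist G ℓ s t} =>
      pathDist G ℓ u v) (219073 * 96 * C * 3 * ((ll (Nat.card V) : ℝ) + 1)) :=
  term_geodesics quo_row w2_row hC hM V G σ ℓ s t hc hP hℓ

end Vale.Agent.P235.Quo
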