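/-
P235-M (helper611).  Row R1 of `KprSpec`: no `K_{3,3}` minor with connected branch sets.
-/
import Vale.Agent.P235.R2.H582.KprSpec
import Vale.Agent.P235.R2.H611.Quo
import Vale.Agent.P235.R2.H26.NoK33
import Vale.Agent.P235.R2.H582.Contract

set_option linter.all false
set_option autoImplicit false

namespace Vale.Agent.P235.Kpr

open Vale.Agent.P235 Vale.Agent.P235.Quo SimpleGraph

/-- **(R1)** -/
theorem rowMinor : RowMinor := by
  intro V _ G hc hP A S hA hS hdA hdS hAS hadj
  set B : Fin 3 ⊕ Fin 3 → Set V := fun k => match k with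
    | .inl i => A i
    | .inr j => S j with hB
  obtain ⟨π, h1, h2⟩ := exists_part hc _ B (by
    rintro (i | j)
    · exact hA i
    · exact hS j) (by
    rintro (i | i) (j | j) hij
    · exact hdA i j fun h => hij (by rw [h])
    · exact hAS i j
    · exact (hAS j i).symm
    · exact hdS i j fun h => hij (by rw [h])) rfl
  have hcard : 2 ≤ Nat.card (Fin 3 ⊕ Fin 3) := by
    rw [Nat.card_eq_fintype_card]
    decide
  refine noK33 (quo G π) (fun i j => ?_)
    (Quo.rowQuo Vale.Agent.P235.R2.H582.Contract.rowCon V _ G π hc hP h2 hcard)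
  obtain ⟨a, ha, b, hb, hab⟩ := hadj i j
  exact ⟨by simp, a, b, hab, h1 (.inl i) a ha, h1 (.inr j) b hb⟩

end Vale.Agent.P235.Kpr
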