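/-
P235-M (helper611).  Row K6 of `KrSpec`: plane graphs have no `K_6` minor.
-/
import Vale.Agent.P235.R2.H341.KrSpec
import Vale.Agent.P235.R2.H611.KprR1

set_option linter.all false
set_option autoImplicit false

namespace Vale.Agent.P235.Kr

open Vale.Agent.P235 Vale.Agent.P235.Kpr

/-- **(K6)** -/
theorem rowK6 : RowK6 := by
  rintro V _ G hc hP ⟨μ, h1, h2, h3⟩
  have hne : ∀ i j : Fin 3, (⟨i.1, by omega⟩ : Fin 6) ≠ ⟨j.1 + 3, by omega⟩ := by
    intro i j h
    have := congrArg Fin.val h
    simp only at this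
    omega
  refine rowMinor V G hc hP (fun i => μ ⟨i.1, by omega⟩) (fun i => μ ⟨i.1 + 3, by omega⟩)
    (fun i => h1 _) (fun i => h1 _) (fun i j hij => h2 _ _ fun h => hij ?_)
    (fun i j hij => h2 _ _ fun h => hij ?_) (fun i j => h2 _ _ (hne i j)) fun i j => ?_
  · have := congrArg Fin.val h
    exact Fin.ext this
  · have := congrArg Fin.val h
    simp only at this
    exact Fin.ext (by omega)
  · exact h3 _ _ (hne i j)

end Vale.Agent.P235.Kr
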