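/-
P235-M (helper611, after helper802's Uni).  Unions of sets in graphs without a `K_r` minor.
-/
import Vale.Agent.P235.R2.H341.KrSpec
import Vale.Agent.P235.R2.H643.StepT

set_option linter.all false
set_option autoImplicit false

namespace Vale.Agent.P235.KrUni

open SimpleGraph Vale.Agent.P235

variable {V : Type} [Finite V] {G : SimpleGraph V} {ℓ : Sym2 V → ℝ}

/-- one set: an `L₁` metric on all vertices which separates `x ∈ X` from every vertex -/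
theorem set_map (h7 : Kr.RowK4) {r : ℕ} (hc : G.Connected) (hP : Kr.NoK r G)
    (hℓ : ∀ e ∈ G.edgeSet, 0 < ℓ e) {X : Set V} {B : ℝ} (hB : 1 ≤ B)
    (hE : EmbedsL1 (fun u v : X => pathDist G ℓ u v) B) :
    ∃ F : V → V → ℝ, IsL1 F ∧ (∀ u v, F u v ≤ 201 * ((r : ℝ) + 2) ^ 3 * B * pathDist G ℓ u v) ∧
      ∀ x ∈ X, ∀ y, pathDist G ℓ x y ≤ F x y := by
  classical
  have hd := pathDist_isMet hc hℓ
  obtain ⟨q, hq⟩ : ∃ q : ℝ, q = (r : ℝ) + 2 := ⟨_, rfl⟩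
  have hq2 : 2 ≤ q := by
    rw [hq]
    have : (0 : ℝ) ≤ r := Nat.cast_nonneg _
    linarith
  have hq8 : (8 : ℝ) ≤ q ^ 3 := by
    calc (8 : ℝ) = 2 ^ 3 := by norm_num
      _ ≤ q ^ 3 := pow_le_pow_left₀ (by norm_num) hq2 3
  rw [← hq]
  rcases X.eq_empty_or_nonempty with rfl | hX
  · refine ⟨fun _ _ => |(0 : ℝ) - 0|, isL1_line (fun _ : V => (0 : ℝ)), fun u v => ?_, fun x hx => ?_⟩
    · have := hd.nonneg u v
      rw [sub_zero, abs_zero]
      positivity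
    · exact absurd hx (Set.notMem_empty x)
  obtain ⟨ν, hν⟩ := exists_near (X := X) hc hℓ hX
  obtain ⟨κ, hκ, w, π, hw, hw1, hπ1, hπ3, hπ4⟩ := h7 V G ℓ r hc hP hℓ X ν hν
  rw [← hq] at hπ3
  obtain ⟨ρ, hρL, hρ1, hρ2, -⟩ := hE.toL1S
  have hρI : IsL1 ρ := hρL.isL1
  let F₁ : V → V → ℝ := fun x y => ∑ i, w i * ρ ⟨π i x, hπ1 i x⟩ ⟨π i y, hπ1 i y⟩
  let F₂ : V → V → ℝ := fun x y => |pathDist G ℓ x (ν x) - pathDist G ℓ y (ν y)|
  have hF₁ : IsL1 F₁ := IsL1.sum Finset.univ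
    (fun i x y => w i * ρ ⟨π i x, hπ1 i x⟩ ⟨π i y, hπ1 i y⟩)
    fun i _ => (hρI.comap (fun x => (⟨π i x, hπ1 i x⟩ : X))).smul (hw i)
  have hF₂ : IsL1 F₂ := isL1_line (fun v => pathDist G ℓ v (ν v))
  have hF₁u : ∀ x y, F₁ x y ≤ 200 * q ^ 3 * B * pathDist G ℓ x y := by
    refine pathDist_semi hc (by positivity) (fun x => hF₁.self x) (fun x y z => hF₁.tri x y z)
      fun u v huv => ?_
    have h1 : F₁ u v ≤ ∑ i, B * (w i * pathDist G ℓ (π i u) (π i v)) := by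
      refine Finset.sum_le_sum fun i _ => ?_
      have h2 : ρ ⟨π i u, hπ1 i u⟩ ⟨π i v, hπ1 i v⟩ ≤ B * pathDist G ℓ (π i u) (π i v) :=
        hρ2 ⟨π i u, hπ1 i u⟩ ⟨π i v, hπ1 i v⟩
      have := mul_le_mul_of_nonneg_left h2 (hw i)
      linarith
    rw [← Finset.mul_sum] at h1
    have h2 := mul_le_mul_of_nonneg_left (hπ3 u v huv) (by linarith : (0 : ℝ) ≤ B)
    linarith
  refine ⟨fun x y => F₁ x y + 3 * F₂ x y, hF₁.add (hF₂.smul (by norm_num)), fun u v => ?_,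
    fun x hx y => ?_⟩
  · have h1 := hF₁u u v
    have h2 : F₂ u v ≤ pathDist G ℓ u v := by
      have a1 := hν.lip hc hℓ u v
      have a2 := hν.lip hc hℓ v u
      rw [hd.symm v u] at a2
      show |pathDist G ℓ u (ν u) - pathDist G ℓ v (ν v)| ≤ _
      rw [abs_le]; constructor <;> linarith
    have h3 := hd.nonneg u v
    have h4 : 3 * pathDist G ℓ u v ≤ q ^ 3 * (B * pathDist G ℓ u v) := by
      refine mul_le_mul (by linarith) (by nlinarith) h3 (by linarith)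
    show F₁ u v + 3 * F₂ u v ≤ _
    have h5 : 201 * q ^ 3 * B * pathDist G ℓ u v = 200 * q ^ 3 * B * pathDist G ℓ u v +
      q ^ 3 * (B * pathDist G ℓ u v) := by ring
    rw [h5]
    linarith
  · have hx0 : pathDist G ℓ x (ν x) = 0 := by
      rw [hν.self x hx]
      exact hd.self x
    have h0 : ∀ i, pathDist G ℓ x y - 3 * pathDist G ℓ y (ν y) ≤
        ρ ⟨π i x, hπ1 i x⟩ ⟨π i y, hπ1 i y⟩ := by
      intro i
      have h2 : pathDist G ℓ (π i x) (π i y) ≤ ρ ⟨π i x, hπ1 i x⟩ ⟨π i y, hπ1 i y⟩ :=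
        hρ1 ⟨π i x, hπ1 i x⟩ ⟨π i y, hπ1 i y⟩
      have h3 := hd.tri x (π i x) y
      have h4 := hd.tri (π i x) (π i y) y
      rw [hd.symm (π i y) y] at h4
      have h5 := hπ4 i x
      have h6 := hπ4 i y
      rw [hx0] at h5
      linarith
    have h1 : ∑ i, w i * (pathDist G ℓ x y - 3 * pathDist G ℓ y (ν y)) ≤ F₁ x y :=
      Finset.sum_le_sum fun i _ => mul_le_mul_of_nonneg_left (h0 i) (hw i)
    rw [← Finset.sum_mul, hw1, one_mul] at h1
    have h2 : F₂ x y = pathDist G ℓ y (ν y) := by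
      show |pathDist G ℓ x (ν x) - pathDist G ℓ y (ν y)| = _
      rw [hx0, zero_sub, abs_neg, abs_of_nonneg (hd.nonneg _ _)]
    show _ ≤ F₁ x y + 3 * F₂ x y
    rw [h2]
    linarith

/-- **unions of sets in a graph without `K_r` minor** -/
theorem union_embeds (h7 : Kr.RowK4) {r : ℕ} (hc : G.Connected)
    (hP : Kr.NoK r G) (hℓ : ∀ e ∈ G.edgeSet, 0 < ℓ e) {m : ℕ}
    {X : Fin m → Set V} {B : Fin m → ℝ} (hB : ∀ i, 1 ≤ B i)
    (hE : ∀ i, EmbedsL1 (fun u v : X i => pathDist G ℓ u v) (B i)) :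
    EmbedsL1 (fun u v : (⋃ i, X i : Set V) => pathDist G ℓ u v)
      (201 * ((r : ℝ) + 2) ^ 3 * ∑ i, B i) := by
  classical
  have hd := pathDist_isMet hc hℓ
  choose F hF h1 h2 using fun i => set_map h7 hc hP hℓ (hB i) (hE i)
  have hS : IsL1 fun x y => ∑ i, F i x y := IsL1.sum Finset.univ (fun i x y => F i x y)
    fun i _ => hF i
  refine (hS.comap (fun x : (⋃ i, X i : Set V) => x.1)).embeds (fun x y => ?_) (fun x y => ?_)
  · obtain ⟨i, hi⟩ := Set.mem_iUnion.1 x.2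
    exact (h2 i x.1 hi y.1).trans (Finset.single_le_sum (f := fun i => F i x.1 y.1)
      (fun j _ => (hF j).nonneg _ _) (Finset.mem_univ i))
  · show ∑ i, F i x.1 y.1 ≤ _
    refine (Finset.sum_le_sum fun i _ => h1 i x.1 y.1).trans (le_of_eq ?_)
    rw [Finset.mul_sum, Finset.sum_mul]

end Vale.Agent.P235.KrUni
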