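/-
P235-M (helper611).  Row Z2 of `UniSpec`: the first element of `U₂` in a random order lies in `U₁`.
-/
import Vale.Agent.P235.R2.H721.UniSpec

set_option linter.all false
set_option autoImplicit false

namespace Vale.Agent.P235.Kpr

open Vale.Agent.P235 Finset

section first

variable {m : ℕ}

/-- the orders in which `i` is first in `R` -/
noncomputable def firstIn (R : Finset (Fin m)) (i : Fin m) : Finset (Equiv.Perm (Fin m)) := by
  classical
  exact Finset.univ.filter fun π => ∀ j ∈ R, π i ≤ π j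

theorem mem_firstIn {R : Finset (Fin m)} {i : Fin m} {π : Equiv.Perm (Fin m)} :
    π ∈ firstIn R i ↔ ∀ j ∈ R, π i ≤ π j := by
  classical
  unfold firstIn
  simp

theorem firstIn_le {R : Finset (Fin m)} {i i' : Fin m} (hi : i ∈ R) (hi' : i' ∈ R) :
    (firstIn R i).card ≤ (firstIn R i').card := by
  classical
  refine Finset.card_le_card_of_injOn (fun π => π * Equiv.swap i i') ?_ ?_
  · intro π hπ
    have hπ' := mem_firstIn.1 (Finset.mem_coe.1 hπ)
    refine Finset.mem_coe.2 (mem_firstIn.2 fun j hj => ?_)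
    show (π * Equiv.swap i i') i' ≤ (π * Equiv.swap i i') j
    rw [Equiv.Perm.mul_apply, Equiv.Perm.mul_apply, Equiv.swap_apply_right]
    refine hπ' _ ?_
    by_cases h1 : j = i
    · subst h1
      rw [Equiv.swap_apply_left]
      exact hi'
    · by_cases h2 : j = i'
      · subst h2
        rw [Equiv.swap_apply_right]
        exact hi
      · rw [Equiv.swap_apply_of_ne_of_ne h1 h2]
        exact hj
  · intro π _ π' _ h
    exact mul_right_cancel h

theorem firstIn_disj {R : Finset (Fin m)} {i i' : Fin m} (hi : i ∈ R) (hi' : i' ∈ R)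
    (hne : i ≠ i') : Disjoint (firstIn R i) (firstIn R i') := by
  classical
  rw [Finset.disjoint_left]
  intro π h1 h2
  exact hne (π.injective (le_antisymm (mem_firstIn.1 h1 i' hi') (mem_firstIn.1 h2 i hi)))

theorem exists_firstIn {R : Finset (Fin m)} (hR : R.Nonempty) (π : Equiv.Perm (Fin m)) :
    ∃ i ∈ R, π ∈ firstIn R i := by
  obtain ⟨i, hi, h⟩ := Finset.exists_min_image R (fun j => π j) hR
  exact ⟨i, hi, mem_firstIn.2 h⟩

/-- every element of `R` is first in `R` in the same number of orders -/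
theorem card_firstIn {R : Finset (Fin m)} {i : Fin m} (hi : i ∈ R) :
    R.card * (firstIn R i).card = m.factorial := by
  classical
  have h1 : (R.biUnion fun j => firstIn R j) = Finset.univ := by
    rw [Finset.eq_univ_iff_forall]
    intro π
    obtain ⟨j, hj, h⟩ := exists_firstIn ⟨i, hi⟩ π
    exact Finset.mem_biUnion.2 ⟨j, hj, h⟩
  have h2 := Finset.card_biUnion (s := R) (t := fun j => firstIn R j)
    (fun a ha b hb hab => firstIn_disj ha hb hab)
  rw [h1, Finset.card_univ, Fintype.card_perm, Fintype.card_fin] at h2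
  rw [h2]
  rw [Finset.sum_congr rfl (fun j hj => le_antisymm (firstIn_le hj hi) (firstIn_le hi hj)),
    Finset.sum_const, smul_eq_mul]

end first

/-- **(Z2)** -/
theorem rowFirst : RowFirst := by
  classical
  intro m U₁ U₂ hU
  set s₁ : Finset (Fin m) := U₁.toFinset with hs₁
  set s₂ : Finset (Fin m) := U₂.toFinset with hs₂
  have e1 : U₁.ncard = s₁.card := Set.ncard_eq_toFinset_card' U₁
  have e2 : U₂.ncard = s₂.card := Set.ncard_eq_toFinset_card' U₂
  have hsub : s₁ ⊆ s₂ := Set.toFinset_subset_toFinset.2 hU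
  have e3 : ({π : Equiv.Perm (Fin m) | ∃ i ∈ U₁, ∀ j ∈ U₂, π i ≤ π j} : Set _).ncard =
      (s₁.biUnion fun i => firstIn s₂ i).card := by
    rw [← Set.ncard_coe_finset]
    congr 1
    ext π
    simp only [Set.mem_setOf_eq, Finset.coe_biUnion, Set.mem_iUnion, Finset.mem_coe, mem_firstIn,
      hs₁, hs₂, Set.mem_toFinset, exists_prop]
  rw [e1, e2, e3]
  rcases s₁.eq_empty_or_nonempty with h | ⟨i₀, hi₀⟩
  · rw [h]
    simp
  rw [Finset.card_biUnion (fun a ha b hb hab => firstIn_disj (hsub ha) (hsub hb) hab)]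
  have h1 : ∑ u ∈ s₁, (firstIn s₂ u).card = s₁.card * (firstIn s₂ i₀).card := by
    rw [Finset.sum_congr rfl (fun j hj => le_antisymm (firstIn_le (hsub hj) (hsub hi₀))
      (firstIn_le (hsub hi₀) (hsub hj))), Finset.sum_const, smul_eq_mul]
  rw [h1]
  have h2 := card_firstIn (hsub hi₀)
  have h3 : m.factorial * s₁.card = s₂.card * (s₁.card * (firstIn s₂ i₀).card) := by
    rw [← h2]
    ring
  exact_mod_cast h3.le

end Vale.Agent.P235.Kpr
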