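/-
P235-M (helper611).  Row Z1 of `UniSpec`: the mean number of records of a random order.
-/
import Vale.Agent.P235.R2.H611.UniZ2
import Mathlib.NumberTheory.Harmonic.Bounds

set_option linter.all false
set_option autoImplicit false

namespace Vale.Agent.P235.Kpr.H611

open Vale.Agent.P235 Vale.Agent.P235.Kpr Finset

theorem rank_sum {m : ℕ} (e : Fin m → ℝ) : ∀ (n : ℕ) (S : Finset (Fin m)), S.card = n →
    ∑ i ∈ S, (1 : ℝ) / ((S.filter fun j => e j ≤ e i).card : ℝ) ≤
      ∑ k ∈ Finset.range n, (1 : ℝ) / ((k : ℝ) + 1) := by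
  classical
  intro n
  induction n with
  | zero =>
    intro S hS
    rw [Finset.card_eq_zero.1 hS]
    simp
  | succ n ih =>
    intro S hS
    have hne : S.Nonempty := by
      rw [← Finset.card_pos, hS]
      exact Nat.succ_pos n
    obtain ⟨a, ha, hmax⟩ := Finset.exists_max_image S e hne
    have hcard : (S.erase a).card = n := by rw [Finset.card_erase_of_mem ha, hS]; rfl
    rw [← Finset.add_sum_erase S _ ha, Finset.sum_range_succ, add_comm]
    refine add_le_add ?_ ?_
    · refine le_trans (Finset.sum_le_sum fun i hi => ?_) (ih _ hcard)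
      have hpos : 0 < (((S.erase a).filter fun j => e j ≤ e i).card : ℝ) := by
        have : i ∈ (S.erase a).filter fun j => e j ≤ e i :=
          Finset.mem_filter.2 ⟨hi, le_rfl⟩
        exact_mod_cast Finset.card_pos.2 ⟨i, this⟩
      refine one_div_le_one_div_of_le hpos ?_
      exact_mod_cast Finset.card_le_card (Finset.filter_subset_filter _ (Finset.erase_subset a S))
    · have h1 : (S.filter fun j => e j ≤ e a) = S := Finset.filter_true_of_mem hmax
      rw [h1, hS]
      push_cast
      exact le_rfl

/-- **(Z1)** -/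
theorem rowRec : RowRec := by
  classical
  intro m e
  have h1 : ∀ π : Equiv.Perm (Fin m), (({i | ∀ j, π j < π i → e i < e j} : Set (Fin m)).ncard : ℝ) =
      ∑ i, if π ∈ firstIn (Finset.univ.filter fun j => e j ≤ e i) i then (1 : ℝ) else 0 := by
    intro π
    rw [Finset.sum_boole, Set.ncard_eq_toFinset_card']
    congr 2
    ext i
    simp only [Set.mem_toFinset, Set.mem_setOf_eq, Finset.mem_filter, Finset.mem_univ, true_and,
      mem_firstIn]
    constructor
    · intro h j hj
      by_contra hlt
      push Not at hlt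
      exact absurd (h j hlt) (not_lt.2 hj)
    · intro h j hj
      by_contra hle
      push Not at hle
      exact absurd (h j hle) (not_le.2 hj)
  simp only [h1]
  rw [Finset.sum_comm]
  have h2 : ∀ i : Fin m, (∑ π : Equiv.Perm (Fin m),
      if π ∈ firstIn (Finset.univ.filter fun j => e j ≤ e i) i then (1 : ℝ) else 0) =
      (m.factorial : ℝ) * (1 / (((Finset.univ : Finset (Fin m)).filter fun j =>
        e j ≤ e i).card : ℝ)) := by
    intro i
    have hi : i ∈ Finset.univ.filter fun j => e j ≤ e i :=
      Finset.mem_filter.2 ⟨Finset.mem_univ _, le_rfl⟩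
    have h3 := card_firstIn hi
    have hpos : 0 < (((Finset.univ : Finset (Fin m)).filter fun j => e j ≤ e i).card : ℝ) := by
      exact_mod_cast Finset.card_pos.2 ⟨i, hi⟩
    rw [Finset.sum_boole, mul_one_div, eq_div_iff hpos.ne', ← h3]
    have h4 : (Finset.univ.filter fun π => π ∈ firstIn (Finset.univ.filter fun j => e j ≤ e i) i) =
        firstIn (Finset.univ.filter fun j => e j ≤ e i) i := by
      ext π
      simp
    rw [h4]
    push_cast
    ring
  rw [Finset.sum_congr rfl fun i _ => h2 i, ← Finset.mul_sum]
  refine mul_le_mul_of_nonneg_left ?_ (by positivity)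
  have h5 := rank_sum e m Finset.univ (by simp)
  refine h5.trans ?_
  have h6 := harmonic_le_one_add_log m
  have h7 : ((harmonic m : ℚ) : ℝ) = ∑ k ∈ Finset.range m, (1 : ℝ) / ((k : ℝ) + 1) := by
    rw [harmonic]
    push_cast
    exact Finset.sum_congr rfl fun k _ => by rw [one_div]
  rw [← h7]
  exact h6

end Vale.Agent.P235.Kpr.H611
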