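/-
P235-M (helper611), v4, terminals: rounds of three chains for the metric on a set `L` of points.
-/
import Vale.Agent.P235.R2.H718.S3
import Vale.Agent.P235.R2.H341.Y1
import Vale.Agent.P235.R2.H324.Few2

set_option linter.all false
set_option autoImplicit false

namespace Vale.Agent.P235.T5

open Finset Vale.Agent.P235 Vale.Agent.P235.H718 Vale.Agent.P235.H341W

section basics

/-- the triangle inequality for squares of Hilbert distances -/
theorem isSq_tri {V : Type} {N : V → V → ℝ} (hN : IsSq N) {x y z : V} {k a b : ℝ} (hk : 0 ≤ k)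
    (ha : 0 ≤ a) (hb : 0 ≤ b) (h1 : N x z ≤ k * a ^ 2) (h2 : N y z ≤ k * b ^ 2) :
    N x y ≤ k * (a + b) ^ 2 := by
  obtain ⟨ι, _, w, g, hw, h⟩ := hN
  rw [h] at h1 h2 ⊢
  have e0 : ∀ i, w i * (g i x - g i y) ^ 2 = w i * (g i x - g i z) ^ 2 +
      w i * (g i y - g i z) ^ 2 - 2 * (w i * ((g i x - g i z) * (g i y - g i z))) := fun i => by ring
  have e1 : ∑ i, w i * (g i x - g i y) ^ 2 = ∑ i, w i * (g i x - g i z) ^ 2 +
      ∑ i, w i * (g i y - g i z) ^ 2 - 2 * ∑ i, w i * ((g i x - g i z) * (g i y - g i z)) := by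
    rw [Finset.mul_sum, ← Finset.sum_add_distrib, ← Finset.sum_sub_distrib]
    exact Finset.sum_congr rfl fun i _ => e0 i
  have cs := Finset.sum_mul_sq_le_sq_mul_sq Finset.univ
    (fun i => √(w i) * (g i x - g i z)) (fun i => √(w i) * (g i y - g i z))
  have f1 : ∀ i, √(w i) * (g i x - g i z) * (√(w i) * (g i y - g i z)) =
      w i * ((g i x - g i z) * (g i y - g i z)) := fun i => by
    rw [show √(w i) * (g i x - g i z) * (√(w i) * (g i y - g i z)) =
      (√(w i) * √(w i)) * ((g i x - g i z) * (g i y - g i z)) by ring,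
      Real.mul_self_sqrt (hw i)]
  have f2 : ∀ c, ∀ i, (√(w i) * (g i c - g i z)) ^ 2 = w i * (g i c - g i z) ^ 2 := fun c i => by
    rw [mul_pow, Real.sq_sqrt (hw i)]
  simp only [f1, f2] at cs
  have n1 : 0 ≤ ∑ i, w i * (g i x - g i z) ^ 2 :=
    Finset.sum_nonneg fun i _ => mul_nonneg (hw i) (sq_nonneg _)
  have n2 : 0 ≤ ∑ i, w i * (g i y - g i z) ^ 2 :=
    Finset.sum_nonneg fun i _ => mul_nonneg (hw i) (sq_nonneg _)
  have hS : - (∑ i, w i * ((g i x - g i z) * (g i y - g i z))) ≤ k * a * b := by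
    by_contra hn
    push Not at hn
    have h3 : (∑ i, w i * ((g i x - g i z) * (g i y - g i z))) ^ 2 ≤ (k * a * b) ^ 2 := by
      refine cs.trans ((mul_le_mul h1 h2 n2 (by positivity)).trans (le_of_eq ?_))
      ring
    have h4 : 0 ≤ k * a * b := by positivity
    nlinarith
  rw [e1]
  nlinarith

variable {V : Type} {G : SimpleGraph V} {ℓ : Sym2 V → ℝ}

theorem fanSq' [Finite V] {H : V → ℝ} (hH0 : ∀ v, 0 ≤ H v) (f : V → ℝ) :
    ∃ N : Option V → Option V → ℝ, IsSq N ∧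
      (∀ u v t, |H u - H v| ≤ t → |f u - f v| ≤ t → N (some u) (some v) ≤ t ^ 2) ∧
      (∀ v, N (some v) none ≤ H v ^ 2) ∧ (∀ v, H v ^ 2 ≤ 4000000 * N (some v) none) ∧
      ∀ x y δ, 0 < δ → δ ≤ H x → δ ≤ H y → δ ≤ |f x - f y| →
        δ ^ 2 ≤ 4000000 * N (some x) (some y) := by
  classical
  obtain ⟨ι, _, w, g, hw, hs, hb, hm, hl, -, hn⟩ := fan' fan (fun _ : V => ()) f H hH0
  have hsq : ∀ a b : ℝ, |a| ≤ b → a ^ 2 ≤ b ^ 2 := fun a b ha => by
    rw [← sq_abs a]
    exact pow_le_pow_left₀ (abs_nonneg a) ha 2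
  refine ⟨fun a b => ∑ i, w i * (a.elim 0 (g i) - b.elim 0 (g i)) ^ 2,
    ⟨ι, inferInstance, w, fun i a => a.elim 0 (g i), hw, fun _ _ => rfl⟩, ?_, ?_, ?_, ?_⟩
  · intro u v t h1 h2
    have : ∀ i ∈ Finset.univ, w i * (g i u - g i v) ^ 2 ≤ w i * t ^ 2 := by
      intro i _
      apply mul_le_mul_of_nonneg_left _ (hw i)
      exact hsq _ _ ((hm i u v rfl).trans (max_le h2 h1))
    refine (Finset.sum_le_sum this).trans ?_
    rw [← Finset.sum_mul, hs, one_mul]
  · intro v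
    have : ∀ i ∈ Finset.univ, w i * (g i v - 0) ^ 2 ≤ w i * H v ^ 2 := by
      intro i _
      apply mul_le_mul_of_nonneg_left _ (hw i)
      rw [sub_zero]; exact hsq _ _ (hb i v)
    refine (Finset.sum_le_sum this).trans ?_
    rw [← Finset.sum_mul, hs, one_mul]
  · intro v
    have f1 : 1 / 2000 * H v ≤ ∑ i, w i * |g i v - 0| := by
      refine (hn v).trans (le_of_eq ?_)
      refine Finset.sum_congr rfl fun i _ => ?_
      rw [sub_zero]
    have f2 := wsum_sq (a := fun i => |g i v - 0|) hw hs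
    have f3 : (1 / 2000 * H v) ^ 2 ≤ (∑ i, w i * |g i v - 0|) ^ 2 :=
      pow_le_pow_left₀ (mul_nonneg (by norm_num) (hH0 v)) f1 2
    have f4 : ∑ i, w i * |g i v - 0| ^ 2 = ∑ i, w i * (g i v - 0) ^ 2 := by
      refine Finset.sum_congr rfl fun i _ => ?_
      rw [sq_abs]
    have f5 := f3.trans (f2.trans (le_of_eq f4))
    have f6 : (1 / 2000 * H v) ^ 2 = H v ^ 2 / 4000000 := by ring
    rw [f6] at f5
    show H v ^ 2 ≤ 4000000 * ∑ i, w i * (g i v - 0) ^ 2
    linarith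
  · intro x y δ hδ hx hy hxy
    have f1 : 1 / 2000 * δ ≤ ∑ i, w i * |g i x - g i y| := by
      refine le_trans ?_ (hl x y rfl)
      refine mul_le_mul_of_nonneg_left (le_min hxy (by linarith)) (by norm_num)
    have f2 := wsum_sq (a := fun i => |g i x - g i y|) hw hs
    have f3 : (1 / 2000 * δ) ^ 2 ≤ (∑ i, w i * |g i x - g i y|) ^ 2 :=
      pow_le_pow_left₀ (mul_nonneg (by norm_num) hδ.le) f1 2
    have f4 : ∑ i, w i * |g i x - g i y| ^ 2 = ∑ i, w i * (g i x - g i y) ^ 2 := by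
      refine Finset.sum_congr rfl fun i _ => ?_
      rw [sq_abs]
    have f5 := f3.trans (f2.trans (le_of_eq f4))
    have f6 : (1 / 2000 * δ) ^ 2 = δ ^ 2 / 4000000 := by ring
    rw [f6] at f5
    show δ ^ 2 ≤ 4000000 * ∑ i, w i * (g i x - g i y) ^ 2
    linarith

/-- length of a walk -/
noncomputable def wl (ℓ : Sym2 V → ℝ) {x y : V} (q : G.Walk x y) : ℝ := (q.edges.map ℓ).sum

theorem wl_nonneg (hℓ : ∀ e ∈ G.edgeSet, 0 < ℓ e) {x y : V} (q : G.Walk x y) : 0 ≤ wl ℓ q :=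
  walk_nonneg hℓ q

theorem wl_lip {f : V → ℝ} (hf : ∀ u v, G.Adj u v → |f u - f v| ≤ ℓ s(u, v)) {x y : V}
    (q : G.Walk x y) : |f x - f y| ≤ wl ℓ q := walk_lip hf q

theorem wl_split {x y z : V} (q : G.Walk x y) (hz : z ∈ q.support) :
    ∃ (q1 : G.Walk x z) (q2 : G.Walk z y), wl ℓ q1 + wl ℓ q2 = wl ℓ q ∧
      (∀ a ∈ q1.support, a ∈ q.support) ∧ ∀ a ∈ q2.support, a ∈ q.support := by
  classical
  refine ⟨q.takeUntil z hz, q.dropUntil z hz, ?_, q.support_takeUntil_subset hz,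
    q.support_dropUntil_subset hz⟩
  have h := congrArg (fun r : G.Walk x y => (r.edges.map ℓ).sum) (q.take_spec hz)
  simp only [SimpleGraph.Walk.edges_append, List.map_append, List.sum_append] at h
  exact h

/-- a walk inside `P` as a walk of the induced graph -/
theorem wl_induce {P : Set V} {x y : V} (q : G.Walk x y) (hq : ∀ z ∈ q.support, z ∈ P) :
    ∃ q' : (G.induce P).Walk ⟨x, hq x q.start_mem_support⟩ ⟨y, hq y q.end_mem_support⟩,
      wl (fun e => ℓ (e.map Subtype.val)) q' = wl ℓ q := by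
  induction q with
  | nil => exact ⟨SimpleGraph.Walk.nil, rfl⟩
  | @cons x z y hxz q ih =>
    obtain ⟨q', hq'⟩ := ih fun w hw => hq w (by simp [hw])
    have hz : z ∈ P := hq z (by simp)
    refine ⟨SimpleGraph.Walk.cons (show (G.induce P).Adj ⟨x, _⟩ ⟨z, hz⟩ from hxz) q', ?_⟩
    unfold wl at hq' ⊢
    rw [SimpleGraph.Walk.edges_cons, SimpleGraph.Walk.edges_cons, List.map_cons, List.map_cons,
      List.sum_cons, List.sum_cons, hq']
    rfl

end basics

/-- maps which serve the points of `L` in `K` at the scale `H`; the upper bounds are along walks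
inside `K` -/
def PtL {V : Type} (G : SimpleGraph V) (ℓ : Sym2 V → ℝ) (L K : Set V) (H : V → ℝ) (k K0 : ℝ) :
    Prop :=
  ∃ N σ : Option V → Option V → ℝ, IsSq N ∧ IsL1 σ ∧
    (∀ x ∈ L, ∀ y ∈ L, ∀ q : G.Walk x y, (∀ z ∈ q.support, z ∈ K) →
      N (some x) (some y) ≤ k * wl ℓ q ^ 2 ∧ σ (some x) (some y) ≤ K0 * wl ℓ q) ∧
    (∀ x ∈ L, x ∈ K → N (some x) none ≤ k * H x ^ 2 ∧ σ (some x) none ≤ K0 * H x) ∧
    (∀ x ∈ L, x ∈ K → H x ^ 2 ≤ 9000000 * N (some x) none ∨ H x ≤ 2000 * σ (some x) none) ∧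
    ∀ x ∈ L, ∀ y ∈ L, x ∈ K → y ∈ K → ∀ δ, 0 < δ → δ ≤ H x → δ ≤ H y →
      8 * δ ≤ pathDist G ℓ x y →
      δ ^ 2 ≤ 9000000 * N (some x) (some y) ∨ δ ≤ 2000 * σ (some x) (some y)

section step

variable {V : Type} [Finite V] {G : SimpleGraph V} {ℓ : Sym2 V → ℝ}

/-- one round -/
theorem ptL_step (hc : G.Connected) (hℓ : ∀ e ∈ G.edgeSet, 0 < ℓ e) {L X U : Set V} {v0 : V}
    (hv0 : v0 ∉ X) {H : V → ℝ} (hH0 : ∀ v, 0 ≤ H v) (hHK : ∀ v ∈ compSet G X v0, 0 < H v)
    (hHX : ∀ v ∈ X, H v = 0)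
    (hHl : ∀ u v, G.Adj u v → |H u - H v| ≤ ℓ s(u, v)) {u : V → ℝ}
    (hu : ∀ a b, G.Adj a b → |u a - u b| ≤ ℓ s(a, b)) {s : ℕ} {D' : Fin s → V → ℝ}
    (hD'ℓ : ∀ i a b, G.Adj a b → |D' i a - D' i b| ≤ ℓ s(a, b))
    (hD'u : ∀ i x y, pathDist G ℓ x y ≤ |u x - u y| + 2 * (D' i x + D' i y)) (hU : U.Nonempty)
    (hP : ∀ z ∈ U, ∃ i, ∀ x, D' i x ≤ pathDist G ℓ x z) {k K0 : ℝ} (hk : 0 ≤ k) (hK : 0 ≤ K0)
    (ih : ∀ v ∈ compSet G X v0, v ∉ U → ∀ φ : V → ℝ, (∀ v, 0 ≤ φ v) →
      (∀ w ∈ compSet G (X ∪ U) v, 0 < φ w) → (∀ w ∈ X ∪ U, φ w = 0) →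
      (∀ a b, G.Adj a b → |φ a - φ b| ≤ ℓ s(a, b)) →
      PtL G ℓ L (compSet G (X ∪ U) v) φ k K0) :
    PtL G ℓ L (compSet G X v0) H (k + (s + 1)) K0 := by
  classical
  have := Fintype.ofFinite V
  have hd := pathDist_isMet hc hℓ
  obtain ⟨ν, hν⟩ := exists_near (X := U) hc hℓ hU
  -- the barrier
  let φ : V → ℝ := fun v => min (H v) (pathDist G ℓ v (ν v))
  have hφ0 : ∀ v, 0 ≤ φ v := fun v => le_min (hH0 v) (hd.nonneg _ _)
  have hφH : ∀ v, φ v ≤ H v := fun v => min_le_left _ _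
  have hφU : ∀ w ∈ U, φ w = 0 := by
    intro w hw
    show min (H w) (pathDist G ℓ w (ν w)) = 0
    rw [hν.self w hw, hd.self]
    exact min_eq_right (hH0 w)
  have hφX : ∀ w ∈ X ∪ U, φ w = 0 := by
    rintro w (hw | hw)
    · show min (H w) (pathDist G ℓ w (ν w)) = 0
      rw [hHX w hw]
      exact min_eq_left (hd.nonneg _ _)
    · exact hφU w hw
  have hφl : ∀ a b, G.Adj a b → |φ a - φ b| ≤ ℓ s(a, b) := by
    intro a b hab
    refine (abs_min_sub_min_le_max _ _ _ _).trans (max_le (hHl a b hab) ?_)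
    have h1 := hν.lip hc hℓ a b
    have h2 := hν.lip hc hℓ b a
    rw [hd.symm b a] at h2
    have h3 := pathDist_adj hℓ hab
    rw [abs_le]; constructor <;> linarith
  have hcompX : ∀ v ∈ compSet G X v0, ∀ w ∈ compSet G (X ∪ U) v, w ∈ compSet G X v0 := by
    rintro v hv w ⟨q, hq⟩
    exact ReachOff.trans hv ⟨q, fun z hz h => hq z hz (Or.inl h)⟩
  have hφpos : ∀ v ∈ compSet G X v0, ∀ w ∈ compSet G (X ∪ U) v, 0 < φ w := by
    intro v hv w hw
    have hwU : w ∉ U := fun h => ReachOff.right hw (Or.inr h)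
    refine lt_min (hHK w (hcompX v hv w hw)) (hd.pos _ _ fun h => hwU ?_)
    rw [h]; exact hν.mem w
  obtain ⟨N1, hN1, a1, a2, a3, a4⟩ := fanSq' hH0 u
  choose N2 hN2 b1 b2 b3 b4 using fun i => fanSq' hH0 (D' i)
  -- components
  let Q := Quotient (compSetoid G (X ∪ U))
  have : Fintype Q := Fintype.ofFinite Q
  have hQ : ∀ c : Q, ∃ M r : Option V → Option V → ℝ, IsSq M ∧ IsL1 r ∧
      (c.out.1 ∈ compSet G X v0 →
      (∀ x ∈ L, ∀ y ∈ L, ∀ q : G.Walk x y, (∀ z ∈ q.support, z ∈ compSet G (X ∪ U) c.out.1) →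
        M (some x) (some y) ≤ k * wl ℓ q ^ 2 ∧ r (some x) (some y) ≤ K0 * wl ℓ q) ∧
      (∀ x ∈ L, x ∈ compSet G (X ∪ U) c.out.1 →
        M (some x) none ≤ k * φ x ^ 2 ∧ r (some x) none ≤ K0 * φ x) ∧
      (∀ x ∈ L, x ∈ compSet G (X ∪ U) c.out.1 →
        φ x ^ 2 ≤ 9000000 * M (some x) none ∨ φ x ≤ 2000 * r (some x) none) ∧
      ∀ x ∈ L, ∀ y ∈ L, x ∈ compSet G (X ∪ U) c.out.1 → y ∈ compSet G (X ∪ U) c.out.1 →
        ∀ δ, 0 < δ → δ ≤ φ x → δ ≤ φ y → 8 * δ ≤ pathDist G ℓ x y →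
        δ ^ 2 ≤ 9000000 * M (some x) (some y) ∨ δ ≤ 2000 * r (some x) (some y)) := by
    intro c
    by_cases hcK : c.out.1 ∈ compSet G X v0
    · obtain ⟨M, r, h1, h2, h3⟩ := ih c.out.1 hcK (fun h => c.out.2 (Or.inr h)) φ hφ0
        (hφpos _ hcK) hφX hφl
      exact ⟨M, r, h1, h2, fun _ => h3⟩
    · exact ⟨fun _ _ => 0, fun _ _ => 0, IsSq.zero,
        ⟨Empty, inferInstance, fun _ => 0, fun _ _ => true, fun _ => le_rfl, by simp⟩,
        fun h => absurd h hcK⟩
  choose M r hMI hrI hr using hQ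
  have hmk : ∀ (v : V) (hv : v ∉ X ∪ U), v ∈ compSet G (X ∪ U) (⟦⟨v, hv⟩⟧ : Q).out.1 := by
    intro v hv
    exact Quotient.mk_out (s := compSetoid G (X ∪ U)) ⟨v, hv⟩
  have huniq : ∀ (c : Q) (v : V) (hv : v ∉ X ∪ U), v ∈ compSet G (X ∪ U) c.out.1 →
      c = ⟦⟨v, hv⟩⟧ := by
    intro c v hv h
    have h1 : (⟦c.out⟧ : Q) = ⟦⟨v, hv⟩⟧ := Quotient.sound h
    rwa [Quotient.out_eq] at h1
  have hrX : ∀ (c : Q) (v : V), v ∈ X ∪ U → v ∉ compSet G (X ∪ U) c.out.1 := fun c v hv h =>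
    ReachOff.right h hv
  -- components of points of `K` are inside `K`
  have hoK : ∀ (v : V) (hv : v ∉ X ∪ U), v ∈ compSet G X v0 →
      (⟦⟨v, hv⟩⟧ : Q).out.1 ∈ compSet G X v0 := by
    intro v hv hvK
    exact hcompX v hvK _ (ReachOff.symm (hmk v hv))
  let e : ∀ c : Q, Option V → Option V := fun c a =>
    a.elim none fun v => if v ∈ compSet G (X ∪ U) c.out.1 then some v else none
  have he0 : ∀ c, e c none = none := fun c => rfl
  have he1 : ∀ c v, v ∈ compSet G (X ∪ U) c.out.1 → e c (some v) = some v := by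
    intro c v h
    exact if_pos h
  have he2 : ∀ c v, v ∉ compSet G (X ∪ U) c.out.1 → e c (some v) = none := by
    intro c v h
    exact if_neg h
  let N4 : Option V → Option V → ℝ := fun a b => ∑ i : Fin s, N2 i a b
  let N3 : Option V → Option V → ℝ := fun a b => ∑ c : Q, M c (e c a) (e c b)
  let G3 : Option V → Option V → ℝ := fun a b => ∑ c : Q, r c (e c a) (e c b)
  have hN4 : IsSq N4 := IsSq.sum Finset.univ (fun i a b => N2 i a b) fun i _ => hN2 i
  have hN3 : IsSq N3 := IsSq.sum Finset.univ (fun c a b => M c (e c a) (e c b))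
    fun c _ => (hMI c).comap (e c)
  have hG3 : IsL1 G3 := IsL1.sum Finset.univ (fun c a b => r c (e c a) (e c b))
    fun c _ => (hrI c).comap (e c)
  have hn1' : ∀ a b, 0 ≤ N1 a b := hN1.nonneg
  have hn4' : ∀ a b, 0 ≤ N4 a b := hN4.nonneg
  have hn3' : ∀ a b, 0 ≤ N3 a b := hN3.nonneg
  have hg3' : ∀ a b, 0 ≤ G3 a b := hG3.nonneg
  have hN4single : ∀ i a b, N2 i a b ≤ N4 a b := fun i a b =>
    Finset.single_le_sum (f := fun i => N2 i a b) (fun i _ => (hN2 i).nonneg a b)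
      (Finset.mem_univ i)
  have htermM : ∀ (c : Q) a b, 0 ≤ M c (e c a) (e c b) := fun c a b => (hMI c).nonneg _ _
  have hterm : ∀ (c : Q) a b, 0 ≤ r c (e c a) (e c b) := fun c a b => (hrI c).nonneg _ _
  have hsingleM : ∀ (c : Q) a b, M c (e c a) (e c b) ≤ N3 a b := fun c a b =>
    Finset.single_le_sum (f := fun c => M c (e c a) (e c b)) (fun c _ => htermM c a b)
      (Finset.mem_univ c)
  have hsingle : ∀ (c : Q) a b, r c (e c a) (e c b) ≤ G3 a b := fun c a b =>
    Finset.single_le_sum (f := fun c => r c (e c a) (e c b)) (fun c _ => hterm c a b)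
      (Finset.mem_univ c)
  -- the value at the base point
  have hbase : ∀ v ∈ L, v ∈ compSet G X v0 →
      N3 (some v) none ≤ k * φ v ^ 2 ∧ G3 (some v) none ≤ K0 * φ v := by
    intro v hvL hvK
    by_cases hv : v ∈ X ∪ U
    · have hzM : N3 (some v) none = 0 := Finset.sum_eq_zero fun c _ => by
        rw [he2 c v (hrX c v hv), he0]
        exact (hMI c).self _
      have hz : G3 (some v) none = 0 := Finset.sum_eq_zero fun c _ => by
        rw [he2 c v (hrX c v hv), he0]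
        exact (hrI c).self _
      rw [hz, hzM]
      exact ⟨mul_nonneg hk (sq_nonneg _), mul_nonneg hK (hφ0 v)⟩
    · have hz0 : ∀ c ∈ Finset.univ, c ≠ (⟦⟨v, hv⟩⟧ : Q) → e c (some v) = none := by
        intro c _ hc
        exact he2 c v fun h => hc (huniq c v hv h)
      have hsumM : N3 (some v) none = M (⟦⟨v, hv⟩⟧ : Q) (e (⟦⟨v, hv⟩⟧ : Q) (some v)) (e (⟦⟨v, hv⟩⟧ : Q) none) := by
        refine Finset.sum_eq_single _ (fun c hc1 hc => ?_)
          (fun h => absurd (Finset.mem_univ _) h)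
        rw [hz0 c hc1 hc, he0]
        exact (hMI c).self _
      have hsum : G3 (some v) none = r (⟦⟨v, hv⟩⟧ : Q) (e (⟦⟨v, hv⟩⟧ : Q) (some v)) (e (⟦⟨v, hv⟩⟧ : Q) none) := by
        refine Finset.sum_eq_single _ (fun c hc1 hc => ?_)
          (fun h => absurd (Finset.mem_univ _) h)
        rw [hz0 c hc1 hc, he0]
        exact (hrI c).self _
      rw [hsum, hsumM, he1 _ v (hmk v hv), he0]
      exact (hr ⟦⟨v, hv⟩⟧ (hoK v hv hvK)).2.1 v hvL (hmk v hv)
  -- along walks
  have hwalk : ∀ x ∈ L, ∀ y ∈ L, ∀ q : G.Walk x y, (∀ z ∈ q.support, z ∈ compSet G X v0) →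
      N3 (some x) (some y) ≤ k * wl ℓ q ^ 2 ∧ G3 (some x) (some y) ≤ K0 * wl ℓ q := by
    intro x hxL y hyL q hq
    have hxK := hq x q.start_mem_support
    have hyK := hq y q.end_mem_support
    by_cases hhit : ∃ z ∈ q.support, z ∈ U
    · obtain ⟨z, hz, hzU⟩ := hhit
      obtain ⟨q1, q2, hsum, -, -⟩ := wl_split (ℓ := ℓ) q hz
      have h1 := wl_lip hφl q1
      have h2 := wl_lip hφl q2
      rw [hφU z hzU, sub_zero, abs_of_nonneg (hφ0 x)] at h1
      rw [hφU z hzU, zero_sub, abs_neg, abs_of_nonneg (hφ0 y)] at h2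
      have h3 : φ x + φ y ≤ wl ℓ q := by linarith
      have bx := hbase x hxL hxK
      have by' := hbase y hyL hyK
      constructor
      · refine (isSq_tri hN3 hk (hφ0 x) (hφ0 y) bx.1 by'.1).trans ?_
        refine mul_le_mul_of_nonneg_left ?_ hk
        exact pow_le_pow_left₀ (add_nonneg (hφ0 x) (hφ0 y)) h3 2
      · have h4 := hG3.tri (some x) none (some y)
        have h5 := by'.2
        rw [hG3.symm] at h5
        have h6 := mul_le_mul_of_nonneg_left h3 hK
        have h7 := bx.2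
        linarith
    · push Not at hhit
      have hxU : x ∉ X ∪ U := by
        rintro (h | h)
        · exact ReachOff.right hxK h
        · exact hhit x q.start_mem_support h
      have hqc : ∀ z ∈ q.support, z ∈ compSet G (X ∪ U) (⟦⟨x, hxU⟩⟧ : Q).out.1 := by
        intro z hz
        obtain ⟨q1, -, -, h1, -⟩ := wl_split (ℓ := ℓ) q hz
        refine ReachOff.trans (hmk x hxU) ⟨q1, fun a ha => ?_⟩
        rintro (h | h)
        · exact ReachOff.right (hq a (h1 a ha)) h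
        · exact hhit a (h1 a ha) h
      have hz : ∀ c ∈ Finset.univ, c ≠ (⟦⟨x, hxU⟩⟧ : Q) →
          e c (some x) = none ∧ e c (some y) = none := by
        intro c _ hc
        have h1 : x ∉ compSet G (X ∪ U) c.out.1 := fun h => hc (huniq c x hxU h)
        have h2 : y ∉ compSet G (X ∪ U) c.out.1 := fun h =>
          h1 (ReachOff.trans h (ReachOff.trans (ReachOff.symm (hqc y q.end_mem_support))
            (hmk x hxU)))
        exact ⟨he2 c x h1, he2 c y h2⟩
      have hsumM : N3 (some x) (some y) = M (⟦⟨x, hxU⟩⟧ : Q) (e (⟦⟨x, hxU⟩⟧ : Q) (some x)) (e (⟦⟨x, hxU⟩⟧ : Q) (some y)) := by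
        refine Finset.sum_eq_single _ (fun c hc1 hc => ?_) (fun h => absurd (Finset.mem_univ _) h)
        rw [(hz c hc1 hc).1, (hz c hc1 hc).2]
        exact (hMI c).self _
      have hsum : G3 (some x) (some y) = r (⟦⟨x, hxU⟩⟧ : Q) (e (⟦⟨x, hxU⟩⟧ : Q) (some x)) (e (⟦⟨x, hxU⟩⟧ : Q) (some y)) := by
        refine Finset.sum_eq_single _ (fun c hc1 hc => ?_) (fun h => absurd (Finset.mem_univ _) h)
        rw [(hz c hc1 hc).1, (hz c hc1 hc).2]
        exact (hrI c).self _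
      rw [hsum, hsumM, he1 _ x (hmk x hxU), he1 _ y (hqc y q.end_mem_support)]
      exact (hr ⟦⟨x, hxU⟩⟧ (hoK x hxU hxK)).1 x hxL y hyL q hqc
  refine ⟨fun a b => (N1 a b + N4 a b) + N3 a b, G3, (hN1.add hN4).add hN3, hG3, ?_, ?_, ?_, ?_⟩
  · -- walks
    intro x hxL y hyL q hq
    have f1 : N1 (some x) (some y) ≤ wl ℓ q ^ 2 := a1 x y _ (wl_lip hHl q) (wl_lip hu q)
    have f2 : N4 (some x) (some y) ≤ s * wl ℓ q ^ 2 := by
      refine (Finset.sum_le_sum fun i _ => b1 i x y _ (wl_lip hHl q)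
        (wl_lip (hD'ℓ i) q)).trans (le_of_eq ?_)
      rw [Finset.sum_const, Finset.card_univ, Fintype.card_fin, nsmul_eq_mul]
    have f3 := hwalk x hxL y hyL q hq
    refine ⟨?_, f3.2⟩
    show N1 (some x) (some y) + N4 (some x) (some y) + N3 (some x) (some y) ≤ _
    have := f3.1
    linarith
  · -- upper bound at the base point
    intro v hvL hvK
    have f1 : N1 (some v) none ≤ H v ^ 2 := a2 v
    have f2 : N4 (some v) none ≤ s * H v ^ 2 := by
      refine (Finset.sum_le_sum fun i _ => b2 i v).trans (le_of_eq ?_)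
      rw [Finset.sum_const, Finset.card_univ, Fintype.card_fin, nsmul_eq_mul]
    have f3 := hbase v hvL hvK
    have f4 : k * φ v ^ 2 ≤ k * H v ^ 2 :=
      mul_le_mul_of_nonneg_left (pow_le_pow_left₀ (hφ0 v) (hφH v) 2) hk
    have f5 : K0 * φ v ≤ K0 * H v := mul_le_mul_of_nonneg_left (hφH v) hK
    refine ⟨?_, f3.2.trans f5⟩
    show N1 (some v) none + N4 (some v) none + N3 (some v) none ≤ _
    have := f3.1
    linarith
  · -- lower bound at the base point
    intro v hvL hvK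
    left
    have f1 := a3 v
    have := hn4' (some v) none
    have := hn3' (some v) none
    have := hn1' (some v) none
    show H v ^ 2 ≤ 9000000 * (N1 (some v) none + N4 (some v) none + N3 (some v) none)
    linarith
  · -- separation
    intro x hxL y hyL hxK hyK δ hδ hx hy hxy
    show δ ^ 2 ≤ 9000000 * (N1 (some x) (some y) + N4 (some x) (some y) + N3 (some x) (some y)) ∨
      δ ≤ 2000 * G3 (some x) (some y)
    have p1 := hn1' (some x) (some y)
    have p2 := hn4' (some x) (some y)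
    have p3 := hn3' (some x) (some y)
    have p4 := hg3' (some x) (some y)
    have key : ∀ a b, δ ≤ H a → δ ≤ H b → 8 * δ ≤ pathDist G ℓ a b → φ a < δ →
        δ ^ 2 ≤ 9000000 * (N1 (some a) (some b) + N4 (some a) (some b)) := by
      intro a b ha hb hab hφa
      have haz : pathDist G ℓ a (ν a) < δ := by
        rcases min_lt_iff.1 hφa with h | h
        · exact absurd h (not_lt.2 ha)
        · exact h
      obtain ⟨i, hi⟩ := hP (ν a) (hν.mem a)
      have h1 := hi a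
      have q1 := hn1' (some a) (some b)
      have q2 := hn4' (some a) (some b)
      by_cases hcase : 2 * δ ≤ D' i b
      · have h2 : δ ≤ |D' i a - D' i b| := by
          rw [abs_sub_comm]
          refine le_trans ?_ (le_abs_self _)
          linarith
        have h3 := b4 i a b δ hδ ha hb h2
        have h4 := hN4single i (some a) (some b)
        linarith
      · push Not at hcase
        have h2 := hD'u i a b
        have h3 : δ ≤ |u a - u b| := by linarith
        have h4 := a4 a b δ hδ ha hb h3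
        linarith
    by_cases hφx : δ ≤ φ x
    · by_cases hφy : δ ≤ φ y
      · have hxU : x ∉ X ∪ U := fun h => by
          rw [hφX x h] at hφx
          linarith
        have hcx := hr ⟦⟨x, hxU⟩⟧ (hoK x hxU hxK)
        have h3 := hsingle ⟦⟨x, hxU⟩⟧ (some x) (some y)
        have h3' := hsingleM ⟦⟨x, hxU⟩⟧ (some x) (some y)
        rw [he1 _ x (hmk x hxU)] at h3 h3'
        by_cases hyc : y ∈ compSet G (X ∪ U) (⟦⟨x, hxU⟩⟧ : Q).out.1
        · rw [he1 _ y hyc] at h3 h3'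
          rcases hcx.2.2.2 x hxL y hyL (hmk x hxU) hyc δ hδ hφx hφy hxy with h4 | h4
          · left; linarith
          · right; linarith
        · rw [he2 _ y hyc] at h3 h3'
          rcases hcx.2.2.1 x hxL (hmk x hxU) with h4 | h4
          · left
            have h6 : δ ^ 2 ≤ φ x ^ 2 := pow_le_pow_left₀ hδ.le hφx 2
            linarith
          · right
            linarith
      · push Not at hφy
        left
        have h1 := key y x hy hx (by rw [hd.symm]; exact hxy) hφy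
        rw [hN1.symm, hN4.symm] at h1
        linarith
    · push Not at hφx
      left
      have h1 := key x y hx hy hxy hφx
      linarith

end step

end Vale.Agent.P235.T5
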