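/-
P235-M (helper611), v4, terminals: leaves and recursion for the metric on a set `L` of points.
-/
import Vale.Agent.P235.R2.H611.T5a

set_option linter.all false
set_option autoImplicit false

namespace Vale.Agent.P235.T5

open Finset Vale.Agent.P235 Vale.Agent.P235.H718 Vale.Agent.P235.H341W

variable {V : Type} [Finite V] {G : SimpleGraph V} {ℓ : Sym2 V → ℝ}

theorem dist_le_wl (hℓ : ∀ e ∈ G.edgeSet, 0 < ℓ e) {x y : V} (q : G.Walk x y) :
    pathDist G ℓ x y ≤ wl ℓ q := pathDist_le hℓ q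

theorem ind_pos (hℓ : ∀ e ∈ G.edgeSet, 0 < ℓ e) (P : Set V) :
    ∀ e ∈ (G.induce P).edgeSet, 0 < (fun e : Sym2 P => ℓ (e.map Subtype.val)) e := by
  intro e he
  induction e with
  | _ a b => exact hℓ s(a.1, b.1) he

theorem dist_le_ind (hc : G.Connected) (hℓ : ∀ e ∈ G.edgeSet, 0 < ℓ e) {P : Set V}
    (hPc : (G.induce P).Connected) (x y : P) :
    pathDist G ℓ x.1 y.1 ≤ pathDist (G.induce P) (fun e => ℓ (e.map Subtype.val)) x y := by
  have hd := pathDist_isMet hc hℓ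
  have := pathDist_semi (G := G.induce P) (ℓ := fun e => ℓ (e.map Subtype.val))
    (ρ := fun a b : P => pathDist G ℓ a.1 b.1) (K := 1) hPc one_pos (fun a => hd.self _)
    (fun a b c => hd.tri _ _ _) (fun a b hab => by
      rw [one_mul]
      exact pathDist_adj hℓ hab) x y
  rwa [one_mul] at this

/-- **leaf** -/
theorem ptL_leaf (hc : G.Connected) (hℓ : ∀ e ∈ G.edgeSet, 0 < ℓ e) {L K P : Set V} (hKP : K ⊆ P)
    (hPc : (G.induce P).Connected) {C0 : ℝ} (hC0 : 0 < C0)
    (hE : EmbedsL1 (fun x y : {x : P // x.1 ∈ L} =>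
      pathDist (G.induce P) (fun e => ℓ (e.map Subtype.val)) x.1 y.1) C0)
    {H : V → ℝ} (hHK : ∀ v ∈ K, 0 < H v) (hHl : ∀ u v, G.Adj u v → |H u - H v| ≤ ℓ s(u, v)) :
    PtL G ℓ L K H 0 (96 * C0 + 112) := by
  classical
  have hK0 : 0 ≤ 96 * C0 + 112 := by linarith
  by_cases hne : ∃ x, x ∈ L ∧ x ∈ K
  · obtain ⟨x0, hx0L, hx0K⟩ := hne
    set ℓP : Sym2 P → ℝ := fun e => ℓ (e.map Subtype.val) with hℓP
    have hpos := ind_pos hℓ P
    have hd' := pathDist_isMet hPc hpos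
    let S : Set P := {x | x.1 ∈ L ∧ x.1 ∈ K}
    have hS : S.Nonempty := ⟨⟨x0, hKP hx0K⟩, hx0L, hx0K⟩
    have hcl := Few.cl_dist hPc hpos hd'.symm hS
    have hE' : EmbedsL1 (pathDist (⊤ : SimpleGraph S) (Few.cl (G.induce P) ℓP hd'.symm S)) C0 := by
      obtain ⟨Ω, m, μ, f, hf⟩ := hE
      refine ⟨Ω, m, μ, fun x => f ⟨x.1, x.2.1⟩, fun x y => ?_⟩
      have h1 := hf ⟨x.1, x.2.1⟩ ⟨y.1, y.2.1⟩
      rw [hcl]
      exact h1
    obtain ⟨σ, h1, h2, h3, h4, h5⟩ := pointed_leafW (H := fun v : S => H v.1.1) hC0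
      (Few.top_conn hS) (Few.cl_pos hPc hpos hd'.symm S) (fun v => hHK _ v.2.2)
      (fun a b _ => by
        show |H a.1.1 - H b.1.1| ≤ pathDist (G.induce P) ℓP a.1 b.1
        exact (pathDist_gen hc hHl _ _).trans (dist_le_ind hc hℓ hPc _ _)) hE'
    let e : Option V → Option S := fun a => a.elim none fun v =>
      if h : v ∈ L ∧ v ∈ K then some ⟨⟨v, hKP h.2⟩, h⟩ else none
    have he0 : e none = none := rfl
    have he1 : ∀ v (h : v ∈ L ∧ v ∈ K), e (some v) = some ⟨⟨v, hKP h.2⟩, h⟩ := by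
      intro v h
      exact dif_pos h
    refine ⟨fun _ _ => 0, fun a b => σ (e a) (e b), IsSq.zero, h1.comap e, ?_, ?_, ?_, ?_⟩
    · intro x hx y hy q hq
      have hxK := hq x q.start_mem_support
      have hyK := hq y q.end_mem_support
      refine ⟨by rw [zero_mul], ?_⟩
      show σ (e (some x)) (e (some y)) ≤ _
      rw [he1 x ⟨hx, hxK⟩, he1 y ⟨hy, hyK⟩]
      obtain ⟨q', hq'⟩ := wl_induce (ℓ := ℓ) q (fun z hz => hKP (hq z hz))
      by_cases hxy : x = y
      · subst hxy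
        rw [h1.self]
        exact mul_nonneg hK0 (wl_nonneg hℓ q)
      · have h6 := h2 ⟨⟨x, hKP hxK⟩, hx, hxK⟩ ⟨⟨y, hKP hyK⟩, hy, hyK⟩ (by
          intro h
          exact hxy (congrArg (fun z : S => z.1.1) h))
        refine h6.trans (mul_le_mul_of_nonneg_left ?_ hK0)
        rw [← hq']
        exact pathDist_le hpos q'
    · intro x hx hxK
      refine ⟨by rw [zero_mul], ?_⟩
      show σ (e (some x)) (e none) ≤ _
      rw [he1 x ⟨hx, hxK⟩]
      exact h3 _
    · intro x hx hxK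
      right
      show H x ≤ 2000 * σ (e (some x)) (e none)
      rw [he1 x ⟨hx, hxK⟩]
      exact h4 ⟨⟨x, hKP hxK⟩, hx, hxK⟩
    · intro x hx y hy hxK hyK δ hδ hδx hδy hxy
      right
      show δ ≤ 2000 * σ (e (some x)) (e (some y))
      rw [he1 x ⟨hx, hxK⟩, he1 y ⟨hy, hyK⟩]
      refine h5 ⟨⟨x, hKP hxK⟩, hx, hxK⟩ ⟨⟨y, hKP hyK⟩, hy, hyK⟩ δ hδx hδy ?_
      rw [hcl]
      exact hxy.trans (dist_le_ind hc hℓ hPc ⟨x, hKP hxK⟩ ⟨y, hKP hyK⟩)
  · push Not at hne
    exact ⟨fun _ _ => 0, fun _ _ => 0, IsSq.zero,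
      ⟨Empty, inferInstance, fun _ => 0, fun _ _ => true, fun _ => le_rfl, by simp⟩,
      fun x hx y hy q hq => absurd (hq x q.start_mem_support) (hne x hx),
      fun x hx hxK => absurd hxK (hne x hx), fun x hx hxK => absurd hxK (hne x hx),
      fun x hx y hy hxK => absurd hxK (hne x hx)⟩

/-- what the recursion needs at the leaves -/
def LeafL (G : SimpleGraph V) (ℓ : Sym2 V → ℝ) (p : V → V) (s : V) (L : Set V) (A : Finset V)
    (k0 : ℕ) (C0 : ℝ) : Prop :=
  ∀ C : Finset V, C.card ≤ 3 * k0 → ∀ v ∉ UC p s C, (∀ a ∈ A, a ∉ compSet G (UC p s C) v) →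
    ∃ P : Set V, compSet G (UC p s C) v ⊆ P ∧ (G.induce P).Connected ∧
      EmbedsL1 (fun x y : {x : P // x.1 ∈ L} =>
        pathDist (G.induce P) (fun e => ℓ (e.map Subtype.val)) x.1 y.1) C0

/-- **recursion** -/
theorem ptL_rec (hc : G.Connected) (hℓ : ∀ e ∈ G.edgeSet, 0 < ℓ e) {u : V → ℝ}
    (hu : ∀ a b, |u a - u b| ≤ pathDist G ℓ a b) {p : V → V} {s : V} (hsep : Seps G p s)
    (hiso : ∀ c, ∀ a ∈ chain p s c, ∀ b ∈ chain p s c, pathDist G ℓ a b ≤ |u a - u b|)
    (L : Set V) (A : Finset V) {C0 : ℝ} (hC0 : 0 < C0) (k0 : ℕ)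
    (hleaf : LeafL G ℓ p s L A k0 C0) (k : ℕ) :
    ∀ (C : Finset V) (v0 : V), v0 ∉ UC p s C → C.card + 3 * k ≤ 3 * k0 →
      (∀ B ⊆ A, (∀ b ∈ B, b ∈ compSet G (UC p s C) v0) → 2 ^ k * B.card < 3 ^ k) →
      ∀ H : V → ℝ, (∀ v, 0 ≤ H v) → (∀ v ∈ compSet G (UC p s C) v0, 0 < H v) →
      (∀ v ∈ UC p s C, H v = 0) → (∀ a b, G.Adj a b → |H a - H b| ≤ ℓ s(a, b)) →
      PtL G ℓ L (compSet G (UC p s C) v0) H (4 * k) (96 * C0 + 112) := by
  classical
  have := Fintype.ofFinite V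
  have hd := pathDist_isMet hc hℓ
  induction k with
  | zero =>
    intro C v0 hv0 hCk hA H hH0 hHK hHX hHl
    have hno : ∀ a ∈ A, a ∉ compSet G (UC p s C) v0 := by
      intro a ha hr
      have h1 := hA {a} (by simpa using ha) (by simpa using hr)
      simp at h1
    obtain ⟨P, hKP, hPc, hE⟩ := hleaf C (by omega) v0 hv0 hno
    have h := ptL_leaf hc hℓ hKP hPc hC0 hE hHK hHl
    have e : (4 * ((0 : ℕ) : ℝ)) = 0 := by simp
    rw [e]
    exact h
  | succ k ih =>
    intro C v0 hv0 hCk hA H hH0 hHK hHX hHl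
    obtain ⟨a, ha⟩ := hsep (A.filter fun v => v ∈ compSet G (UC p s C) v0)
    set U : Set V := ⋃ i, chain p s (a i) with hU
    have hchn : ∀ i, (chain p s (a i)).Nonempty := fun i => ⟨a i, Relation.ReflTransGen.refl⟩
    have hUn : U.Nonempty := by
      obtain ⟨z, hz⟩ := hchn 0
      exact ⟨z, Set.mem_iUnion.2 ⟨0, hz⟩⟩
    choose ν hν using fun i => exists_near (X := chain p s (a i)) hc hℓ (hchn i)
    have e4 : 4 * ((k + 1 : ℕ) : ℝ) = 4 * (k : ℝ) + ((3 : ℕ) + 1) := by push_cast; ring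
    rw [e4]
    -- the new set of chains
    have hUC : UC p s C ∪ U = UC p s (C ∪ Finset.univ.image a) := by
      ext x
      constructor
      · rintro (⟨c, hc, hx⟩ | hx)
        · exact ⟨c, Finset.mem_union_left _ hc, hx⟩
        · obtain ⟨i, hi⟩ := Set.mem_iUnion.1 hx
          exact ⟨a i, Finset.mem_union_right _ (Finset.mem_image_of_mem a (Finset.mem_univ i)), hi⟩
      · rintro ⟨c, hc, hx⟩
        rcases Finset.mem_union.1 hc with hc | hc
        · exact Or.inl ⟨c, hc, hx⟩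
        · obtain ⟨i, _, rfl⟩ := Finset.mem_image.1 hc
          exact Or.inr (Set.mem_iUnion.2 ⟨i, hx⟩)
    have hCc : (C ∪ Finset.univ.image a).card ≤ C.card + 3 := by
      refine (Finset.card_union_le _ _).trans (Nat.add_le_add_left ?_ _)
      exact Finset.card_image_le.trans (by simp)
    refine ptL_step hc hℓ hv0 hH0 hHK hHX hHl (u := u)
      (D' := fun (i : Fin 3) x => pathDist G ℓ x (ν i x)) ?_ ?_ ?_ hUn ?_ (by positivity)
      (by linarith) ?_
    · intro x y hxy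
      exact (hu _ _).trans (pathDist_adj hℓ hxy)
    · intro i x y hxy
      have h1 := (hν i).lip hc hℓ x y
      have h2 := (hν i).lip hc hℓ y x
      rw [hd.symm y x] at h2
      have h3 := pathDist_adj hℓ hxy
      show |pathDist G ℓ x (ν i x) - pathDist G ℓ y (ν i y)| ≤ ℓ s(x, y)
      rw [abs_le]; constructor <;> linarith
    · intro i x y
      show pathDist G ℓ x y ≤ |u x - u y| + 2 * (pathDist G ℓ x (ν i x) + pathDist G ℓ y (ν i y))
      have h3 := hiso (a i) _ ((hν i).mem x) _ ((hν i).mem y)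
      have h4 := hu x (ν i x)
      have h5 := hu y (ν i y)
      have h6 : |u (ν i x) - u (ν i y)| ≤ |u x - u y| + |u x - u (ν i x)| +
          |u y - u (ν i y)| := by
        have e : u (ν i x) - u (ν i y) = (u x - u y) + -(u x - u (ν i x)) +
          (u y - u (ν i y)) := by ring
        rw [e]
        refine (abs_add_three _ _ _).trans ?_
        rw [abs_neg]
      have h7 := hd.tri x (ν i x) y
      have h8 := hd.tri (ν i x) (ν i y) y
      rw [hd.symm (ν i y) y] at h8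
      linarith
    · intro z hz
      rw [hU, Set.mem_iUnion] at hz
      obtain ⟨i, hi⟩ := hz
      exact ⟨i, fun x => (hν i).le _ _ hi⟩
    · intro v hv hvU φ hφ0 hφK hφX hφl
      have hvX : v ∉ UC p s C ∪ U := by
        rintro (h | h)
        · exact ReachOff.right hv h
        · exact hvU h
      rw [hUC] at hφK hφX hvX ⊢
      refine ih (C ∪ Finset.univ.image a) v hvX (by omega) ?_ φ hφ0 hφK hφX hφl
      intro B hB hBr
      have h1 : 3 * B.card ≤
          2 * (A.filter fun v => v ∈ compSet G (UC p s C) v0).card := by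
        have hsub : ∀ b ∈ B, ReachOff G (UC p s C ∪ U) v b := fun b hb => by
          rw [hUC]
          exact hBr b hb
        refine ha v hvU B (fun b hb => ?_) (fun b hb => ?_)
        · rw [Finset.mem_filter]
          obtain ⟨q, hq⟩ := hsub b hb
          exact ⟨hB hb, ReachOff.trans hv ⟨q, fun z hz h => hq z hz (Or.inl h)⟩⟩
        · obtain ⟨q, hq⟩ := hsub b hb
          exact ⟨q, fun z hz h => hq z hz (Or.inr h)⟩
      have h2 := hA (A.filter fun v => v ∈ compSet G (UC p s C) v0) (Finset.filter_subset _ _)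
        (fun b hb => (Finset.mem_filter.1 hb).2)
      have h3 : 2 ^ k * (3 * B.card) ≤
          2 ^ k * (2 * (A.filter fun v => v ∈ compSet G (UC p s C) v0).card) :=
        Nat.mul_le_mul_left _ h1
      have h4 : (2 : ℕ) ^ (k + 1) = 2 ^ k * 2 := pow_succ _ _
      have h5 : (3 : ℕ) ^ (k + 1) = 3 ^ k * 3 := pow_succ _ _
      rw [h4, h5] at h2
      nlinarith

/-- the metric on the points, from the pointed form -/
theorem ptL_embeds (hc : G.Connected) (hℓ : ∀ e ∈ G.edgeSet, 0 < ℓ e) (L : Set V) {k K : ℝ}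
    (hk : 0 ≤ k) (hK : 0 < K)
    (h : ∀ H : V → ℝ, (∀ v, 0 < H v) → (∀ u v, G.Adj u v → |H u - H v| ≤ ℓ s(u, v)) →
      PtL G ℓ L Set.univ H k K) :
    EmbedsL1 (fun x y : L => pathDist G ℓ x.1 y.1) (48000 * √k + 16000 * K) := by
  have := Fintype.ofFinite V
  have hd := pathDist_isMet hc hℓ
  obtain ⟨R, hR0, hR⟩ : ∃ R : ℝ, 0 < R ∧ ∀ x y, pathDist G ℓ x y ≤ R := by
    refine ⟨∑ x, ∑ y, pathDist G ℓ x y + 1, ?_, ?_⟩
    · have : 0 ≤ ∑ x, ∑ y, pathDist G ℓ x y :=
        Finset.sum_nonneg fun x _ => Finset.sum_nonneg fun y _ => hd.nonneg x y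
      linarith
    intro x y
    have e1 : pathDist G ℓ x y ≤ ∑ y, pathDist G ℓ x y :=
      Finset.single_le_sum (f := fun y => pathDist G ℓ x y) (fun y _ => hd.nonneg x y)
        (Finset.mem_univ y)
    have e2 : ∑ y, pathDist G ℓ x y ≤ ∑ x, ∑ y, pathDist G ℓ x y :=
      Finset.single_le_sum (f := fun x => ∑ y, pathDist G ℓ x y)
        (fun x _ => Finset.sum_nonneg fun y _ => hd.nonneg x y) (Finset.mem_univ x)
    linarith
  obtain ⟨N, σ, hN, h1, h2, -, -, h5⟩ := h (fun _ => R)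
    (fun _ => hR0) (fun u v huv => by
      rw [sub_self, abs_zero]; exact (hℓ _ huv).le)
  obtain ⟨F, hF, hFN⟩ := hN.toL1
  have hsk := Real.sqrt_nonneg k
  have hK' : 0 < 48000 * √k + 16000 * K := by linarith
  have hI := ((hF.comap (fun x : L => some x.1)).smul (by norm_num : (0 : ℝ) ≤ 48000)).add
    ((h1.comap (fun x : L => some x.1)).smul (by norm_num : (0 : ℝ) ≤ 16000))
  refine hI.embeds (fun x y => ?_) (fun x y => ?_)
  · show pathDist G ℓ x.1 y.1 ≤ 48000 * F (some x.1) (some y.1) + 16000 * σ (some x.1) (some y.1)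
    have nF := hF.nonneg (some x.1) (some y.1)
    have nσ := h1.nonneg (some x.1) (some y.1)
    rcases (hd.nonneg x.1 y.1).eq_or_lt with h0 | h0
    · linarith
    rcases h5 x.1 x.2 y.1 y.2 (Set.mem_univ _) (Set.mem_univ _) (pathDist G ℓ x.1 y.1 / 8)
      (by linarith) (by linarith [hR x.1 y.1]) (by linarith [hR x.1 y.1]) (by linarith) with h6 | h6
    · have h7 := (hFN (some x.1) (some y.1)).2
      have h8 : pathDist G ℓ x.1 y.1 / 8 ≤ 3000 * √(N (some x.1) (some y.1)) := by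
        have e : 3000 * √(N (some x.1) (some y.1)) = √(9000000 * N (some x.1) (some y.1)) := by
          rw [Real.sqrt_mul (by norm_num), show (9000000 : ℝ) = 3000 ^ 2 by norm_num,
            Real.sqrt_sq (by norm_num)]
        rw [e]
        exact Real.le_sqrt_of_sq_le h6
      linarith
    · linarith
  · show 48000 * F (some x.1) (some y.1) + 16000 * σ (some x.1) (some y.1) ≤
      (48000 * √k + 16000 * K) * pathDist G ℓ x.1 y.1
    have : Nonempty (G.Walk x.1 y.1) := hc x.1 y.1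
    rw [← div_le_iff₀' hK']
    refine le_ciInf fun q => ?_
    rw [div_le_iff₀' hK']
    have h6 := h2 x.1 x.2 y.1 y.2 q (fun z _ => Set.mem_univ _)
    have h7 := (hFN (some x.1) (some y.1)).1
    have hq0 : 0 ≤ wl ℓ q := wl_nonneg hℓ q
    have h8 : √(N (some x.1) (some y.1)) ≤ √k * wl ℓ q := by
      refine (Real.sqrt_le_sqrt h6.1).trans (le_of_eq ?_)
      rw [Real.sqrt_mul hk, Real.sqrt_sq hq0]
    show 48000 * F (some x.1) (some y.1) + 16000 * σ (some x.1) (some y.1) ≤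
      (48000 * √k + 16000 * K) * wl ℓ q
    have h9 := h6.2
    nlinarith

/-- **rounds of three chains for the metric on a set of points** -/
theorem sqrt_points (hc : G.Connected) (hℓ : ∀ e ∈ G.edgeSet, 0 < ℓ e) {u : V → ℝ}
    (hu : ∀ a b, |u a - u b| ≤ pathDist G ℓ a b) {p : V → V} {s : V} (hsep : Seps G p s)
    (hiso : ∀ c, ∀ a ∈ chain p s c, ∀ b ∈ chain p s c, pathDist G ℓ a b ≤ |u a - u b|)
    (L : Set V) (A : Finset V) {C0 : ℝ} (hC0 : 0 < C0) (k : ℕ) (hk : 2 ^ k * A.card < 3 ^ k)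
    (hleaf : LeafL G ℓ p s L A k C0) :
    EmbedsL1 (fun x y : L => pathDist G ℓ x.1 y.1)
      (48000 * √(4 * (k : ℝ)) + 16000 * (96 * C0 + 112)) := by
  have hemp : ∀ x, x ∉ UC p s (∅ : Finset V) := by
    rintro x ⟨c, hc, _⟩
    exact absurd hc (Finset.notMem_empty c)
  refine ptL_embeds hc hℓ L (by positivity) (by linarith) fun H hH hHl => ?_
  have h := ptL_rec hc hℓ hu hsep hiso L A hC0 k hleaf k ∅ s (hemp s) (by simp) (fun B hB _ =>
    lt_of_le_of_lt (Nat.mul_le_mul_left _ (Finset.card_le_card hB)) hk) H (fun v => (hH v).le)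
    (fun v _ => hH v) (fun v hv => absurd hv (hemp v)) hHl
  have e : compSet G (UC p s (∅ : Finset V)) s = Set.univ := by
    rw [Set.eq_univ_iff_forall]
    intro x
    obtain ⟨q⟩ := hc.preconnected s x
    exact ⟨q, fun z _ => hemp z⟩
  rwa [e] at h

end Vale.Agent.P235.T5
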