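/-
P235-M (helper611), v4, terminals: plane graphs with few exceptional terminals, square root bound.
-/
import Vale.Agent.P235.R2.H611.T5b
import Vale.Agent.P235.R2.H611.StarMetric
import Vale.Agent.P235.R2.H582.FewU
import Vale.Agent.P235.R2.H341.Y2
import Vale.Agent.P235.R2.H802.Sep2
import Vale.Agent.P235.R2.H105.Const

set_option linter.all false
set_option autoImplicit false

namespace Vale.Agent.P235.T5

open Finset Vale.Agent.P235 Vale.Agent.P235.Red Vale.Agent.P235.H718 Vale.Agent.P235.H341W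
  Vale.Agent.P235.Few Vale.Agent.P235.R2.H105.Const
open Vale.Agent.P235.R2.H582.FewT (T few_tight)

section mcshane

variable {V : Type} [Finite V] {G : SimpleGraph V} {ℓ : Sym2 V → ℝ}

/-- **extension**: a nonexpansive function on `L` extends so that every vertex outside `L` has a
tight edge downwards -/
theorem exists_mcshane (hc : G.Connected) (hℓ : ∀ e ∈ G.edgeSet, 0 < ℓ e) {L : Set V}
    (hL : L.Nonempty) {h : V → ℝ} (h1 : ∀ u ∈ L, ∀ v ∈ L, |h u - h v| ≤ pathDist G ℓ u v) :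
    ∃ g : V → ℝ, (∀ v ∈ L, g v = h v) ∧ (∀ u v, G.Adj u v → |g u - g v| ≤ ℓ s(u, v)) ∧
      ∀ v ∉ L, ∃ u, Tt G ℓ g u v := by
  classical
  have hd := pathDist_isMet hc hℓ
  have hmin : ∀ v, ∃ x ∈ L, ∀ y ∈ L, h x + pathDist G ℓ x v ≤ h y + pathDist G ℓ y v := by
    intro v
    obtain ⟨x, hx, hm⟩ := Set.exists_min_image L (fun x => h x + pathDist G ℓ x v)
      (Set.toFinite L) hL
    exact ⟨x, hx, hm⟩
  choose m hmL hm using hmin
  let g : V → ℝ := fun v => h (m v) + pathDist G ℓ (m v) v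
  have hgle : ∀ v, ∀ y ∈ L, g v ≤ h y + pathDist G ℓ y v := fun v y hy => hm v y hy
  have hgL : ∀ v ∈ L, g v = h v := by
    intro v hv
    apply le_antisymm
    · have k := hgle v v hv
      rwa [hd.self, add_zero] at k
    · have k := (le_abs_self _).trans (h1 v hv (m v) (hmL v))
      rw [hd.symm] at k
      show h v ≤ h (m v) + pathDist G ℓ (m v) v
      linarith
  have hg1 : ∀ u v, g u - g v ≤ pathDist G ℓ u v := by
    intro u v
    have k1 := hgle u (m v) (hmL v)
    have k2 := hd.tri (m v) v u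
    rw [hd.symm v u] at k2
    show g u - (h (m v) + pathDist G ℓ (m v) v) ≤ _
    linarith
  have hglip : ∀ u v, G.Adj u v → |g u - g v| ≤ ℓ s(u, v) := by
    intro u v huv
    have k1 := hg1 u v
    have k2 := hg1 v u
    rw [hd.symm v u] at k2
    have k3 := pathDist_adj hℓ huv
    rw [abs_le]; constructor <;> linarith
  refine ⟨g, hgL, hglip, fun v hv => ?_⟩
  have hne : v ≠ m v := fun k => hv (k ▸ hmL v)
  obtain ⟨w, hw, k1⟩ := Tight.exists_first hc hℓ hne
  refine ⟨w, hw.symm, ?_⟩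
  have k2 := hgle w (m v) (hmL v)
  have k3 := (abs_le.1 (hglip w v hw.symm)).1
  rw [hd.symm v (m v), hd.symm w (m v)] at k1
  have k4 : g v = h (m v) + pathDist G ℓ (m v) v := rfl
  have k5 : s(v, w) = s(w, v) := Sym2.eq_swap
  rw [k5] at k1
  linarith

end mcshane

section leaf

variable {V : Type} [Finite V] {G : SimpleGraph V} {ℓ : Sym2 V → ℝ}

/-- the top terminal of every chain -/
theorem exists_tops (hℓ : ∀ e ∈ G.edgeSet, 0 < ℓ e) {g : V → ℝ} {s : V} {p : V → V} {L : Set V}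
    (hsL : s ∈ L) (hp : ∀ v, v ≠ s → Tt G ℓ g (p v) v) (hpL : ∀ v ∈ L, v ≠ s → p v ∈ L) :
    ∃ f : V → V, ∀ c, ∀ x ∈ L, Orb p s c x → x ≠ f c →
      ∃ w ∈ L, w ≠ s ∧ p w = x ∧ Orb p s c w := by
  classical
  have hlt : ∀ a b, Orb p s a b → a = b ∨ g b < g a := by
    intro a b hab
    induction hab with
    | refl => exact Or.inl rfl
    | @tail x y _ h2 ih =>
      obtain ⟨hx, rfl⟩ := h2
      obtain ⟨h3, h4⟩ := hp x hx
      have h5 := hℓ s(p x, x) h3
      rcases ih with rfl | ih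
      · exact Or.inr (by linarith)
      · exact Or.inr (by linarith)
  have hLc : ∀ a b, Orb p s a b → a ∈ L → b ∈ L := by
    intro a b hab
    induction hab with
    | refl => exact id
    | @tail x y _ h2 ih =>
      obtain ⟨hx, rfl⟩ := h2
      exact fun ha => hpL x (ih ha) hx
  have hf : ∀ c, ∃ t, ∀ x ∈ L, Orb p s c x → x ≠ t →
      ∃ w ∈ L, w ≠ s ∧ p w = x ∧ Orb p s c w := by
    intro c
    by_cases hne : ∃ x, x ∈ L ∧ Orb p s c x
    · obtain ⟨t, ht, hmax⟩ := Set.exists_max_image {x | x ∈ L ∧ Orb p s c x} g (Set.toFinite _)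
        hne
      refine ⟨t, fun x hx hcx hxt => ?_⟩
      have h1 : Orb p s t x := by
        rcases Orb.total ht.2 hcx with k | k
        · exact k
        · rcases hlt x t k with k1 | k1
          · exact absurd k1 hxt
          · exact absurd (hmax x ⟨hx, hcx⟩) (not_le.2 k1)
      rcases Relation.ReflTransGen.cases_tail h1 with k | ⟨w, k1, hw, k2⟩
      · exact absurd k hxt
      · exact ⟨w, hLc t w k1 ht.1, hw, k2.symm, ht.2.trans k1⟩
    · push Not at hne
      exact ⟨c, fun x hx hcx => absurd hcx (hne x hx)⟩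
  choose f hf using hf
  exact ⟨f, hf⟩

/-- **leaf** -/
theorem leafL {C₀ : ℝ} (hC : 1 ≤ C₀) (hM : MStarLL C₀)
    {σ : Equiv.Perm G.Dart} (hc : G.Connected) (hP : PlaneMap G σ) (hℓ : ∀ e ∈ G.edgeSet, 0 < ℓ e)
    {g : V → ℝ} (h1 : ∀ u v, G.Adj u v → |g u - g v| ≤ ℓ s(u, v)) {s : V} {p : V → V}
    {L : Set V} (hsL : s ∈ L) (hp : ∀ v, v ≠ s → Tt G ℓ g (p v) v)
    (hpL : ∀ v ∈ L, v ≠ s → p v ∈ L) {B : Finset V}
    (hB : ∀ v ∈ L, v ∉ B → ∃ u ∈ L, Tt G ℓ g v u)
    (C : Finset V) (v : V) (hno : ∀ a ∈ B, a ∉ compSet G (UC p s C) v) :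
    EmbedsL1 (fun x y : {x : Pc G p s C v // x.1 ∈ L} =>
      pathDist (G.induce (Pc G p s C v)) (fun e => ℓ (e.map Subtype.val)) x.1 y.1)
      (320000000000000 * C₀ * ((ll (Nat.card V) : ℝ) + 1 +
        Real.log (((C.card + 2 : ℕ) : ℝ) + 2))) := by
  classical
  have hs : s ∈ Pc G p s C v := Or.inr (Or.inr rfl)
  have hconn := pc_connected hℓ hp C v
  have hpos := induce_pos hℓ (Pc G p s C v)
  have hd := pathDist_isMet hconn hpos
  obtain ⟨f, hf⟩ := exists_tops hℓ hsL hp hpL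
  by_cases hne : Nonempty (G.induce (Pc G p s C v)).Dart
  · obtain ⟨σ', hσ', -⟩ := H341W.rowInd V G σ (Pc G p s C v) hc hP hconn hne
    have key := few_tight hC hM (Pc G p s C v) (G.induce (Pc G p s C v)) σ'
      (fun e => ℓ (e.map Subtype.val)) (fun x => g x.1) {x | x.1 ∈ L} {⟨s, hs⟩}
      {x | x.1 ∈ insert s (C.image f)} hconn hσ' hpos
      (fun a _ b _ => pathDist_gen hconn (f := fun x : Pc G p s C v => g x.1)
        (fun a b hab => h1 a.1 b.1 hab) a b)
      (fun x hxL hx => by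
        have hxs : x.1 ≠ s := fun k => hx (Subtype.ext k)
        exact ⟨⟨p x.1, pc_down hp x.2 hxs⟩, (hp x.1 hxs).1, (hp x.1 hxs).2.le,
          hpL x.1 hxL hxs, hxL⟩)
      (fun x hxL hx => by
        obtain ⟨x, hxm⟩ := x
        have hxL' : x ∈ L := hxL
        have hx' : x ∉ insert s (C.image f) := hx
        rw [Finset.mem_insert, not_or] at hx'
        obtain ⟨hxs, hxC⟩ := hx'
        rcases hxm with hxm | hxm | hxm
        · obtain ⟨u, huL, hu1, hu2⟩ := hB x hxL' (fun k => hno x k hxm)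
          by_cases hu : u ∈ UC p s C
          · exact ⟨⟨u, Or.inr (Or.inl hu)⟩, hu1, hu2.le, hxL', huL⟩
          · exact ⟨⟨u, Or.inl (ReachOff.trans hxm (ReachOff.adj (ReachOff.right hxm) hu hu1))⟩,
              hu1, hu2.le, hxL', huL⟩
        · obtain ⟨c, hcC, hcx⟩ := hxm
          have hcx' : Orb p s c x := hcx
          obtain ⟨w, hwL, hws, hwx, hcw⟩ := hf c x hxL' hcx' (fun k =>
            hxC (k ▸ Finset.mem_image_of_mem f hcC))
          have k3 : w ∈ UC p s C := ⟨c, hcC, hcw⟩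
          have k4 := hp w hws
          rw [hwx] at k4
          exact ⟨⟨w, Or.inr (Or.inl k3)⟩, k4.1, k4.2.le, hxL', hwL⟩
        · exact absurd hxm hxs)
    refine H341W.embeds_mono (fun x y => hd.nonneg _ _) ?_ key
    refine mul_le_mul_of_nonneg_left ?_ (by positivity)
    have e1 : (({⟨s, hs⟩} : Set (Pc G p s C v)).ncard : ℝ) = 1 := by
      rw [Set.ncard_singleton]
      norm_num
    have e2 : (({x : Pc G p s C v | x.1 ∈ insert s (C.image f)} :
        Set (Pc G p s C v)).ncard : ℝ) ≤ (C.card : ℝ) + 1 := by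
      have k1 : ({x : Pc G p s C v | x.1 ∈ insert s (C.image f)} :
          Set (Pc G p s C v)).ncard ≤ (insert s (C.image f)).card := by
        rw [← Set.ncard_coe_finset]
        refine Set.ncard_le_ncard_of_injOn Subtype.val (fun x hx => hx)
          (Subtype.val_injective.injOn) (Finset.finite_toSet _)
      have k2 := (k1.trans (Finset.card_insert_le s (C.image f))).trans
        (Nat.add_le_add_right Finset.card_image_le 1)
      exact_mod_cast k2
    have e3 : (ll (Nat.card (Pc G p s C v)) : ℝ) ≤ ll (Nat.card V) := by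
      have k1 : Nat.card (Pc G p s C v) ≤ Nat.card V :=
        Nat.card_le_card_of_injective Subtype.val Subtype.val_injective
      have k2 : ll (Nat.card (Pc G p s C v)) ≤ ll (Nat.card V) :=
        Nat.log_mono_right (Nat.add_le_add_right (Nat.log_mono_right k1) 1)
      exact_mod_cast k2
    have e4 : Real.log ((({⟨s, hs⟩} : Set (Pc G p s C v)).ncard : ℝ) +
        ({x : Pc G p s C v | x.1 ∈ insert s (C.image f)} : Set (Pc G p s C v)).ncard + 2) ≤
        Real.log (((C.card + 2 : ℕ) : ℝ) + 2) := by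
      refine Real.log_le_log (by rw [e1]; positivity) ?_
      rw [e1]
      push_cast
      linarith
    linarith
  · -- one vertex
    have hone : ∀ a b : Pc G p s C v, a = b := by
      intro a b
      by_contra hab
      obtain ⟨q⟩ := hconn.preconnected a b
      cases q with
      | nil => exact hab rfl
      | cons k _ => exact hne ⟨⟨(_, _), k⟩⟩
    exact embeds_of_subsingleton (X := {x : Pc G p s C v // x.1 ∈ L})
      (d := fun x y => pathDist (G.induce (Pc G p s C v)) (fun e => ℓ (e.map Subtype.val)) x.1 y.1)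
      (fun x y => Subtype.ext (hone x.1 y.1)) (fun x => hd.self _) _

end leaf

/-- **Terminals, tight form, square root bound.**  `G` is any plane graph with positive lengths,
`L` any set of vertices (terminals), `h` nonexpansive on `L`, `s ∈ L`; every terminal except `s`
has a tight edge downwards in `L`, every terminal outside `B` one upwards. -/
theorem terminals_sqrt_tight {C : ℝ} (hC : 1 ≤ C) (hM : MStarLL C) (V : Type) [Finite V]
    (G : SimpleGraph V) (σ : Equiv.Perm G.Dart) (ℓ : Sym2 V → ℝ) (h : V → ℝ) (L : Set V) (s : V)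
    (hsL : s ∈ L) (B : Finset V)
    (hc : G.Connected) (hP : PlaneMap G σ) (hℓ : ∀ e ∈ G.edgeSet, 0 < ℓ e)
    (h1 : ∀ u ∈ L, ∀ v ∈ L, |h u - h v| ≤ pathDist G ℓ u v)
    (hlow : ∀ v ∈ L, v ≠ s → ∃ u, T G ℓ h L u v)
    (hhigh : ∀ v ∈ L, v ∉ B → ∃ u, T G ℓ h L v u) :
    EmbedsL1 (fun u v : L => pathDist G ℓ u v) (10 ^ 22 * C *
      ((ll (Nat.card V) : ℝ) + 1 + √(Real.log ((B.card : ℝ) + 2)))) := by
  classical
  have := Fintype.ofFinite V
  have hd := pathDist_isMet hc hℓ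
  obtain ⟨g, hg, hgl, hgo⟩ := exists_mcshane hc hℓ ⟨s, hsL⟩ h1
  -- tight edges of `h` in `L` are tight for `g`
  have hTT : ∀ u v, T G ℓ h L u v → Tt G ℓ g u v ∧ u ∈ L ∧ v ∈ L := by
    rintro u v ⟨k1, k2, k3, k4⟩
    refine ⟨⟨k1, ?_⟩, k3, k4⟩
    have k5 := (abs_le.1 (hgl u v k1)).1
    have k6 := hg u k3
    have k7 := hg v k4
    linarith
  have hp0 : ∀ v, ∃ u, v ≠ s → Tt G ℓ g u v ∧ (v ∈ L → u ∈ L) := by
    intro v
    by_cases hv : v = s
    · exact ⟨v, fun k => absurd hv k⟩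
    · by_cases hvL : v ∈ L
      · obtain ⟨u, hu⟩ := hlow v hvL hv
        have k := hTT u v hu
        exact ⟨u, fun _ => ⟨k.1, fun _ => k.2.1⟩⟩
      · obtain ⟨u, hu⟩ := hgo v hvL
        exact ⟨u, fun _ => ⟨hu, fun k => absurd k hvL⟩⟩
  choose p hp' using hp0
  have hp : ∀ v, v ≠ s → Tt G ℓ g (p v) v := fun v hv => (hp' v hv).1
  have hpL : ∀ v ∈ L, v ≠ s → p v ∈ L := fun v hvL hv => (hp' v hv).2 hvL
  have hB : ∀ v ∈ L, v ∉ B → ∃ u ∈ L, Tt G ℓ g v u := by
    intro v hvL hvB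
    obtain ⟨u, hu⟩ := hhigh v hvL hvB
    have k := hTT v u hu
    exact ⟨u, k.2.2, k.1⟩
  have hu : ∀ a b, |g a - g b| ≤ pathDist G ℓ a b := pathDist_gen hc hgl
  have hsep : Seps G p s := SqR.rowSep V G σ g s p hc hP fun v hv => by
    obtain ⟨h3, h4⟩ := hp v hv
    have h5 := hℓ s(p v, v) h3
    exact ⟨h3.symm, by linarith⟩
  have hiso : ∀ c, ∀ a ∈ chain p s c, ∀ b ∈ chain p s c, pathDist G ℓ a b ≤ |g a - g b| := by
    intro c a ha b hb
    rcases Orb.total ha hb with k | k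
    · exact (orb_tight hc hℓ hp k).trans (le_abs_self _)
    · rw [hd.symm, abs_sub_comm]
      exact (orb_tight hc hℓ hp k).trans (le_abs_self _)
  have hBn : B.card ≤ Nat.card V := by
    rw [Nat.card_eq_fintype_card]
    exact Finset.card_le_univ _
  set n := Nat.card V with hn
  set k := rounds B.card with hk
  have hll : (0 : ℝ) ≤ (ll n : ℝ) := Nat.cast_nonneg _
  set C0 : ℝ := 320000000000000 * C * ((ll n : ℝ) + 1 + Real.log (((3 * k + 2 : ℕ) : ℝ) + 2))
    with hC0
  have hlog0 : 0 ≤ Real.log (((3 * k + 2 : ℕ) : ℝ) + 2) := Real.log_nonneg (by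
    have : (0 : ℝ) ≤ ((3 * k + 2 : ℕ) : ℝ) := Nat.cast_nonneg _
    linarith)
  have hC01 : 1 ≤ C0 := by
    have : 1 ≤ (ll n : ℝ) + 1 + Real.log (((3 * k + 2 : ℕ) : ℝ) + 2) := by linarith
    rw [hC0]
    nlinarith
  have hleaf : LeafL G ℓ p s L B k C0 := by
    intro S hS v hv hno
    refine ⟨Pc G p s S v, Set.subset_union_left, pc_connected hℓ hp S v, ?_⟩
    have hdd := pathDist_isMet (pc_connected hℓ hp S v) (induce_pos hℓ (Pc G p s S v))
    refine H341W.embeds_mono (fun x y => hdd.nonneg _ _) ?_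
      (leafL hC hM hc hP hℓ hgl hsL hp hpL hB S v hno)
    rw [hC0]
    refine mul_le_mul_of_nonneg_left ?_ (by positivity)
    have k1 : Real.log (((S.card + 2 : ℕ) : ℝ) + 2) ≤ Real.log (((3 * k + 2 : ℕ) : ℝ) + 2) := by
      refine Real.log_le_log (by positivity) ?_
      have k2 : (S.card : ℝ) ≤ 3 * k := by exact_mod_cast hS
      push_cast
      linarith
    linarith
  have hE := sqrt_points hc hℓ hu hsep hiso L B (C0 := C0) (by linarith) k (rounds_ok B.card) hleaf
  refine H341W.embeds_mono (fun x y => hd.nonneg _ _) ?_ hE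
  have ht := total_le (b := B.card) (n := n) (n' := n) (m := 3 * k + 2) le_rfl hBn le_rfl
    (K := 320000000000000 * C) (c := 1) (by positivity) (by norm_num)
  have e1 : ((4 * rounds B.card : ℕ) : ℝ) = 4 * (k : ℝ) := by
    rw [hk]
    push_cast
    ring
  rw [e1] at ht
  have e2 : ((Nat.log 2 (Nat.log 2 n + 1) : ℕ) : ℝ) = (ll n : ℝ) := rfl
  rw [e2] at ht
  have k3 := Real.sqrt_nonneg (Real.log ((B.card : ℝ) + 2))
  have k4 := Real.sqrt_nonneg (4 * (k : ℝ))
  have k5 : 1 * (C0 + √(4 * (k : ℝ))) ≤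
      5 * 1 * (320000000000000 * C + 1) * ((ll n : ℝ) + 1 + √(Real.log ((B.card : ℝ) + 2))) := ht
  have k6 : (320000000000000 * C + 1) * ((ll n : ℝ) + 1 + √(Real.log ((B.card : ℝ) + 2))) ≤
      (320000000000001 * C) * ((ll n : ℝ) + 1 + √(Real.log ((B.card : ℝ) + 2))) :=
    mul_le_mul_of_nonneg_right (by linarith) (by linarith)
  have k7 : C ≤ C * ((ll n : ℝ) + 1 + √(Real.log ((B.card : ℝ) + 2))) := by
    have : 0 ≤ C * ((ll n : ℝ) + √(Real.log ((B.card : ℝ) + 2))) := by positivity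
    nlinarith
  have k8 : 0 ≤ C * ((ll n : ℝ) + 1 + √(Real.log ((B.card : ℝ) + 2))) := by positivity
  have e3 : (320000000000001 * C) * ((ll n : ℝ) + 1 + √(Real.log ((B.card : ℝ) + 2))) =
    320000000000001 * (C * ((ll n : ℝ) + 1 + √(Real.log ((B.card : ℝ) + 2)))) := by ring
  have e4 : (10 : ℝ) ^ 22 * C * ((ll n : ℝ) + 1 + √(Real.log ((B.card : ℝ) + 2))) =
    10 ^ 22 * (C * ((ll n : ℝ) + 1 + √(Real.log ((B.card : ℝ) + 2)))) := by ring
  rw [e4]
  rw [e3] at k6
  set X : ℝ := C * ((ll n : ℝ) + 1 + √(Real.log ((B.card : ℝ) + 2))) with hX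
  have k9 : C0 + √(4 * (k : ℝ)) ≤ 1600000000000005 * X := by linarith
  have k10 : (1 : ℝ) ≤ X := by linarith
  have e5 : (10 : ℝ) ^ 22 = 10000000000000000000000 := by norm_num
  rw [e5]
  linarith

end Vale.Agent.P235.T5
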