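/-
P235-M (helper611), v4, terminals: slopes at least `1/D`, square root bound.
-/
import Vale.Agent.P235.R2.H611.T5c

set_option linter.all false
set_option autoImplicit false

namespace Vale.Agent.P235.T5

open SimpleGraph Relation Vale.Agent.P235 Vale.Agent.P235.Red Vale.Agent.P235.Quo
  Vale.Agent.P235.R2.H582.GL Vale.Agent.P235.H341W Vale.Agent.P235.R2.H582.FewT
open Vale.Agent.P235.R2.H168 (hlen hlen_mk)

/-- lengths for which the steep edges between terminals are tight (helper582's construction) -/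
theorem exists_tight_lengths {V : Type} [Finite V] {G : SimpleGraph V} {ℓ : Sym2 V → ℝ}
    {h : V → ℝ} {L A B : Set V} {D : ℝ} (hD : 1 ≤ D)
    (hc : G.Connected) (hℓ : ∀ e ∈ G.edgeSet, 0 < ℓ e)
    (h1 : ∀ u ∈ L, ∀ v ∈ L, |h u - h v| ≤ pathDist G ℓ u v)
    (hlow : ∀ v ∈ L, v ∉ A → ∃ u ∈ L, G.Adj v u ∧ ℓ s(v, u) ≤ D * (h v - h u))
    (hhigh : ∀ v ∈ L, v ∉ B → ∃ u ∈ L, G.Adj v u ∧ ℓ s(v, u) ≤ D * (h u - h v)) :
    ∃ ℓ' : Sym2 V → ℝ, (∀ e ∈ G.edgeSet, 0 < ℓ' e) ∧
      (∀ u ∈ L, ∀ v ∈ L, |h u - h v| ≤ pathDist G ℓ' u v) ∧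
      (∀ v ∈ L, v ∉ A → ∃ u, T G ℓ' h L u v) ∧ (∀ v ∈ L, v ∉ B → ∃ u, T G ℓ' h L v u) ∧
      ∀ K : ℝ, 0 ≤ K → EmbedsL1 (fun u v : L => pathDist G ℓ' u v) K →
        EmbedsL1 (fun u v : L => pathDist G ℓ u v) (K * D) := by
  classical
  have hD0 : (0 : ℝ) < D := by linarith
  have hpos : ∀ u v, G.Adj u v → 0 < ℓ s(u, v) := fun u v ha => hℓ _ ((G.mem_edgeSet).2 ha)
  -- the tight lengths
  let ℓ₁ : Sym2 V → ℝ := fun e => if (∀ z ∈ e, z ∈ L) ∧ ℓ e ≤ D * hlen h e then hlen h e else ℓ e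
  have hs1 : ∀ u v, u ∈ L → v ∈ L → ℓ s(u, v) ≤ D * |h u - h v| → ℓ₁ s(u, v) = |h u - h v| := by
    intro u v hu hv huv
    show (if (∀ z ∈ s(u, v), z ∈ L) ∧ ℓ s(u, v) ≤ D * hlen h s(u, v) then hlen h s(u, v) else
      ℓ s(u, v)) = _
    rw [if_pos, hlen_mk]
    refine ⟨fun z hz => ?_, by rw [hlen_mk]; exact huv⟩
    rcases Sym2.mem_iff.1 hz with rfl | rfl
    · exact hu
    · exact hv
  have hcases : ∀ u v, G.Adj u v → (u ∈ L ∧ v ∈ L ∧ ℓ s(u, v) ≤ D * |h u - h v| ∧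
      ℓ₁ s(u, v) = |h u - h v|) ∨ ℓ₁ s(u, v) = ℓ s(u, v) := by
    intro u v ha
    by_cases huv : (∀ z ∈ s(u, v), z ∈ L) ∧ ℓ s(u, v) ≤ D * hlen h s(u, v)
    · have hu : u ∈ L := huv.1 u (Sym2.mem_mk_left u v)
      have hv : v ∈ L := huv.1 v (Sym2.mem_mk_right u v)
      have h2 := huv.2
      rw [hlen_mk] at h2
      exact Or.inl ⟨hu, hv, h2, hs1 u v hu hv h2⟩
    · exact Or.inr (if_neg huv)
  have hLl : ∀ u v, G.Adj u v → u ∈ L → v ∈ L → |h u - h v| ≤ ℓ s(u, v) := fun u v ha hu hv =>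
    (h1 u hu v hv).trans (F0.d_adj hℓ ha)
  have hne : ∀ u v, G.Adj u v → ℓ s(u, v) ≤ D * |h u - h v| → 0 < |h u - h v| := by
    intro u v ha huv
    have h3 := hpos u v ha
    by_contra hh
    have h4 : |h u - h v| = 0 := le_antisymm (not_lt.1 hh) (abs_nonneg _)
    rw [h4, mul_zero] at huv
    linarith
  have hℓ₁ : ∀ e ∈ G.edgeSet, 0 < ℓ₁ e := fun e he => by
    induction e with
    | _ u v =>
      rcases hcases u v he with ⟨-, -, h2, h3⟩ | h2
      · rw [h3]
        exact hne u v he h2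
      · rw [h2]
        exact hℓ _ he
  have hle1 : ∀ u v, G.Adj u v → ℓ₁ s(u, v) ≤ ℓ s(u, v) := by
    intro u v ha
    rcases hcases u v ha with ⟨hu, hv, h2, h3⟩ | h2
    · rw [h3]
      exact hLl u v ha hu hv
    · rw [h2]
  have hle2 : ∀ u v, G.Adj u v → ℓ s(u, v) ≤ D * ℓ₁ s(u, v) := by
    intro u v ha
    rcases hcases u v ha with ⟨-, -, h2, h3⟩ | h2
    · rw [h3]
      exact h2
    · rw [h2]
      exact le_mul_of_one_le_left (hpos u v ha).le hD
  -- `h` is still nonexpansive on the terminals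
  have h1' : ∀ u ∈ L, ∀ v ∈ L, |h u - h v| ≤ pathDist G ℓ₁ u v := by
    intro u hu v hv
    have h2 := pd_semi (ℓ := gl G ℓ₁ L) (ρ := fun x y : L => |h x - h y|)
      (gr_conn hc hℓ₁ ⟨u, hu⟩) one_pos (fun x => by simp)
      (fun x y z => abs_sub_le _ _ _) (fun x y hxy => by
        rw [one_mul]
        refine le_gl hxy fun w hw => ?_
        by_cases hin : ∃ e ∈ w.edges, ∀ z ∈ e, z ∈ L
        · obtain ⟨e, he, hez⟩ := hin
          have h3 : |h x.1 - h y.1| ≤ ℓ₁ e := by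
            induction e with
            | _ p q =>
              have hpq : G.Adj p q := w.adj_of_mem_edges he
              have hp := hez p (Sym2.mem_mk_left p q)
              have hq := hez q (Sym2.mem_mk_right p q)
              have hpe := hw p (w.fst_mem_support_of_mem_edges he) hp
              have hqe := hw q (w.snd_mem_support_of_mem_edges he) hq
              have h4 : |h p - h q| ≤ ℓ₁ s(p, q) := by
                rcases hcases p q hpq with ⟨-, -, -, h5⟩ | h5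
                · rw [h5]
                · rw [h5]
                  exact hLl p q hpq hp hq
              rcases hpe with rfl | rfl <;> rcases hqe with rfl | rfl
              · exact absurd rfl hpq.ne
              · exact h4
              · rw [abs_sub_comm]
                exact h4
              · exact absurd rfl hpq.ne
          refine h3.trans ?_
          have hmem : ℓ₁ e ∈ w.edges.map ℓ₁ := List.mem_map_of_mem he
          refine List.single_le_sum (fun r hr => ?_) _ hmem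
          rw [List.mem_map] at hr
          obtain ⟨e', he', rfl⟩ := hr
          exact (hℓ₁ e' (w.edges_subset_edgeSet he')).le
        · push Not at hin
          have h3 : Quo.wl ℓ₁ w = Quo.wl ℓ w := by
            unfold Quo.wl
            congr 1
            refine List.map_congr_left fun e he => ?_
            refine if_neg fun h4 => ?_
            obtain ⟨z, hz, hzL⟩ := hin e he
            exact hzL (h4.1 z hz)
          rw [h3]
          exact (h1 x x.2 y y.2).trans (F0.d_le hℓ w)) ⟨u, hu⟩ ⟨v, hv⟩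
    rw [one_mul, gr_dist hc hℓ₁] at h2
    exact h2
  have hdn : ∀ u v, u ∈ L → v ∈ L → G.Adj u v → ℓ s(u, v) ≤ D * (h v - h u) →
      T G ℓ₁ h L u v := by
    intro u v hu hv ha huv
    have h3 := hpos u v ha
    have h4 : 0 < h v - h u := by
      by_contra hh
      have h5 : D * (h v - h u) ≤ 0 := mul_nonpos_of_nonneg_of_nonpos hD0.le (not_lt.1 hh)
      linarith
    refine ⟨ha, ?_, hu, hv⟩
    rw [hs1 u v hu hv (by rw [abs_sub_comm, abs_of_pos h4]; exact huv), abs_sub_comm,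
      abs_of_pos h4]
  refine ⟨ℓ₁, hℓ₁, h1', fun v hv hvA => ?_, fun v hv hvB => ?_, fun K hK hE => ?_⟩
  · obtain ⟨u, hu, ha, h2⟩ := hlow v hv hvA
    exact ⟨u, hdn u v hu hv ha.symm (by rw [Sym2.eq_swap]; exact h2)⟩
  · obtain ⟨u, hu, ha, h2⟩ := hhigh v hv hvB
    exact ⟨u, hdn v u hv hu ha h2⟩
  have e1 : ∀ x y, pathDist G ℓ x y ≤ D * pathDist G ℓ₁ x y :=
    R2.H673.pathDist_le_mul hD0.le (fun u v ha => (hpos u v ha).le) hle2
  have e2 : ∀ x y, pathDist G ℓ₁ x y ≤ 1 * pathDist G ℓ x y :=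
    R2.H673.pathDist_le_mul zero_le_one (fun u v ha => (hℓ₁ _ ((G.mem_edgeSet).2 ha)).le)
      (fun u v ha => by rw [one_mul]; exact hle1 u v ha)
  refine R2.H673.embedsL1_scale (d := fun u v : L => pathDist G ℓ u v)
    (d' := fun u v : L => pathDist G ℓ₁ u v) hD0.le hE (fun x y => e1 x y) (fun x y => ?_)
  have h3 : (0 : ℝ) ≤ K * D := by positivity
  have h4 := mul_le_mul_of_nonneg_left (e2 x y) h3
  rw [one_mul] at h4
  calc D * (K * pathDist G ℓ₁ x y) = K * D * pathDist G ℓ₁ x y := by ring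
    _ ≤ _ := h4

/-- **Terminals, square root bound.**  `G` is any plane graph with positive lengths, `L` any set of
vertices (terminals), `h` nonexpansive on `L` for the metric of `G`, `s ∈ L`; every terminal except
`s` has a neighbour in `L` with slope at least `1/D` downwards, every terminal outside `B` one
upwards. -/
theorem terminals_sqrt {C : ℝ} (hC : 1 ≤ C) (hM : MStarLL C) (V : Type) [Finite V]
    (G : SimpleGraph V) (σ : Equiv.Perm G.Dart) (ℓ : Sym2 V → ℝ) (h : V → ℝ) (L : Set V) (s : V)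
    (hsL : s ∈ L) (B : Finset V) (D : ℝ) (hD : 1 ≤ D)
    (hc : G.Connected) (hP : PlaneMap G σ) (hℓ : ∀ e ∈ G.edgeSet, 0 < ℓ e)
    (h1 : ∀ u ∈ L, ∀ v ∈ L, |h u - h v| ≤ pathDist G ℓ u v)
    (hlow : ∀ v ∈ L, v ≠ s → ∃ u ∈ L, G.Adj v u ∧ ℓ s(v, u) ≤ D * (h v - h u))
    (hhigh : ∀ v ∈ L, v ∉ B → ∃ u ∈ L, G.Adj v u ∧ ℓ s(v, u) ≤ D * (h u - h v)) :
    EmbedsL1 (fun u v : L => pathDist G ℓ u v) (10 ^ 22 * C * D *
      ((ll (Nat.card V) : ℝ) + 1 + √(Real.log ((B.card : ℝ) + 2)))) := by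
  obtain ⟨ℓ', k1, k2, k3, k4, k5⟩ := exists_tight_lengths (A := {s}) (B := (B : Set V)) hD hc hℓ h1
    (fun v hv hvs => hlow v hv hvs) (fun v hv hvB => hhigh v hv hvB)
  have hE := terminals_sqrt_tight hC hM V G σ ℓ' h L s hsL B hc hP k1 k2
    (fun v hv hvs => k3 v hv hvs) (fun v hv hvB => k4 v hv hvB)
  have hK : (0 : ℝ) ≤ 10 ^ 22 * C *
      ((ll (Nat.card V) : ℝ) + 1 + √(Real.log ((B.card : ℝ) + 2))) := by
    have := Real.sqrt_nonneg (Real.log ((B.card : ℝ) + 2))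
    positivity
  have h4 := k5 _ hK hE
  have h5 : 10 ^ 22 * C * ((ll (Nat.card V) : ℝ) + 1 + √(Real.log ((B.card : ℝ) + 2))) * D =
      10 ^ 22 * C * D * ((ll (Nat.card V) : ℝ) + 1 + √(Real.log ((B.card : ℝ) + 2))) := by ring
  rwa [h5] at h4

end Vale.Agent.P235.T5
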