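/-
P235-M (helper611).  Plane graphs with a height function: the number of peaks of faces.
-/
import Vale.Agent.P235.R2.H90.C1

set_option linter.all false
set_option autoImplicit false

namespace Vale.Agent.P235.Cnt

open SimpleGraph Vale.Agent.P235.R2.H90

variable {V : Type} [Finite V] {G : SimpleGraph V}

theorem fin_dart (G : SimpleGraph V) : Finite G.Dart :=
  Finite.of_injective (fun d : G.Dart => d.toProd) fun _ _ h => SimpleGraph.Dart.ext _ _ h

omit [Finite V] in
theorem card_dart [Fintype V] [DecidableEq V] (G : SimpleGraph V) :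
    Nat.card G.Dart = 2 * Nat.card G.edgeSet := by
  classical
  rw [Nat.card_eq_fintype_card, Nat.card_eq_fintype_card,
    SimpleGraph.dart_card_eq_twice_card_edges, SimpleGraph.edgeFinset_card]

/-- the peaks of faces -/
def Pk (σ : Equiv.Perm G.Dart) (h : V → ℝ) (d : G.Dart) : Prop :=
  h d.fst < h d.snd ∧ h (faceNext σ d).snd < h (faceNext σ d).fst

/-- the faces -/
abbrev Fc (σ : Equiv.Perm G.Dart) : Type := Quotient (Equiv.Perm.SameCycle.setoid (faceNext σ))

/-- every face has a peak -/
theorem face_peak {σ : Equiv.Perm G.Dart} (hσ : ∀ d, (σ d).fst = d.fst) {h : V → ℝ}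
    (hne : ∀ u v, G.Adj u v → h u ≠ h v) (a : G.Dart) :
    ∃ d, (faceNext σ).SameCycle a d ∧ Pk σ h d := by
  have : Finite G.Dart := fin_dart G
  have hfst : ∀ d : G.Dart, (faceNext σ d).fst = d.snd := fun d => hσ d.symm
  -- not all down
  have h1 : ∃ b, (faceNext σ).SameCycle a b ∧ h b.fst < h b.snd := by
    by_contra hh
    push Not at hh
    refine no_mono_cycle (faceNext σ) (fun d => - h d.fst) a fun d hd => ?_
    have h2 := lt_of_le_of_ne (hh d hd) fun h3 => hne _ _ d.adj h3.symm
    show - h d.fst < - h (faceNext σ d).fst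
    rw [hfst]
    linarith
  -- not all up
  have h2 : ∃ b, (faceNext σ).SameCycle a b ∧ ¬ h b.fst < h b.snd := by
    by_contra hh
    push Not at hh
    refine no_mono_cycle (faceNext σ) (fun d => h d.fst) a fun d hd => ?_
    show h d.fst < h (faceNext σ d).fst
    rw [hfst]
    exact hh d hd
  obtain ⟨b, hb1, hb2⟩ := h1
  obtain ⟨c, hc1, hc2⟩ := h2
  obtain ⟨d, hd1, hd2, hd3⟩ := cyc_change (faceNext σ) (fun d => h d.fst < h d.snd)
    (hb1.symm.trans hc1) hb2 hc2
  refine ⟨d, hb1.trans hd1, hd2, ?_⟩
  exact lt_of_le_of_ne (not_lt.1 hd3) fun h3 => hne _ _ (faceNext σ d).adj h3.symm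

/-- (a) the count -/
theorem card_peaks {σ : Equiv.Perm G.Dart} (hP : PlaneMap G σ) {h : V → ℝ}
    (hne : ∀ u v, G.Adj u v → h u ≠ h v) (E : Set V)
    (hE : ∀ v, v ∉ E → (∃ u, G.Adj v u ∧ h u < h v) ∧ ∃ u, G.Adj v u ∧ h v < h u) :
    Nat.card {d : G.Dart // Pk σ h d} + 2 ≤ Nat.card (Fc σ) + E.ncard := by
  classical
  have := Fintype.ofFinite V
  have hDf : Finite G.Dart := fin_dart G
  have : Fintype G.Dart := Fintype.ofFinite _
  set up : G.Dart → Prop := fun d => h d.fst < h d.snd with hup
  have hnup : ∀ d : G.Dart, ¬ up d ↔ h d.snd < h d.fst := fun d =>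
    ⟨fun h1 => lt_of_le_of_ne (not_lt.1 h1) fun h2 => hne _ _ d.adj h2.symm,
      fun h1 => not_lt.2 h1.le⟩
  have hsymm : ∀ d : G.Dart, up d.symm ↔ ¬ up d := fun d => by
    rw [hnup]
    exact Iff.rfl
  -- the four kinds of corners
  set A := Finset.univ.filter fun d : G.Dart => up d ∧ ¬ up (σ d) with hA
  set Ddd := Finset.univ.filter fun d : G.Dart => ¬ up d ∧ ¬ up (σ d) with hDdd
  set N := Finset.univ.filter fun d : G.Dart => ¬ up d with hN
  set N' := Finset.univ.filter fun d : G.Dart => ¬ up (σ d) with hN'
  have e1 : N'.card = N.card := by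
    refine Finset.card_bij (fun d _ => σ d) (fun d hd => ?_) (fun d _ d' _ hh => σ.injective hh)
      (fun d hd => ⟨σ⁻¹ d, ?_, ?_⟩)
    · simpa [hN, hN'] using hd
    · have h1 : σ (σ⁻¹ d) = d := Equiv.apply_symm_apply _ _
      simp only [hN', Finset.mem_filter, Finset.mem_univ, true_and]
      rw [h1]
      simpa [hN] using hd
    · exact Equiv.apply_symm_apply _ _
  have e2 : N'.card = A.card + Ddd.card := by
    rw [hN', hA, hDdd, ← Finset.card_union_of_disjoint]
    · congr 1
      ext d
      simp only [Finset.mem_filter, Finset.mem_univ, true_and, Finset.mem_union]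
      tauto
    · rw [Finset.disjoint_left]
      intro d hd hd'
      simp only [Finset.mem_filter, Finset.mem_univ, true_and] at hd hd'
      exact hd'.1 hd.1
  -- peaks of faces are corners of kind down-down
  have e3 : Nat.card {d : G.Dart // Pk σ h d} = Ddd.card := by
    rw [Nat.card_eq_fintype_card, Fintype.card_subtype]
    refine Finset.card_bij (fun d _ => d.symm) (fun d hd => ?_)
      (fun d _ d' _ hh => by
        have := congrArg SimpleGraph.Dart.symm hh
        simpa using this) (fun d hd => ⟨d.symm, ?_, by simp⟩)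
    · simp only [Finset.mem_filter, Finset.mem_univ, true_and] at hd
      simp only [hDdd, Finset.mem_filter, Finset.mem_univ, true_and]
      refine ⟨?_, ?_⟩
      · rw [hsymm, not_not]
        exact hd.1
      · rw [hnup]
        exact hd.2
    · simp only [hDdd, Finset.mem_filter, Finset.mem_univ, true_and] at hd
      simp only [Finset.mem_filter, Finset.mem_univ, true_and]
      refine ⟨?_, ?_⟩
      · exact (hnup d).1 hd.1
      · have h1 : faceNext σ d.symm = σ d := by
          show σ d.symm.symm = σ d
          rw [Dart.symm_symm]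
        rw [h1]
        exact (hnup _).1 hd.2
  -- the number of edges
  have e4 : 2 * N.card = Fintype.card G.Dart := by
    have h1 : (Finset.univ.filter fun d : G.Dart => up d).card = N.card := by
      refine Finset.card_bij (fun d _ => d.symm) (fun d hd => ?_)
        (fun d _ d' _ hh => by
          have := congrArg SimpleGraph.Dart.symm hh
          simpa using this) (fun d hd => ⟨d.symm, ?_, by simp⟩)
      · simp only [Finset.mem_filter, Finset.mem_univ, true_and] at hd
        simp only [hN, Finset.mem_filter, Finset.mem_univ, true_and]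
        rw [hsymm, not_not]
        exact hd
      · simp only [hN, Finset.mem_filter, Finset.mem_univ, true_and] at hd
        simp only [Finset.mem_filter, Finset.mem_univ, true_and]
        rw [hsymm]
        exact hd
    have h2 : (Finset.univ : Finset G.Dart).card =
        (Finset.univ.filter fun d : G.Dart => up d).card + N.card := by
      rw [hN, Finset.card_filter_add_card_filter_not]
    rw [Finset.card_univ] at h2
    omega
  have e5 : Nat.card G.edgeSet = N.card := by
    have h1 := card_dart G
    rw [Nat.card_eq_fintype_card (α := G.Dart)] at h1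
    omega
  -- every regular vertex has a change
  have e6 : Nat.card V ≤ A.card + E.ncard := by
    have h1 : ∀ v : V, v ∉ E → ∃ d ∈ A, d.fst = v := by
      intro v hv
      obtain ⟨⟨u, hu, hu'⟩, w, hw, hw'⟩ := hE v hv
      obtain ⟨d, hd1, hd2, hd3⟩ := cyc_change σ up (a := ⟨(v, w), hw⟩) (b := ⟨(v, u), hu⟩)
        (hP.cyc _ _ rfl) hw' (not_lt.2 hu'.le)
      refine ⟨d, by simp [hA, hd2, hd3], ?_⟩
      have h2 : ∀ (n : ℤ) (d : G.Dart), ((σ ^ n) d).fst = d.fst := by
        intro n
        induction n using Int.induction_on with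
        | zero => intro d; rfl
        | succ n ih =>
          intro d
          rw [zpow_add_one, Equiv.Perm.mul_apply, ih, hP.fst]
        | pred n ih =>
          intro d
          have h3 : (σ⁻¹ d).fst = d.fst := by
            have h4 := hP.fst (σ⁻¹ d)
            rw [show σ (σ⁻¹ d) = d from Equiv.apply_symm_apply _ _] at h4
            exact h4.symm
          rw [zpow_sub_one, Equiv.Perm.mul_apply, ih, h3]
      obtain ⟨n, hn⟩ := hd1
      rw [← hn, h2]
    have h2 : (Finset.univ : Finset V) ⊆ A.image (fun d => d.fst) ∪ (Set.toFinite E).toFinset := by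
      intro v _
      by_cases hv : v ∈ E
      · exact Finset.mem_union_right _ (by simpa using hv)
      · obtain ⟨d, hd, hd'⟩ := h1 v hv
        exact Finset.mem_union_left _ (Finset.mem_image.2 ⟨d, hd, hd'⟩)
    have h3 := Finset.card_le_card h2
    have h4 := Finset.card_union_le (A.image fun d => d.fst) (Set.toFinite E).toFinset
    have h5 : (A.image fun d => d.fst).card ≤ A.card := Finset.card_image_le
    rw [Nat.card_eq_fintype_card, ← Finset.card_univ, Set.ncard_eq_toFinset_card E]
    omega
  have h := hP.euler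
  rw [e3]
  show Ddd.card + 2 ≤ Nat.card (Fc σ) + E.ncard
  have h' : Nat.card V + Nat.card (Fc σ) = Nat.card G.edgeSet + 2 := h
  omega

/-- (c) the number of peaks of faces with more than one peak -/
theorem card_bad {σ : Equiv.Perm G.Dart} (hP : PlaneMap G σ) {h : V → ℝ}
    (hne : ∀ u v, G.Adj u v → h u ≠ h v) (E : Set V)
    (hE : ∀ v, v ∉ E → (∃ u, G.Adj v u ∧ h u < h v) ∧ ∃ u, G.Adj v u ∧ h v < h u) :
    Nat.card {d : G.Dart // Pk σ h d ∧ ∃ d', Pk σ h d' ∧ d' ≠ d ∧ (faceNext σ).SameCycle d d'} + 4 ≤
      2 * E.ncard := by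
  classical
  have hDf : Finite G.Dart := fin_dart G
  have : Fintype G.Dart := Fintype.ofFinite _
  have : Fintype (Fc σ) := Fintype.ofFinite _
  have hc := card_peaks hP hne E hE
  set U := Finset.univ.filter fun d : G.Dart => Pk σ h d with hU
  have hUc : Nat.card {d : G.Dart // Pk σ h d} = U.card := by
    rw [Nat.card_eq_fintype_card, Fintype.card_subtype]
  -- one peak for every face
  have hrep : ∀ f : Fc σ, ∃ d : G.Dart, Pk σ h d ∧ (Quotient.mk _ d : Fc σ) = f := by
    intro f
    induction f using Quotient.inductionOn with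
    | h a =>
      obtain ⟨d, h1, h2⟩ := face_peak hP.fst hne a
      exact ⟨d, h2, Quotient.sound h1.symm⟩
  choose rep hrep1 hrep2 using hrep
  set R := Finset.univ.image rep with hR
  have hRU : R ⊆ U := by
    intro d hd
    obtain ⟨f, _, rfl⟩ := Finset.mem_image.1 hd
    simp [hU, hrep1]
  have hRc : R.card = Nat.card (Fc σ) := by
    rw [hR, Finset.card_image_of_injective, Finset.card_univ, Nat.card_eq_fintype_card]
    intro f f' hh
    rw [← hrep2 f, ← hrep2 f', hh]
  set B := Finset.univ.filter fun d : G.Dart =>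
    Pk σ h d ∧ ∃ d', Pk σ h d' ∧ d' ≠ d ∧ (faceNext σ).SameCycle d d' with hB
  have hBc : Nat.card {d : G.Dart // Pk σ h d ∧ ∃ d', Pk σ h d' ∧ d' ≠ d ∧
      (faceNext σ).SameCycle d d'} = B.card := by
    rw [Nat.card_eq_fintype_card, Fintype.card_subtype]
  have hN : (U \ R).card = U.card - R.card := Finset.card_sdiff_of_subset hRU
  have hle : R.card ≤ U.card := Finset.card_le_card hRU
  -- bad peaks are not representatives, or their face has another peak
  have hBN : B.card ≤ 2 * (U \ R).card := by
    have h1 : B ⊆ (U \ R) ∪ (U \ R).image fun d => rep (Quotient.mk _ d) := by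
      intro d hd
      simp only [hB, Finset.mem_filter, Finset.mem_univ, true_and] at hd
      obtain ⟨h1, d', h2, h3, h4⟩ := hd
      have hdU : d ∈ U := by simp [hU, h1]
      have hdU' : d' ∈ U := by simp [hU, h2]
      by_cases hdR : d ∈ R
      · refine Finset.mem_union_right _ (Finset.mem_image.2 ⟨d', ?_, ?_⟩)
        · refine Finset.mem_sdiff.2 ⟨hdU', fun h5 => h3 ?_⟩
          obtain ⟨f, _, hf⟩ := Finset.mem_image.1 hdR
          obtain ⟨f', _, hf'⟩ := Finset.mem_image.1 h5
          have h6 : f = Quotient.mk _ d := by rw [← hf, hrep2]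
          have h7 : f' = Quotient.mk _ d' := by rw [← hf', hrep2]
          have h8 : (Quotient.mk _ d : Fc σ) = Quotient.mk _ d' := Quotient.sound h4
          rw [← hf, ← hf', h6, h7, h8]
        · obtain ⟨f, _, hf⟩ := Finset.mem_image.1 hdR
          have h6 : f = Quotient.mk _ d := by rw [← hf, hrep2]
          have h8 : (Quotient.mk _ d : Fc σ) = Quotient.mk _ d' := Quotient.sound h4
          rw [← h8, ← h6, hf]
      · exact Finset.mem_union_left _ (Finset.mem_sdiff.2 ⟨hdU, hdR⟩)
    have h2 := Finset.card_le_card h1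
    have h3 := Finset.card_union_le (U \ R) ((U \ R).image fun d => rep (Quotient.mk _ d))
    have h4 : ((U \ R).image fun d => rep (Quotient.mk _ d)).card ≤ (U \ R).card :=
      Finset.card_image_le
    omega
  rw [hBc]
  rw [hUc] at hc
  omega

end Vale.Agent.P235.Cnt
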