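/-
P235-M (helper611).  The theorem of Dilworth for width two.
-/
import Mathlib.Data.Finset.Max
import Mathlib.Order.Basic
import Mathlib.Tactic.Common

set_option linter.all false
set_option autoImplicit false

namespace Vale.Agent.P235.Dil

/-- a finite set in a partial order without three pairwise incomparable elements is the union of
two chains -/
theorem dilworth2 {α : Type} (r : α → α → Prop) (hr : ∀ x, r x x)
    (ht : ∀ x y z, r x y → r y z → r x z) (ha : ∀ x y, r x y → r y x → x = y) :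
    ∀ (n : ℕ) (N : Finset α), N.card = n →
      (∀ x ∈ N, ∀ y ∈ N, ∀ z ∈ N, (r x y ∨ r y x) ∨ (r x z ∨ r z x) ∨ (r y z ∨ r z y)) →
      ∃ C₁ C₂ : α → Prop, (∀ x ∈ N, C₁ x ∨ C₂ x) ∧
        (∀ x ∈ N, ∀ y ∈ N, C₁ x → C₁ y → r x y ∨ r y x) ∧
        (∀ x ∈ N, ∀ y ∈ N, C₂ x → C₂ y → r x y ∨ r y x) := by
  classical
  intro n
  induction n with
  | zero =>
    intro N hN _
    have : N = ∅ := Finset.card_eq_zero.1 hN
    subst this
    exact ⟨fun _ => True, fun _ => True, by simp, by simp, by simp⟩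
  | succ n ih =>
    intro N hN h3
    have hne : N.Nonempty := by
      rw [← Finset.card_pos, hN]
      omega
    -- a maximal element of any nonempty finite set
    have hmax : ∀ S : Finset α, S.Nonempty → ∃ m ∈ S, ∀ x ∈ S, r m x → x = m := by
      intro S hS
      induction S using Finset.induction_on with
      | empty => exact absurd hS (by simp)
      | insert a S haS ihS =>
        rcases S.eq_empty_or_nonempty with rfl | hS'
        · exact ⟨a, by simp, fun x hx _ => by simpa using hx⟩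
        · obtain ⟨m, hm, hm'⟩ := ihS hS'
          by_cases hma : r m a
          · refine ⟨a, Finset.mem_insert_self _ _, fun x hx hax => ?_⟩
            rcases Finset.mem_insert.1 hx with rfl | hx
            · rfl
            · have h1 := hm' x hx (ht _ _ _ hma hax)
              rw [h1] at hax ⊢
              exact ha _ _ hma hax
          · refine ⟨m, Finset.mem_insert_of_mem hm, fun x hx hmx => ?_⟩
            rcases Finset.mem_insert.1 hx with rfl | hx
            · exact absurd hmx hma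
            · exact hm' x hx hmx
    obtain ⟨a, haN, hamax⟩ := hmax N hne
    set P := N.erase a with hP
    have hPN : ∀ x ∈ P, x ∈ N := fun x hx => Finset.mem_of_mem_erase hx
    have hPc : P.card = n := by
      rw [hP, Finset.card_erase_of_mem haN, hN]
      omega
    have hmem : ∀ x ∈ N, x = a ∨ x ∈ P := by
      intro x hx
      by_cases hxa : x = a
      · exact Or.inl hxa
      · exact Or.inr (Finset.mem_erase.2 ⟨hxa, hx⟩)
    obtain ⟨C₁, C₂, hC, hC₁, hC₂⟩ := ih P hPc fun x hx y hy z hz =>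
      h3 x (hPN x hx) y (hPN y hy) z (hPN z hz)
    -- two chains covering `P`, one of which can be extended by `a`
    have main : ∀ (C₁ C₂ : α → Prop), (∀ x ∈ P, C₁ x ∨ C₂ x) →
        (∀ x ∈ P, ∀ y ∈ P, C₁ x → C₁ y → r x y ∨ r y x) →
        (∀ x ∈ P, ∀ y ∈ P, C₂ x → C₂ y → r x y ∨ r y x) →
        ∀ x₁ ∈ P, C₁ x₁ → r x₁ a →
        (∀ u ∈ P, C₁ u → (∃ v ∈ P, C₂ v ∧ ¬ (r u v ∨ r v u)) → r u x₁) →
        ∃ C₁ C₂ : α → Prop, (∀ x ∈ N, C₁ x ∨ C₂ x) ∧
          (∀ x ∈ N, ∀ y ∈ N, C₁ x → C₁ y → r x y ∨ r y x) ∧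
          (∀ x ∈ N, ∀ y ∈ N, C₂ x → C₂ y → r x y ∨ r y x) := by
      intro C₁ C₂ hC hC₁ hC₂ x₁ hx₁ hx₁C hx₁a hx₁m
      refine ⟨fun z => z = a ∨ (z ∈ P ∧ C₁ z ∧ r z x₁),
        fun z => z ∈ P ∧ (C₂ z ∨ (C₁ z ∧ ¬ r z x₁)), ?_, ?_, ?_⟩
      · intro x hx
        rcases hmem x hx with rfl | hx
        · exact Or.inl (Or.inl rfl)
        · rcases hC x hx with h1 | h1
          · by_cases h2 : r x x₁
            · exact Or.inl (Or.inr ⟨hx, h1, h2⟩)
            · exact Or.inr ⟨hx, Or.inr ⟨h1, h2⟩⟩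
          · exact Or.inr ⟨hx, Or.inl h1⟩
      · rintro x _ y _ (rfl | ⟨hx, h1, h2⟩) (rfl | ⟨hy, h3, h4⟩)
        · exact Or.inl (hr _)
        · exact Or.inr (ht _ _ _ h4 hx₁a)
        · exact Or.inl (ht _ _ _ h2 hx₁a)
        · exact hC₁ x hx y hy h1 h3
      · rintro x _ y _ ⟨hx, h1⟩ ⟨hy, h2⟩
        rcases h1 with h1 | ⟨h1, h1'⟩ <;> rcases h2 with h2 | ⟨h2, h2'⟩
        · exact hC₂ x hx y hy h1 h2
        · by_contra hh
          exact h2' (hx₁m y hy h2 ⟨x, hx, h1, fun h => hh h.symm⟩)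
        · by_contra hh
          exact h1' (hx₁m x hx h1 ⟨y, hy, h2, hh⟩)
        · exact hC₁ x hx y hy h1 h2
    -- the elements of a chain that are incomparable to some element of the other one
    by_cases hchain : ∀ u ∈ P, ∀ v ∈ P, C₁ u → C₂ v → r u v ∨ r v u
    · -- `P` is a chain
      refine ⟨fun z => z = a, fun z => z ∈ P, fun x hx => hmem x hx, ?_, ?_⟩
      · rintro x _ y _ rfl rfl
        exact Or.inl (hr _)
      · intro x _ y _ hx hy
        rcases hC x hx with h1 | h1 <;> rcases hC y hy with h2 | h2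
        · exact hC₁ x hx y hy h1 h2
        · exact hchain x hx y hy h1 h2
        · exact (hchain y hy x hx h2 h1).symm
        · exact hC₂ x hx y hy h1 h2
    · push Not at hchain
      obtain ⟨u₀, hu₀, v₀, hv₀, hu₀C, hv₀C, huv₀⟩ := hchain
      set S₁ := P.filter fun u => C₁ u ∧ ∃ v ∈ P, C₂ v ∧ ¬ (r u v ∨ r v u) with hS₁
      set S₂ := P.filter fun v => C₂ v ∧ ∃ u ∈ P, C₁ u ∧ ¬ (r u v ∨ r v u) with hS₂
      have hnot : ¬ (r u₀ v₀ ∨ r v₀ u₀) := fun h => h.elim huv₀.1 huv₀.2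
      have hS₁ne : S₁.Nonempty := ⟨u₀, Finset.mem_filter.2 ⟨hu₀, hu₀C, v₀, hv₀, hv₀C, hnot⟩⟩
      have hS₂ne : S₂.Nonempty := ⟨v₀, Finset.mem_filter.2 ⟨hv₀, hv₀C, u₀, hu₀, hu₀C, hnot⟩⟩
      obtain ⟨x₁, hx₁, hx₁m⟩ := hmax S₁ hS₁ne
      obtain ⟨x₂, hx₂, hx₂m⟩ := hmax S₂ hS₂ne
      obtain ⟨hx₁P, hx₁C, y, hyP, hyC, hxy⟩ := Finset.mem_filter.1 hx₁
      obtain ⟨hx₂P, hx₂C, z, hzP, hzC, hzx⟩ := Finset.mem_filter.1 hx₂
      have top₁ : ∀ u ∈ S₁, r u x₁ := by
        intro u hu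
        obtain ⟨huP, huC, _⟩ := Finset.mem_filter.1 hu
        rcases hC₁ u huP x₁ hx₁P huC hx₁C with h | h
        · exact h
        · rw [hx₁m u hu h]
          exact hr _
      have top₂ : ∀ v ∈ S₂, r v x₂ := by
        intro v hv
        obtain ⟨hvP, hvC, _⟩ := Finset.mem_filter.1 hv
        rcases hC₂ v hvP x₂ hx₂P hvC hx₂C with h | h
        · exact h
        · rw [hx₂m v hv h]
          exact hr _
      have hy₂ : r y x₂ := top₂ y (Finset.mem_filter.2 ⟨hyP, hyC, x₁, hx₁P, hx₁C, hxy⟩)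
      have hz₁ : r z x₁ := top₁ z (Finset.mem_filter.2 ⟨hzP, hzC, x₂, hx₂P, hx₂C, hzx⟩)
      have hn1 : ¬ r x₂ x₁ := fun h => hxy (Or.inr (ht _ _ _ hy₂ h))
      have hn2 : ¬ r x₁ x₂ := fun h => hzx (Or.inl (ht _ _ _ hz₁ h))
      have hn3 : x₁ ∈ N := hPN _ hx₁P
      have hn4 : x₂ ∈ N := hPN _ hx₂P
      have hax : ∀ x ∈ N, r a x → r x a := fun x hx h => by
        rw [hamax x hx h]
        exact hr _
      rcases h3 a haN x₁ hn3 x₂ hn4 with h | h | h
      · have hx₁a : r x₁ a := h.elim (hax x₁ hn3) id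
        exact main C₁ C₂ hC hC₁ hC₂ x₁ hx₁P hx₁C hx₁a fun u hu huC hex =>
          top₁ u (Finset.mem_filter.2 ⟨hu, huC, hex⟩)
      · have hx₂a : r x₂ a := h.elim (hax x₂ hn4) id
        refine main C₂ C₁ (fun x hx => (hC x hx).symm) hC₂ hC₁ x₂ hx₂P hx₂C hx₂a
          fun v hv hvC hex => top₂ v (Finset.mem_filter.2 ⟨hv, hvC, ?_⟩)
        obtain ⟨u, hu, huC, hh⟩ := hex
        exact ⟨u, hu, huC, fun h => hh h.symm⟩
      · exact absurd h (fun h => h.elim hn2 hn1)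

end Vale.Agent.P235.Dil
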