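/-
P235-M (helper611), v4: from slopes at least `1/D` to tight edges.
-/
import Vale.Agent.P235.R2.H611.W1Any
import Vale.Agent.P235.R2.H934.TwoFace
import Vale.Agent.P235.R2.H324.FewDefs

set_option linter.all false
set_option autoImplicit false

namespace Vale.Agent.P235.Few

open SimpleGraph Vale.Agent.P235.Red Vale.Agent.P235.Red.W3 Vale.Agent.P235.Tight

/-- **shrinking**: lengths for which all steep edges are tight; the metric changes by a factor at
most `D`. -/
theorem wide_shr {V : Type} {G : SimpleGraph V} {ℓ : Sym2 V → ℝ} {h : V → ℝ} {D : ℝ} {A B : Set V}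
    (hD : 1 ≤ D) (hW : Wide G ℓ h D A B) :
    ∃ ℓ' : Sym2 V → ℝ, (∀ e ∈ G.edgeSet, 0 < ℓ' e) ∧ (∀ u v, G.Adj u v → |h u - h v| ≤ ℓ' s(u, v)) ∧
      (∀ v, v ∉ A → ∃ u, G.Adj u v ∧ ℓ' s(u, v) = h v - h u) ∧
      (∀ v, v ∉ B → ∃ u, G.Adj v u ∧ ℓ' s(v, u) = h u - h v) ∧
      ∀ K : ℝ, 0 ≤ K → EmbedsL1 (pathDist G ℓ') K → EmbedsL1 (pathDist G ℓ) (K * D) := by
  classical
  have hℓ := hW.pos
  have h1 := hW.lip
  have pos : ∀ u v, G.Adj u v → 0 < ℓ s(u, v) := fun u v ha => hℓ _ (G.mem_edgeSet.2 ha)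
  have hD0 : 0 < D := by linarith
  have s1 : ∀ u v, shr ℓ h D s(u, v) = if ℓ s(u, v) ≤ D * |h u - h v| then |h u - h v|
      else ℓ s(u, v) := by
    intro u v
    unfold shr
    by_cases hh : ℓ s(u, v) ≤ D * |h u - h v|
    · rw [if_pos hh]
      exact if_pos hh
    · rw [if_neg hh]
      exact if_neg hh
  have a1 : ∀ u v, G.Adj u v → shr ℓ h D s(u, v) ≤ ℓ s(u, v) := by
    intro u v ha
    rw [s1]
    split
    · exact h1 u v ha
    · exact le_rfl
  have a2 : ∀ u v, G.Adj u v → ℓ s(u, v) ≤ D * shr ℓ h D s(u, v) := by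
    intro u v ha
    rw [s1]
    split
    · assumption
    · have := pos u v ha
      nlinarith
  have a3 : ∀ u v, G.Adj u v → 0 < shr ℓ h D s(u, v) := by
    intro u v ha
    have h2 := a2 u v ha
    have h3 := pos u v ha
    by_contra h4
    push Not at h4
    nlinarith
  have steep : ∀ u v, G.Adj u v → ℓ s(u, v) ≤ D * (h v - h u) →
      shr ℓ h D s(u, v) = h v - h u := by
    intro u v ha h2
    have h3 := pos u v ha
    have h4 : 0 < h v - h u := by
      by_contra h5
      push Not at h5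
      nlinarith
    have h6 : |h u - h v| = h v - h u := by
      rw [abs_of_neg (by linarith)]
      ring
    rw [s1, h6, if_pos h2]
  refine ⟨shr ℓ h D, fun e he => ?_, fun u v ha => ?_, fun v hv => ?_, fun v hv => ?_,
    fun K hK hE => ?_⟩
  · induction e with
    | _ u v => exact a3 u v he
  · rw [s1]
    split
    · exact le_rfl
    · exact h1 u v ha
  · obtain ⟨w, hw, h2⟩ := hW.low v hv
    refine ⟨w, hw.symm, ?_⟩
    rw [Sym2.eq_swap] at h2
    exact steep w v hw.symm h2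
  · obtain ⟨w, hw, h2⟩ := hW.high v hv
    exact ⟨w, hw, steep v w hw h2⟩
  · have e1 : ∀ x y, pathDist G ℓ x y ≤ D * pathDist G (shr ℓ h D) x y :=
      R2.H673.pathDist_le_mul hD0.le (fun u v ha => (pos u v ha).le) a2
    have e2 : ∀ x y, pathDist G (shr ℓ h D) x y ≤ 1 * pathDist G ℓ x y :=
      R2.H673.pathDist_le_mul zero_le_one (fun u v ha => (a3 u v ha).le)
        (fun u v ha => by rw [one_mul]; exact a1 u v ha)
    refine R2.H673.embedsL1_scale hD0.le hE e1 (fun x y => ?_)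
    have h3 : (0 : ℝ) ≤ K * D := by positivity
    have h4 := mul_le_mul_of_nonneg_left (e2 x y) h3
    rw [one_mul] at h4
    calc D * (K * pathDist G (shr ℓ h D) x y) = K * D * pathDist G (shr ℓ h D) x y := by ring
      _ ≤ _ := h4

/-- **few exceptional vertices**: the form with slopes follows from the tight form. -/
theorem few_of_tight (hT : RowFewT) : RowFew := by
  intro C hC hMS V _ G σ ℓ h A B D hD hc hP hℓ h1 hlow hhigh
  obtain ⟨ℓ', k1, k2, k3, k4, k5⟩ := wide_shr hD (⟨hc, hℓ, h1, hlow, hhigh⟩ : Wide G ℓ h D A B)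
  have hE := hT hC hMS V G σ ℓ' h A B hc hP k1 k2 (fun v hv => (k3 v hv).imp fun u hu => hu)
    (fun v hv => (k4 v hv).imp fun u hu => hu)
  have hlog : 0 ≤ Real.log ((A.ncard : ℝ) + B.ncard + 2) := Real.log_nonneg (by
    have h2 : (0 : ℝ) ≤ A.ncard := Nat.cast_nonneg _
    have h3 : (0 : ℝ) ≤ B.ncard := Nat.cast_nonneg _
    linarith)
  have hK : (0 : ℝ) ≤ 1000000000000000 * C *
      ((ll (Nat.card V) : ℝ) + 1 + Real.log ((A.ncard : ℝ) + B.ncard + 2)) := by positivity
  have h4 := k5 _ hK hE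
  have h5 : 1000000000000000 * C *
      ((ll (Nat.card V) : ℝ) + 1 + Real.log ((A.ncard : ℝ) + B.ncard + 2)) * D =
      1000000000000000 * C * D *
      ((ll (Nat.card V) : ℝ) + 1 + Real.log ((A.ncard : ℝ) + B.ncard + 2)) := by ring
  rwa [h5] at h4

end Vale.Agent.P235.Few
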