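/-
P235-M (helper611).  Row K4 of `KrSpec`: random retractions onto any set, graphs without `K_r`
minor, from K3.
-/
import Vale.Agent.P235.R2.H341.KrSpec
import Vale.Agent.P235.R2.H611.KprR7

set_option linter.all false
set_option autoImplicit false

namespace Vale.Agent.P235.Kr.H611

open Vale.Agent.P235 Vale.Agent.P235.Kpr Vale.Agent.P235.Kpr.H611 Vale.Agent.P235.Kr

/-- **(K4)** -/
theorem rowK4 (h3 : RowCount) (h6 : RowK3) : RowK4 := by
  intro V _ G ℓ r₀ hc hP hℓ X ν hν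
  classical
  have := Fintype.ofFinite V
  have hd := pathDist_isMet hc hℓ
  obtain ⟨r, hr⟩ : ∃ r : V → ℝ, ∀ v, r v = pathDist G ℓ v (ν v) := ⟨_, fun _ => rfl⟩
  have hr0 : ∀ v, 0 ≤ r v := fun v => by rw [hr]; exact hd.nonneg _ _
  have hrX : ∀ v ∈ X, r v = 0 := by
    intro v hv
    rw [hr, hν.self v hv, hd.self]
  have hrpos : ∀ v, v ∉ X → 0 < r v := by
    intro v hv
    rw [hr]
    refine hd.pos _ _ fun h => hv ?_
    rw [h]
    exact hν.mem v
  have hrl : ∀ u v, G.Adj u v → |r u - r v| ≤ ℓ s(u, v) := by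
    intro a b hab
    have h1 := hν.lip hc hℓ a b
    have h2 := hν.lip hc hℓ b a
    rw [hd.symm b a] at h2
    have h3 := pathDist_adj hℓ hab
    rw [hr, hr, abs_le]; constructor <;> linarith
  obtain ⟨q, hq⟩ : ∃ q : ℝ, q = (r₀ : ℝ) + 2 := ⟨_, rfl⟩
  have hq2 : 2 ≤ q := by
    rw [hq]
    have : (0 : ℝ) ≤ r₀ := Nat.cast_nonneg _
    linarith
  have hq0 : 0 < q := by linarith
  rw [← hq]
  -- the number of shifts
  obtain ⟨N, hN0, hN⟩ : ∃ N : ℕ, 0 < N ∧
      ∀ u v, G.Adj u v → 32 / 5 * (1 + q) * r u ≤ N * ℓ s(u, v) := by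
    obtain ⟨N, hN⟩ := exists_nat_ge (∑ u, ∑ v, |32 / 5 * (1 + q) * r u / ℓ s(u, v)|)
    refine ⟨N + 1, Nat.succ_pos _, fun u v huv => ?_⟩
    have hl : 0 < ℓ s(u, v) := hℓ s(u, v) huv
    rw [← div_le_iff₀ hl]
    have e1 : |32 / 5 * (1 + q) * r u / ℓ s(u, v)| ≤ ∑ v, |32 / 5 * (1 + q) * r u / ℓ s(u, v)| :=
      Finset.single_le_sum (f := fun v => |32 / 5 * (1 + q) * r u / ℓ s(u, v)|)
        (fun v _ => abs_nonneg _) (Finset.mem_univ v)
    have e2 : ∑ v, |32 / 5 * (1 + q) * r u / ℓ s(u, v)| ≤ ∑ u, ∑ v, |32 / 5 * (1 + q) * r u / ℓ s(u, v)| :=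
      Finset.single_le_sum (f := fun u => ∑ v, |32 / 5 * (1 + q) * r u / ℓ s(u, v)|)
        (fun u _ => Finset.sum_nonneg fun v _ => abs_nonneg _) (Finset.mem_univ u)
    have e3 := le_abs_self (32 / 5 * (1 + q) * r u / ℓ s(u, v))
    push_cast
    linarith
  have hNR : (0 : ℝ) < N := by exact_mod_cast hN0
  obtain ⟨sc, hscd⟩ : ∃ sc : Fin N → ℤ → ℝ, ∀ k j, sc k j = (2 : ℝ) ^ ((j : ℝ) - (k : ℕ) / N) :=
    ⟨_, fun _ _ => rfl⟩
  have hsc : ∀ k j, 0 < sc k j := fun k j => by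
    rw [hscd]; exact Real.rpow_pos_of_pos two_pos _
  have hKPR := fun (k : Fin N) (j : ℤ) => h6 V G ℓ r₀ hc hP hℓ (sc k j / (8 * q ^ 2)) N
    (div_pos (hsc k j) (by positivity)) hN0
  rw [← hq] at hKPR
  choose c hc1 hc2 using hKPR
  obtain ⟨lev, hlevd⟩ : ∃ lev : Fin N → V → ℤ, ∀ k v, lev k v =
    ⌊Real.logb 2 (r v) + (k : ℕ) / N⌋ := ⟨_, fun _ _ => rfl⟩
  have hlev : ∀ k v, v ∉ X → sc k (lev k v) ≤ r v ∧ r v < 2 * sc k (lev k v) := by
    intro k v hv
    have hrv := hrpos v hv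
    have h1 : ((lev k v : ℤ) : ℝ) ≤ Real.logb 2 (r v) + (k : ℕ) / N := by
      rw [hlevd]; exact Int.floor_le _
    have h2 : Real.logb 2 (r v) + (k : ℕ) / N < (lev k v : ℤ) + 1 := by
      rw [hlevd]; exact Int.lt_floor_add_one _
    have h4 : (2 : ℝ) ^ Real.logb 2 (r v) = r v :=
      Real.rpow_logb two_pos (by norm_num) hrv
    rw [hscd]
    constructor
    · calc (2 : ℝ) ^ (((lev k v : ℤ) : ℝ) - (k : ℕ) / N) ≤ (2 : ℝ) ^ Real.logb 2 (r v) :=
          Real.rpow_le_rpow_of_exponent_le (by norm_num) (by linarith)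
        _ = r v := h4
    · calc r v = (2 : ℝ) ^ Real.logb 2 (r v) := h4.symm
        _ < (2 : ℝ) ^ (1 + (((lev k v : ℤ) : ℝ) - (k : ℕ) / N)) :=
          Real.rpow_lt_rpow_of_exponent_lt (by norm_num) (by linarith)
        _ = _ := by rw [Real.rpow_add two_pos, Real.rpow_one]
  -- representatives
  obtain ⟨rp, hrpd⟩ : ∃ rp : Fin N → (Fin (r₀ + 2) → Fin N) → ℤ → V → V, ∀ k ω v, v ∉ X →
      rp k ω (lev k v) (c k (lev k v) ω v) ∉ X ∧
      lev k (rp k ω (lev k v) (c k (lev k v) ω v)) = lev k v ∧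
      c k (lev k v) ω (rp k ω (lev k v) (c k (lev k v) ω v)) = c k (lev k v) ω v := by
    refine ⟨fun k ω j w => if h : ∃ u, u ∉ X ∧ lev k u = j ∧ c k j ω u = w then h.choose else w,
      fun k ω v hv => ?_⟩
    have h : ∃ u, u ∉ X ∧ lev k u = lev k v ∧ c k (lev k v) ω u = c k (lev k v) ω v :=
      ⟨v, hv, rfl, rfl⟩
    beta_reduce
    rw [dif_pos h]
    exact h.choose_spec
  obtain ⟨π, hπ⟩ : ∃ π : Fin N × (Fin (r₀ + 2) → Fin N) → V → V, ∀ i v, π i v =
      if v ∈ X then v else ν (rp i.1 i.2 (lev i.1 v) (c i.1 (lev i.1 v) i.2 v)) :=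
    ⟨_, fun _ _ => rfl⟩
  have hπX : ∀ i v, π i v ∈ X := by
    intro i v
    rw [hπ]
    split_ifs with h
    · exact h
    · exact hν.mem _
  have hπd : ∀ i v, pathDist G ℓ v (π i v) ≤ 3 * r v := by
    intro i v
    rw [hπ]
    split_ifs with h
    · rw [hd.self]
      have := hr0 v
      linarith
    · obtain ⟨h1, h2, h4⟩ := hrpd i.1 i.2 v h
      set z := rp i.1 i.2 (lev i.1 v) (c i.1 (lev i.1 v) i.2 v) with hz
      have e1 := hc1 i.1 (lev i.1 v) i.2 v z h4.symm
      have e2 := hlev i.1 v h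
      have e3 := hlev i.1 z h1
      rw [h2] at e3
      have e4 := hd.tri v z (ν z)
      have e5 := hr z
      have e6 : 8 * q ^ 2 * (sc i.1 (lev i.1 v) / (8 * q ^ 2)) = sc i.1 (lev i.1 v) := by
        field_simp
      rw [e6] at e1
      linarith [e2.1, e3.2]
  have hcard : Fintype.card (Fin N × (Fin (r₀ + 2) → Fin N)) = N ^ (r₀ + 3) := by
    simp only [Fintype.card_prod, Fintype.card_fin, Fintype.card_fun]
    ring
  refine ⟨Fin N × (Fin (r₀ + 2) → Fin N), inferInstance, fun _ => 1 / (N : ℝ) ^ (r₀ + 3), π,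
    fun _ => by positivity, ?_, hπX, ?_, fun i v => by rw [← hr]; exact hπd i v⟩
  · rw [Finset.sum_const, Finset.card_univ, hcard, nsmul_eq_mul]
    push_cast
    field_simp
  intro u v huv
  have ht : 0 < ℓ s(u, v) := hℓ s(u, v) huv
  set t := ℓ s(u, v) with htd
  have hrt : |r u - r v| ≤ t := hrl u v huv
  obtain ⟨hr1, hr2⟩ := abs_le.1 hrt
  have hduv : pathDist G ℓ u v ≤ t := pathDist_adj hℓ huv
  have hgen : ∀ i, pathDist G ℓ (π i u) (π i v) ≤ 3 * r u + 3 * r v + t := by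
    intro i
    have e1 := hd.tri (π i u) u (π i v)
    have e2 := hd.tri u v (π i v)
    have e3 := hπd i u
    have e4 := hπd i v
    rw [hd.symm u (π i u)] at e3
    linarith
  by_cases hcase : 10 * t ≤ r u ∧ 10 * t ≤ r v
  · obtain ⟨hu, hv⟩ := hcase
    have hRu : 0 < r u := by linarith
    have hRv : 0 < r v := by linarith
    have huX : u ∉ X := fun h => by rw [hrX u h] at hRu; exact lt_irrefl _ hRu
    have hvX : v ∉ X := fun h => by rw [hrX v h] at hRv; exact lt_irrefl _ hRv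
    have hD : ∀ i, pathDist G ℓ (π i u) (π i v) ≤ 32 / 5 * r u := fun i => by
      have := hgen i
      linarith
    -- one shift
    have hk : ∀ k : Fin N, ∑ ω, pathDist G ℓ (π (k, ω) u) (π (k, ω) v) ≤
        32 / 5 * r u * (N : ℝ) ^ (r₀ + 2) * ((if lev k u ≠ lev k v then 1 else 0) +
          (16 * q ^ 3 * t / r u + q / N)) := by
      intro k
      by_cases hl : lev k u = lev k v
      · rw [if_neg (not_not.2 hl), zero_add]
        have h1 : ∀ ω, pathDist G ℓ (π (k, ω) u) (π (k, ω) v) ≤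
            32 / 5 * r u * (if c k (lev k u) ω u ≠ c k (lev k u) ω v then 1 else 0) := by
          intro ω
          split_ifs with h
          · rw [mul_one]; exact hD _
          · push Not at h
            rw [hπ, hπ, if_neg huX, if_neg hvX]
            show pathDist G ℓ (ν (rp k ω (lev k u) (c k (lev k u) ω u)))
              (ν (rp k ω (lev k v) (c k (lev k v) ω v))) ≤ _
            rw [← hl, ← h, hd.self, mul_zero]
        refine (Finset.sum_le_sum fun ω _ => h1 ω).trans ?_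
        rw [← Finset.mul_sum, ← ncard_filter]
        have h2 := hc2 k (lev k u) u v huv
        have h4 : q * (N : ℝ) ^ (r₀ + 2) * (ℓ s(u, v) / (sc k (lev k u) / (8 * q ^ 2)) + 1 / N) ≤
            (N : ℝ) ^ (r₀ + 2) * (16 * q ^ 3 * t / r u + q / N) := by
          have e1 := (hlev k u huX).2
          have e0 := hsc k (lev k u)
          have e2 : ℓ s(u, v) / (sc k (lev k u) / (8 * q ^ 2)) ≤ 16 * q ^ 2 * t / r u := by
            rw [div_le_div_iff₀ (by positivity) hRu, ← htd]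
            have e4 : 16 * q ^ 2 * t * (sc k (lev k u) / (8 * q ^ 2)) =
                t * (2 * sc k (lev k u)) := by
              field_simp
              ring
            rw [e4]
            exact mul_le_mul_of_nonneg_left e1.le ht.le
          have e3 : (N : ℝ) ^ (r₀ + 2) * (16 * q ^ 3 * t / r u + q / N) =
              q * (N : ℝ) ^ (r₀ + 2) * (16 * q ^ 2 * t / r u + 1 / N) := by ring
          rw [e3]
          exact mul_le_mul_of_nonneg_left (by linarith) (by positivity)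
        rw [mul_assoc (32 / 5 * r u) ((N : ℝ) ^ (r₀ + 2)) _]
        exact mul_le_mul_of_nonneg_left (h2.trans h4) (by positivity)
      · rw [if_pos hl]
        refine (Finset.sum_le_sum fun ω _ => hD (k, ω)).trans ?_
        rw [Finset.sum_const, Finset.card_univ, nsmul_eq_mul]
        have e1 : ((Fintype.card (Fin (r₀ + 2) → Fin N) : ℕ) : ℝ) = (N : ℝ) ^ (r₀ + 2) := by
          simp only [Fintype.card_fin, Fintype.card_fun]
          push_cast
          ring
        rw [e1]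
        have e2 : 0 ≤ 16 * q ^ 3 * t / r u + q / N := by positivity
        have e3 : (N : ℝ) ^ (r₀ + 2) * (32 / 5 * r u) = 32 / 5 * r u * (N : ℝ) ^ (r₀ + 2) * (1 + 0) := by ring
        rw [e3]
        exact mul_le_mul_of_nonneg_left (by linarith) (by positivity)
    have hlevs : (∑ k : Fin N, (if lev k u ≠ lev k v then (1 : ℝ) else 0)) ≤
        N * (2 * t / r u) + 1 := by
      rw [← ncard_filter]
      have h1 := h3 (Real.logb 2 (r u)) (Real.logb 2 (r v)) (2 * t / r u) 1 N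
        (logb_close hRu hRv hrt hu) one_pos hN0
      simp only [mul_one, div_one] at h1
      have e : ({k : Fin N | lev k u ≠ lev k v} : Set (Fin N)) =
          {k : Fin N | ⌊Real.logb 2 (r u) + (k : ℕ) / N⌋ ≠ ⌊Real.logb 2 (r v) + (k : ℕ) / N⌋} := by
        ext k
        simp only [Set.mem_setOf_eq, hlevd]
      rw [e]
      exact h1
    have hsum : ∑ i, 1 / (N : ℝ) ^ (r₀ + 3) * pathDist G ℓ (π i u) (π i v) =
        1 / (N : ℝ) ^ (r₀ + 3) * ∑ k, ∑ ω, pathDist G ℓ (π (k, ω) u) (π (k, ω) v) := by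
      rw [← Finset.mul_sum, Fintype.sum_prod_type]
    rw [hsum]
    have h4 : ∑ k, ∑ ω, pathDist G ℓ (π (k, ω) u) (π (k, ω) v) ≤
        32 / 5 * r u * (N : ℝ) ^ (r₀ + 2) * (N * (2 * t / r u) + 1 + N * (16 * q ^ 3 * t / r u + q / N)) := by
      refine (Finset.sum_le_sum fun k _ => hk k).trans ?_
      rw [← Finset.mul_sum, Finset.sum_add_distrib, Finset.sum_const, Finset.card_univ,
        Fintype.card_fin, nsmul_eq_mul]
      exact mul_le_mul_of_nonneg_left (by linarith) (by positivity)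
    have h5 : 1 / (N : ℝ) ^ (r₀ + 3) * (32 / 5 * r u * (N : ℝ) ^ (r₀ + 2) *
        (N * (2 * t / r u) + 1 + N * (16 * q ^ 3 * t / r u + q / N))) =
        (64 / 5 + 512 / 5 * q ^ 3) * t + 32 / 5 * (1 + q) * r u / N := by
      field_simp
      ring
    have h6 : 1 / (N : ℝ) ^ (r₀ + 3) * ∑ k, ∑ ω, pathDist G ℓ (π (k, ω) u) (π (k, ω) v) ≤
        (64 / 5 + 512 / 5 * q ^ 3) * t + 32 / 5 * (1 + q) * r u / N := by
      rw [← h5]
      exact mul_le_mul_of_nonneg_left h4 (by positivity)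
    have h7 : 32 / 5 * (1 + q) * r u / N ≤ t := by
      rw [div_le_iff₀ hNR]
      have := hN u v huv
      linarith
    have h8 : (8 : ℝ) ≤ q ^ 3 := by
      calc (8 : ℝ) = 2 ^ 3 := by norm_num
        _ ≤ q ^ 3 := pow_le_pow_left₀ (by norm_num) hq2 3
    nlinarith
  · have hall : ∀ i, pathDist G ℓ (π i u) (π i v) ≤ 64 * t := by
      intro i
      have h1 := hgen i
      by_cases hu : 10 * t ≤ r u
      · have hv : r v < 10 * t := not_le.1 fun h => hcase ⟨hu, h⟩
        linarith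
      · push Not at hu
        linarith
    have h1 : ∑ i, 1 / (N : ℝ) ^ (r₀ + 3) * pathDist G ℓ (π i u) (π i v) ≤
        ∑ i : Fin N × (Fin (r₀ + 2) → Fin N), 1 / (N : ℝ) ^ (r₀ + 3) * (64 * t) :=
      Finset.sum_le_sum fun i _ => mul_le_mul_of_nonneg_left (hall i) (by positivity)
    have h2 : ∑ i : Fin N × (Fin (r₀ + 2) → Fin N), 1 / (N : ℝ) ^ (r₀ + 3) * (64 * t) = 64 * t := by
      rw [Finset.sum_const, Finset.card_univ, hcard, nsmul_eq_mul]
      push_cast
      field_simp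
    have h8 : (8 : ℝ) ≤ q ^ 3 := by
      calc (8 : ℝ) = 2 ^ 3 := by norm_num
        _ ≤ q ^ 3 := pow_le_pow_left₀ (by norm_num) hq2 3
    nlinarith

end Vale.Agent.P235.Kr.H611
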