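/-
P235-M (helper611), v4, terminals: the row `CoreL` of helper582 and the final form.
-/
import Vale.Agent.P235.R2.H611.T5c
import Vale.Agent.P235.R2.H582.Peaks

set_option linter.all false
set_option autoImplicit false

namespace Vale.Agent.P235.T5

open Vale.Agent.P235 Vale.Agent.P235.Red Vale.Agent.P235.H341W Vale.Agent.P235.R2.H582.FaceT

/-- **terminals with one source and few exceptional terminals** -/
theorem coreL : CoreL (10 ^ 22) := by
  intro C hC hM V _ G σ ℓ h L s B hc hP hℓ hsL h1 hlow hhigh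
  classical
  have := Fintype.ofFinite V
  have k := terminals_sqrt_tight hC hM V G σ ℓ h L s hsL B.toFinset hc hP hℓ h1 hlow
    (fun v hv hvB => hhigh v hv (by rwa [Set.mem_toFinset] at hvB))
  rw [← Set.ncard_eq_toFinset_card'] at k
  exact k

/-- **Clause A.**  `G` is any plane graph, `L` any set of vertices, `h` nonexpansive on `L`; the
terminals without steep edge down in `L` are in the source (one vertex, or the vertices of one
face), the terminals without steep edge up in `L` are in `B` or on the faces of `M`. -/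
theorem peaks {C : ℝ} (hC : 1 ≤ C) (hM : MStarLL C) (V : Type) [Finite V]
    (G : SimpleGraph V) (σ : Equiv.Perm G.Dart) (ℓ : Sym2 V → ℝ) (h : V → ℝ) (L S : Set V)
    (B : Finset V) (M : Finset G.Dart) (D : ℝ) (hD : 1 ≤ D) (hc : G.Connected)
    (hP : PlaneMap G σ) (hℓ : ∀ e ∈ G.edgeSet, 0 < ℓ e)
    (hS : (∃ s, S = {s}) ∨ ∃ d₁, S = onFace σ d₁ ∧ ∀ m ∈ M, ¬ (faceNext σ).SameCycle d₁ m)
    (h1 : ∀ u ∈ L, ∀ v ∈ L, |h u - h v| ≤ pathDist G ℓ u v)
    (hlow : ∀ v ∈ L, v ∉ S → ∃ u ∈ L, G.Adj v u ∧ ℓ s(v, u) ≤ D * (h v - h u))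
    (hhigh : ∀ v ∈ L, (∃ u ∈ L, G.Adj v u ∧ ℓ s(v, u) ≤ D * (h u - h v)) ∨ v ∈ B ∨
      ∃ m ∈ M, v ∈ onFace σ m) :
    EmbedsL1 (fun u v : L => pathDist G ℓ u v) (3 * (10 ^ 22 * C * D) *
      ((ll (Nat.card V) : ℝ) + 1 + √(Real.log ((B.card + M.card : ℕ) + 2)))) :=
  peaks_of (by norm_num) coreL hC hM V G σ ℓ h L S B M D hD hc hP hℓ hS h1 hlow hhigh

end Vale.Agent.P235.T5
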