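/-
P235-M (helper611): one round of lanes for the metric on a set `L` of points.
-/
import Vale.Agent.P235.R2.H611.T5b
import Vale.Agent.P235.R2.H341.Y2
import Vale.Agent.P235.H105.Lanes

set_option linter.all false
set_option autoImplicit false

namespace Vale.Agent.P235.T6

open Finset Vale.Agent.P235 H206 H536 Vale.Agent.P235.H718 Vale.Agent.P235.H341W
  Vale.Agent.P235.T5

section complete

variable {S : Type}

/-- the distances of a metric as lengths on the complete graph -/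
noncomputable def ml (ρ : S → S → ℝ) (hs : ∀ x y, ρ x y = ρ y x) : Sym2 S → ℝ :=
  Sym2.lift ⟨ρ, hs⟩

theorem top_conn' [Nonempty S] : (⊤ : SimpleGraph S).Connected := by
  refine ⟨fun a b => ?_⟩
  by_cases hab : a = b
  · rw [hab]
  · exact (show (⊤ : SimpleGraph S).Adj a b from hab).reachable

theorem ml_pos {ρ : S → S → ℝ} (hd : IsMet ρ) :
    ∀ e ∈ (⊤ : SimpleGraph S).edgeSet, 0 < ml ρ hd.symm e := by
  intro e he
  induction e with
  | _ a b =>
    have hab : a ≠ b := he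
    exact hd.pos a b hab

theorem ml_dist [Finite S] [Nonempty S] {ρ : S → S → ℝ} (hd : IsMet ρ) (x y : S) :
    pathDist (⊤ : SimpleGraph S) (ml ρ hd.symm) x y = ρ x y := by
  have hd' := pathDist_isMet top_conn' (ml_pos hd)
  apply le_antisymm
  · by_cases hxy : x = y
    · rw [hxy, hd'.self, hd.self]
    · exact pathDist_adj (ml_pos hd) (show (⊤ : SimpleGraph S).Adj x y from hxy)
  · have := pathDist_semi (G := (⊤ : SimpleGraph S)) (ℓ := ml ρ hd.symm)
      (ρ := ρ) (K := 1) top_conn' one_pos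
      (fun a => hd.self _) (fun a b c => hd.tri _ _ _)
      (fun a b _ => by rw [one_mul]; exact le_rfl) x y
    rwa [one_mul] at this

end complete

variable {V : Type} [Finite V] {G : SimpleGraph V} {ℓ : Sym2 V → ℝ}

/-- **leaf**: the points of `L` in `K` are mapped to a finite metric space -/
theorem ptL_leaf' (hc : G.Connected) (hℓ : ∀ e ∈ G.edgeSet, 0 < ℓ e) {L K : Set V} {T : Type}
    {ρ : T → T → ℝ} (hρ : IsMet ρ) {κ : V → T}
    {C0 : ℝ} (hC0 : 0 < C0) (hE : EmbedsL1 ρ C0)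
    (hfar : ∀ x ∈ L, ∀ y ∈ L, x ∈ K → y ∈ K → pathDist G ℓ x y ≤ ρ (κ x) (κ y))
    (hwalk : ∀ x ∈ L, ∀ y ∈ L, ∀ q : G.Walk x y, (∀ z ∈ q.support, z ∈ K) →
      ρ (κ x) (κ y) ≤ wl ℓ q)
    {H : V → ℝ} (hHK : ∀ v ∈ K, 0 < H v) (hHl : ∀ u v, G.Adj u v → |H u - H v| ≤ ℓ s(u, v)) :
    PtL G ℓ L K H 0 (96 * C0 + 112) := by
  classical
  have hK0 : 0 ≤ 96 * C0 + 112 := by linarith
  have hd := pathDist_isMet hc hℓ
  by_cases hne : ∃ x, x ∈ L ∧ x ∈ K
  · obtain ⟨x0, hx0L, hx0K⟩ := hne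
    let S : Set V := {x | x ∈ L ∧ x ∈ K}
    have : Nonempty S := ⟨⟨x0, hx0L, hx0K⟩⟩
    let ρ' : S → S → ℝ := fun a b => ρ (κ a.1) (κ b.1)
    have hd' : IsMet ρ' := by
      refine ⟨fun x => hρ.self _, fun x y hxy => ?_, fun x y => hρ.symm _ _,
        fun x y z => hρ.tri _ _ _⟩
      exact (hd.pos x.1 y.1 fun h => hxy (Subtype.ext h)).trans_le
        (hfar x.1 x.2.1 y.1 y.2.1 x.2.2 y.2.2)
    have hcl := ml_dist hd'
    have hE' : EmbedsL1 (pathDist (⊤ : SimpleGraph S) (ml ρ' hd'.symm)) C0 := by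
      obtain ⟨Ω, m, μ, f, hf⟩ := hE
      refine ⟨Ω, m, μ, fun x => f (κ x.1), fun x y => ?_⟩
      have h1 := hf (κ x.1) (κ y.1)
      rw [hcl]
      exact h1
    obtain ⟨σ, h1, h2, h3, h4, h5⟩ := pointed_leafW (H := fun v : S => H v.1) hC0
      top_conn' (ml_pos hd') (fun v => hHK _ v.2.2)
      (fun a b _ => by
        show |H a.1 - H b.1| ≤ ρ' a b
        exact (pathDist_gen hc hHl _ _).trans (hfar a.1 a.2.1 b.1 b.2.1 a.2.2 b.2.2)) hE'
    let e : Option V → Option S := fun a => a.elim none fun v =>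
      if h : v ∈ L ∧ v ∈ K then some ⟨v, h⟩ else none
    have he0 : e none = none := rfl
    have he1 : ∀ v (h : v ∈ L ∧ v ∈ K), e (some v) = some ⟨v, h⟩ := by
      intro v h
      exact dif_pos h
    refine ⟨fun _ _ => 0, fun a b => σ (e a) (e b), IsSq.zero, h1.comap e, ?_, ?_, ?_, ?_⟩
    · intro x hx y hy q hq
      have hxK := hq x q.start_mem_support
      have hyK := hq y q.end_mem_support
      refine ⟨by rw [zero_mul], ?_⟩
      show σ (e (some x)) (e (some y)) ≤ _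
      rw [he1 x ⟨hx, hxK⟩, he1 y ⟨hy, hyK⟩]
      by_cases hxy : x = y
      · subst hxy
        rw [h1.self]
        exact mul_nonneg hK0 (wl_nonneg hℓ q)
      · have h6 := h2 ⟨x, hx, hxK⟩ ⟨y, hy, hyK⟩ (by
          intro h
          exact hxy (congrArg (fun z : S => z.1) h))
        refine h6.trans (mul_le_mul_of_nonneg_left ?_ hK0)
        exact hwalk x hx y hy q hq
    · intro x hx hxK
      refine ⟨by rw [zero_mul], ?_⟩
      show σ (e (some x)) (e none) ≤ _
      rw [he1 x ⟨hx, hxK⟩]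
      exact h3 _
    · intro x hx hxK
      right
      show H x ≤ 2000 * σ (e (some x)) (e none)
      rw [he1 x ⟨hx, hxK⟩]
      exact h4 ⟨x, hx, hxK⟩
    · intro x hx y hy hxK hyK δ hδ hδx hδy hxy
      right
      show δ ≤ 2000 * σ (e (some x)) (e (some y))
      rw [he1 x ⟨hx, hxK⟩, he1 y ⟨hy, hyK⟩]
      refine h5 ⟨x, hx, hxK⟩ ⟨y, hy, hyK⟩ δ hδx hδy ?_
      rw [hcl]
      exact hxy.trans (hfar x hx y hy hxK hyK)
  · push Not at hne
    exact ⟨fun _ _ => 0, fun _ _ => 0, IsSq.zero,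
      ⟨Empty, inferInstance, fun _ => 0, fun _ _ => true, fun _ => le_rfl, by simp⟩,
      fun x hx y hy q hq => absurd (hq x q.start_mem_support) (hne x hx),
      fun x hx hxK => absurd hxK (hne x hx), fun x hx hxK => absurd hxK (hne x hx),
      fun x hx y hy hxK => absurd hxK (hne x hx)⟩

/-- **one round** which removes a nonempty set `U` such that some `L₁` map of the whole graph
separates the pairs close to `U` -/
theorem ptL_round (hc : G.Connected) (hℓ : ∀ e ∈ G.edgeSet, 0 < ℓ e) {L U : Set V}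
    {H : V → ℝ} (hH : ∀ v, 0 < H v) (hHl : ∀ u v, G.Adj u v → |H u - H v| ≤ ℓ s(u, v))
    (hU : U.Nonempty) {F : V → V → ℝ} (hF : IsL1 F) (hFl : ∀ a b, F a b ≤ pathDist G ℓ a b)
    {Λ : ℝ} (hΛ : 1 ≤ Λ)
    (hFX : ∀ ν : V → V, Near G ℓ U ν → ∀ x y δ, 0 < δ → pathDist G ℓ x (ν x) ≤ δ →
      pathDist G ℓ y (ν y) ≤ 5 / 4 * δ → 8 * δ ≤ pathDist G ℓ x y → 2 * δ ≤ Λ * F x y)
    {k K0 : ℝ} (hk : 0 ≤ k) (hK : 0 ≤ K0)
    (ih : ∀ v ∉ U, ∀ φ : V → ℝ, (∀ v, 0 ≤ φ v) →
      (∀ w ∈ compSet G U v, 0 < φ w) → (∀ w ∈ U, φ w = 0) →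
      (∀ a b, G.Adj a b → |φ a - φ b| ≤ ℓ s(a, b)) →
      PtL G ℓ L (compSet G U v) φ k K0) :
    PtL G ℓ L Set.univ H k (K0 + (Λ + 4)) := by
  classical
  have := Fintype.ofFinite V
  have hd := pathDist_isMet hc hℓ
  obtain ⟨ν, hν⟩ := exists_near (X := U) hc hℓ hU
  have hH0 : ∀ v, 0 ≤ H v := fun v => (hH v).le
  have hΛ0 : 0 < Λ := by linarith
  obtain ⟨G0, hG0, hm1, hb1, hb1', hl1⟩ := fanL1 hF hH
  obtain ⟨G1, hG1e⟩ : ∃ G1 : Option V → Option V → ℝ, G1 = fun a b => Λ * G0 a b := ⟨_, rfl⟩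
  have hG1 : IsL1 G1 := by rw [hG1e]; exact hG0.smul hΛ0.le
  obtain ⟨ι2, _, w2, g2, hw2, hs2, hb2, hm2, hl2, -, -⟩ := fan' fan (fun _ : V => ())
    (fun v => pathDist G ℓ v (ν v)) H hH0
  -- the barrier
  let φ : V → ℝ := fun v => min (H v) (pathDist G ℓ v (ν v))
  have hφ0 : ∀ v, 0 ≤ φ v := fun v => le_min (hH0 v) (hd.nonneg _ _)
  have hφH : ∀ v, φ v ≤ H v := fun v => min_le_left _ _
  have hφU : ∀ w ∈ U, φ w = 0 := by
    intro w hw
    show min (H w) (pathDist G ℓ w (ν w)) = 0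
    rw [hν.self w hw, hd.self]
    exact min_eq_right (hH0 w)
  have hνl : ∀ a b, |pathDist G ℓ a (ν a) - pathDist G ℓ b (ν b)| ≤ pathDist G ℓ a b := by
    intro a b
    have h1 := hν.lip hc hℓ a b
    have h2 := hν.lip hc hℓ b a
    rw [hd.symm b a] at h2
    rw [abs_le]; constructor <;> linarith
  have hφl : ∀ a b, G.Adj a b → |φ a - φ b| ≤ ℓ s(a, b) := by
    intro a b hab
    refine (abs_min_sub_min_le_max _ _ _ _).trans (max_le (hHl a b hab) ?_)
    exact (hνl a b).trans (pathDist_adj hℓ hab)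
  have hφpos : ∀ v, ∀ w ∈ compSet G U v, 0 < φ w := by
    intro v w hw
    have hwU : w ∉ U := fun h => ReachOff.right hw h
    refine lt_min (hH w) (hd.pos _ _ fun h => hwU ?_)
    rw [h]; exact hν.mem w
  -- components
  let Q := Quotient (compSetoid G U)
  have : Fintype Q := Fintype.ofFinite Q
  have hQ : ∀ c : Q, PtL G ℓ L (compSet G U c.out.1) φ k K0 := fun c =>
    ih c.out.1 c.out.2 φ hφ0 (hφpos _) hφU hφl
  choose M r hMI hrI hr using hQ
  have hmk : ∀ (v : V) (hv : v ∉ U), v ∈ compSet G U (⟦⟨v, hv⟩⟧ : Q).out.1 := by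
    intro v hv
    exact Quotient.mk_out (s := compSetoid G U) ⟨v, hv⟩
  have huniq : ∀ (c : Q) (v : V) (hv : v ∉ U), v ∈ compSet G U c.out.1 → c = ⟦⟨v, hv⟩⟧ := by
    intro c v hv h
    have h1 : (⟦c.out⟧ : Q) = ⟦⟨v, hv⟩⟧ := Quotient.sound h
    rwa [Quotient.out_eq] at h1
  have hrX : ∀ (c : Q) (v : V), v ∈ U → v ∉ compSet G U c.out.1 := fun c v hv h =>
    ReachOff.right h hv
  let e : ∀ c : Q, Option V → Option V := fun c a =>
    a.elim none fun v => if v ∈ compSet G U c.out.1 then some v else none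
  have he0 : ∀ c, e c none = none := fun c => rfl
  have he1 : ∀ c v, v ∈ compSet G U c.out.1 → e c (some v) = some v := by
    intro c v h
    exact if_pos h
  have he2 : ∀ c v, v ∉ compSet G U c.out.1 → e c (some v) = none := by
    intro c v h
    exact if_neg h
  let G2 : Option V → Option V → ℝ := fun a b => ∑ i, w2 i * |a.elim 0 (g2 i) - b.elim 0 (g2 i)|
  let N3 : Option V → Option V → ℝ := fun a b => ∑ c : Q, M c (e c a) (e c b)
  let G3 : Option V → Option V → ℝ := fun a b => ∑ c : Q, r c (e c a) (e c b)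
  have hG2 : IsL1 G2 := IsL1.sum Finset.univ
    (fun i (a b : Option V) => w2 i * |a.elim 0 (g2 i) - b.elim 0 (g2 i)|)
    fun i _ => (isL1_line (fun a : Option V => a.elim 0 (g2 i))).smul (hw2 i)
  have hN3 : IsSq N3 := IsSq.sum Finset.univ (fun c a b => M c (e c a) (e c b))
    fun c _ => (hMI c).comap (e c)
  have hG3 : IsL1 G3 := IsL1.sum Finset.univ (fun c a b => r c (e c a) (e c b))
    fun c _ => (hrI c).comap (e c)
  have hn1' : ∀ a b, 0 ≤ G1 a b := hG1.nonneg
  have hn2' : ∀ a b, 0 ≤ G2 a b := hG2.nonneg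
  have hn3' : ∀ a b, 0 ≤ N3 a b := hN3.nonneg
  have hg3' : ∀ a b, 0 ≤ G3 a b := hG3.nonneg
  have htermM : ∀ (c : Q) a b, 0 ≤ M c (e c a) (e c b) := fun c a b => (hMI c).nonneg _ _
  have hterm : ∀ (c : Q) a b, 0 ≤ r c (e c a) (e c b) := fun c a b => (hrI c).nonneg _ _
  have hsingleM : ∀ (c : Q) a b, M c (e c a) (e c b) ≤ N3 a b := fun c a b =>
    Finset.single_le_sum (f := fun c => M c (e c a) (e c b)) (fun c _ => htermM c a b)
      (Finset.mem_univ c)
  have hsingle : ∀ (c : Q) a b, r c (e c a) (e c b) ≤ G3 a b := fun c a b =>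
    Finset.single_le_sum (f := fun c => r c (e c a) (e c b)) (fun c _ => hterm c a b)
      (Finset.mem_univ c)
  -- the value at the base point
  have hbase : ∀ v ∈ L, N3 (some v) none ≤ k * φ v ^ 2 ∧ G3 (some v) none ≤ K0 * φ v := by
    intro v hvL
    by_cases hv : v ∈ U
    · have hzM : N3 (some v) none = 0 := Finset.sum_eq_zero fun c _ => by
        rw [he2 c v (hrX c v hv), he0]
        exact (hMI c).self _
      have hz : G3 (some v) none = 0 := Finset.sum_eq_zero fun c _ => by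
        rw [he2 c v (hrX c v hv), he0]
        exact (hrI c).self _
      rw [hz, hzM]
      exact ⟨mul_nonneg hk (sq_nonneg _), mul_nonneg hK (hφ0 v)⟩
    · have hz0 : ∀ c ∈ Finset.univ, c ≠ (⟦⟨v, hv⟩⟧ : Q) → e c (some v) = none := by
        intro c _ hc
        exact he2 c v fun h => hc (huniq c v hv h)
      have hsumM : N3 (some v) none = M (⟦⟨v, hv⟩⟧ : Q) (e (⟦⟨v, hv⟩⟧ : Q) (some v)) (e (⟦⟨v, hv⟩⟧ : Q) none) := by
        refine Finset.sum_eq_single _ (fun c hc1 hc => ?_)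
          (fun h => absurd (Finset.mem_univ _) h)
        rw [hz0 c hc1 hc, he0]
        exact (hMI c).self _
      have hsum : G3 (some v) none = r (⟦⟨v, hv⟩⟧ : Q) (e (⟦⟨v, hv⟩⟧ : Q) (some v)) (e (⟦⟨v, hv⟩⟧ : Q) none) := by
        refine Finset.sum_eq_single _ (fun c hc1 hc => ?_)
          (fun h => absurd (Finset.mem_univ _) h)
        rw [hz0 c hc1 hc, he0]
        exact (hrI c).self _
      rw [hsum, hsumM, he1 _ v (hmk v hv), he0]
      exact (hr ⟦⟨v, hv⟩⟧).2.1 v hvL (hmk v hv)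
  -- along walks
  have hwalk : ∀ x ∈ L, ∀ y ∈ L, ∀ q : G.Walk x y,
      N3 (some x) (some y) ≤ k * wl ℓ q ^ 2 ∧ G3 (some x) (some y) ≤ K0 * wl ℓ q := by
    intro x hxL y hyL q
    by_cases hhit : ∃ z ∈ q.support, z ∈ U
    · obtain ⟨z, hz, hzU⟩ := hhit
      obtain ⟨q1, q2, hsum, -, -⟩ := wl_split (ℓ := ℓ) q hz
      have h1 := wl_lip hφl q1
      have h2 := wl_lip hφl q2
      rw [hφU z hzU, sub_zero, abs_of_nonneg (hφ0 x)] at h1
      rw [hφU z hzU, zero_sub, abs_neg, abs_of_nonneg (hφ0 y)] at h2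
      have h3 : φ x + φ y ≤ wl ℓ q := by linarith
      have bx := hbase x hxL
      have by' := hbase y hyL
      constructor
      · refine (isSq_tri hN3 hk (hφ0 x) (hφ0 y) bx.1 by'.1).trans ?_
        refine mul_le_mul_of_nonneg_left ?_ hk
        exact pow_le_pow_left₀ (add_nonneg (hφ0 x) (hφ0 y)) h3 2
      · have h4 := hG3.tri (some x) none (some y)
        have h5 := by'.2
        rw [hG3.symm] at h5
        have h6 := mul_le_mul_of_nonneg_left h3 hK
        have h7 := bx.2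
        linarith
    · push Not at hhit
      have hxU : x ∉ U := hhit x q.start_mem_support
      have hqc : ∀ z ∈ q.support, z ∈ compSet G U (⟦⟨x, hxU⟩⟧ : Q).out.1 := by
        intro z hz
        obtain ⟨q1, -, -, h1, -⟩ := wl_split (ℓ := ℓ) q hz
        exact ReachOff.trans (hmk x hxU) ⟨q1, fun a ha => hhit a (h1 a ha)⟩
      have hz : ∀ c ∈ Finset.univ, c ≠ (⟦⟨x, hxU⟩⟧ : Q) →
          e c (some x) = none ∧ e c (some y) = none := by
        intro c _ hc
        have h1 : x ∉ compSet G U c.out.1 := fun h => hc (huniq c x hxU h)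
        have h2 : y ∉ compSet G U c.out.1 := fun h =>
          h1 (ReachOff.trans h (ReachOff.trans (ReachOff.symm (hqc y q.end_mem_support))
            (hmk x hxU)))
        exact ⟨he2 c x h1, he2 c y h2⟩
      have hsumM : N3 (some x) (some y) = M (⟦⟨x, hxU⟩⟧ : Q) (e (⟦⟨x, hxU⟩⟧ : Q) (some x)) (e (⟦⟨x, hxU⟩⟧ : Q) (some y)) := by
        refine Finset.sum_eq_single _ (fun c hc1 hc => ?_) (fun h => absurd (Finset.mem_univ _) h)
        rw [(hz c hc1 hc).1, (hz c hc1 hc).2]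
        exact (hMI c).self _
      have hsum : G3 (some x) (some y) = r (⟦⟨x, hxU⟩⟧ : Q) (e (⟦⟨x, hxU⟩⟧ : Q) (some x)) (e (⟦⟨x, hxU⟩⟧ : Q) (some y)) := by
        refine Finset.sum_eq_single _ (fun c hc1 hc => ?_) (fun h => absurd (Finset.mem_univ _) h)
        rw [(hz c hc1 hc).1, (hz c hc1 hc).2]
        exact (hrI c).self _
      rw [hsum, hsumM, he1 _ x (hmk x hxU), he1 _ y (hqc y q.end_mem_support)]
      exact (hr ⟦⟨x, hxU⟩⟧).1 x hxL y hyL q hqc
  refine ⟨N3, fun a b => (G1 a b + 4 * G2 a b) + G3 a b, hN3,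
    (hG1.add (hG2.smul (by norm_num))).add hG3, ?_, ?_, ?_, ?_⟩
  · -- walks
    intro x hxL y hyL q _
    have hq0 : 0 ≤ wl ℓ q := wl_nonneg hℓ q
    have hdq : pathDist G ℓ x y ≤ wl ℓ q := dist_le_wl hℓ q
    have f1 : G1 (some x) (some y) ≤ Λ * wl ℓ q := by
      have a1 := hm1 x y
      have a2 := (hFl x y).trans hdq
      have a3 := wl_lip hHl q
      rw [hG1e]
      exact mul_le_mul_of_nonneg_left (by linarith) hΛ0.le
    have f2 : G2 (some x) (some y) ≤ wl ℓ q := by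
      have : ∀ i ∈ Finset.univ, w2 i * |g2 i x - g2 i y| ≤ w2 i * wl ℓ q := by
        intro i _
        apply mul_le_mul_of_nonneg_left _ (hw2 i)
        exact (hm2 i x y rfl).trans (max_le ((hνl x y).trans hdq) (wl_lip hHl q))
      refine (Finset.sum_le_sum this).trans ?_
      rw [← Finset.sum_mul, hs2, one_mul]
    have f3 := hwalk x hxL y hyL q
    refine ⟨f3.1, ?_⟩
    show G1 (some x) (some y) + 4 * G2 (some x) (some y) + G3 (some x) (some y) ≤ _
    have := f3.2
    linarith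
  · -- upper bound at the base point
    intro v hvL _
    have f1 : G1 (some v) none ≤ Λ * H v := by
      rw [hG1e]
      exact mul_le_mul_of_nonneg_left (hb1 v) hΛ0.le
    have f2 : G2 (some v) none ≤ H v := by
      have : ∀ i ∈ Finset.univ, w2 i * |g2 i v - 0| ≤ w2 i * H v := by
        intro i _
        apply mul_le_mul_of_nonneg_left _ (hw2 i)
        rw [sub_zero]; exact hb2 i v
      refine (Finset.sum_le_sum this).trans ?_
      rw [← Finset.sum_mul, hs2, one_mul]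
    have f3 := hbase v hvL
    have f4 : k * φ v ^ 2 ≤ k * H v ^ 2 :=
      mul_le_mul_of_nonneg_left (pow_le_pow_left₀ (hφ0 v) (hφH v) 2) hk
    have f5 : K0 * φ v ≤ K0 * H v := mul_le_mul_of_nonneg_left (hφH v) hK
    refine ⟨f3.1.trans f4, ?_⟩
    show G1 (some v) none + 4 * G2 (some v) none + G3 (some v) none ≤ _
    have := f3.2
    linarith
  · -- lower bound at the base point
    intro v hvL _
    right
    have f1 : H v / 2000 ≤ G1 (some v) none := by
      rw [hG1e]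
      have a1 := hb1' v
      have a2 := hG0.nonneg (some v) none
      refine a1.trans ?_
      show G0 (some v) none ≤ Λ * G0 (some v) none
      nlinarith
    have := hn2' (some v) none
    have := hg3' (some v) none
    show H v ≤ 2000 * (G1 (some v) none + 4 * G2 (some v) none + G3 (some v) none)
    linarith
  · -- separation
    intro x hxL y hyL _ _ δ hδ hx hy hxy
    show δ ^ 2 ≤ 9000000 * N3 (some x) (some y) ∨
      δ ≤ 2000 * (G1 (some x) (some y) + 4 * G2 (some x) (some y) + G3 (some x) (some y))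
    have p1 := hn1' (some x) (some y)
    have p2 := hn2' (some x) (some y)
    have p3 := hn3' (some x) (some y)
    have p4 := hg3' (some x) (some y)
    have key : ∀ a b, δ ≤ H a → δ ≤ H b → 8 * δ ≤ pathDist G ℓ a b → φ a < δ →
        δ ≤ 2000 * (G1 (some a) (some b) + 4 * G2 (some a) (some b)) := by
      intro a b ha hb hab hφa
      have haz : pathDist G ℓ a (ν a) < δ := by
        rcases min_lt_iff.1 hφa with h | h
        · exact absurd h (not_lt.2 ha)
        · exact h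
      exact set_separate4 hc hℓ (F := F) hΛ (hFX ν hν) hν hδ ha hb hab (hν.mem a) haz (by
        have := hl1 a b
        have e : G1 (some a) (some b) / Λ = G0 (some a) (some b) := by
          rw [hG1e]
          show Λ * G0 (some a) (some b) / Λ = _
          rw [mul_div_cancel_left₀ _ hΛ0.ne']
        rw [e]
        linarith) (hl2 a b rfl) (hn1' (some a) (some b)) (hn2' (some a) (some b))
    by_cases hφx : δ ≤ φ x
    · by_cases hφy : δ ≤ φ y
      · have hxU : x ∉ U := fun h => by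
          rw [hφU x h] at hφx
          linarith
        have hcx := hr ⟦⟨x, hxU⟩⟧
        have h3 := hsingle ⟦⟨x, hxU⟩⟧ (some x) (some y)
        have h3' := hsingleM ⟦⟨x, hxU⟩⟧ (some x) (some y)
        rw [he1 _ x (hmk x hxU)] at h3 h3'
        by_cases hyc : y ∈ compSet G U (⟦⟨x, hxU⟩⟧ : Q).out.1
        · rw [he1 _ y hyc] at h3 h3'
          rcases hcx.2.2.2 x hxL y hyL (hmk x hxU) hyc δ hδ hφx hφy hxy with h4 | h4
          · left; linarith
          · right; linarith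
        · rw [he2 _ y hyc] at h3 h3'
          rcases hcx.2.2.1 x hxL (hmk x hxU) with h4 | h4
          · left
            have h6 : δ ^ 2 ≤ φ x ^ 2 := pow_le_pow_left₀ hδ.le hφx 2
            linarith
          · right
            linarith
      · push Not at hφy
        right
        have h1 := key y x hy hx (by rw [hd.symm]; exact hxy) hφy
        rw [hG1.symm, hG2.symm] at h1
        linarith
    · push Not at hφx
      right
      have h1 := key x y hx hy hxy hφx
      linarith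

/-- **one round of lanes for the metric on a set of points**, with the recursion as a hypothesis -/
theorem ptL_lanes (hc : G.Connected) (hℓ : ∀ e ∈ G.edgeSet, 0 < ℓ e) {L : Set V}
    {H : V → ℝ} (hH : ∀ v, 0 < H v) (hHl : ∀ u v, G.Adj u v → |H u - H v| ≤ ℓ s(u, v))
    {u : V → ℝ} (hu : ∀ a b, |u a - u b| ≤ pathDist G ℓ a b) {s : ℕ} (Ls : Fin s → Set V)
    (hiso : ∀ i, ∀ a ∈ Ls i, ∀ b ∈ Ls i, pathDist G ℓ a b ≤ |u a - u b|)
    (hX : (⋃ i, Ls i).Nonempty) {k K0 : ℝ} (hk : 0 ≤ k) (hK : 0 ≤ K0)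
    (ih : ∀ v ∉ ⋃ i, Ls i, ∀ φ : V → ℝ, (∀ v, 0 ≤ φ v) →
      (∀ w ∈ compSet G (⋃ i, Ls i) v, 0 < φ w) → (∀ w ∈ ⋃ i, Ls i, φ w = 0) →
      (∀ a b, G.Adj a b → |φ a - φ b| ≤ ℓ s(a, b)) →
      PtL G ℓ L (compSet G (⋃ i, Ls i) v) φ k K0) :
    PtL G ℓ L Set.univ H k (K0 + (80 * ((Nat.log 2 s + 1 : ℕ) : ℝ) + 4)) := by
  classical
  have := Fintype.ofFinite V
  have hd := pathDist_isMet hc hℓ
  obtain ⟨z0, hz0⟩ := hX
  obtain ⟨i0, hi0⟩ := Set.mem_iUnion.1 hz0
  let I := {i : Fin s // (Ls i).Nonempty}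
  have : Nonempty I := ⟨⟨i0, z0, hi0⟩⟩
  choose N hN using fun i : I => exists_near (X := Ls i.1) hc hℓ i.2
  let D : I → V → ℝ := fun i x => pathDist G ℓ x (N i x)
  have hD0 : ∀ i x, 0 ≤ D i x := fun i x => hd.nonneg _ _
  have hDl : ∀ i x y, |D i x - D i y| ≤ pathDist G ℓ x y := by
    intro i x y
    have e1 := (hN i).lip hc hℓ x y
    have e2 := (hN i).lip hc hℓ y x
    rw [hd.symm y x] at e2
    show |pathDist G ℓ x (N i x) - pathDist G ℓ y (N i y)| ≤ _
    rw [abs_le]; constructor <;> linarith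
  obtain ⟨κ, _, w, g, hw, hs, hg, hl⟩ := H105.lanes_fam hd.symm hd.nonneg D hD0 hDl
  have hcard : Fintype.card I ≤ s := by
    have h := Fintype.card_subtype_le (fun i : Fin s => (Ls i).Nonempty)
    rwa [Fintype.card_fin] at h
  have hm : ((Nat.log 2 (Fintype.card I) + 1 : ℕ) : ℝ) ≤ ((Nat.log 2 s + 1 : ℕ) : ℝ) := by
    exact_mod_cast Nat.succ_le_succ (Nat.log_mono_right hcard)
  have hm1 : (1 : ℝ) ≤ ((Nat.log 2 s + 1 : ℕ) : ℝ) := by
    exact_mod_cast Nat.le_add_left 1 _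
  set m : ℝ := ((Nat.log 2 s + 1 : ℕ) : ℝ) with hmdef
  let S : V → V → ℝ := fun x y => ∑ i, w i * |g i x - g i y|
  have hS : IsL1 S := IsL1.sum Finset.univ (fun i x y => w i * |g i x - g i y|)
    fun i _ => (isL1_line (g i)).smul (hw i)
  have hSl : ∀ a b, S a b ≤ pathDist G ℓ a b := by
    intro a b
    have h1 : ∀ i ∈ Finset.univ, w i * |g i a - g i b| ≤ w i * pathDist G ℓ a b := fun i _ =>
      mul_le_mul_of_nonneg_left (hg i a b) (hw i)
    refine (Finset.sum_le_sum h1).trans ?_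
    rw [← Finset.sum_mul, hs, one_mul]
  let F : V → V → ℝ := fun x y => 1 / 2 * (|u x - u y| + S x y)
  have hF : IsL1 F := ((isL1_line u).add hS).smul (by norm_num)
  have hFl : ∀ a b, F a b ≤ pathDist G ℓ a b := by
    intro a b
    have h1 := hu a b
    have h2 := hSl a b
    show 1 / 2 * (|u a - u b| + S a b) ≤ _
    linarith
  refine ptL_round (F := F) hc hℓ hH hHl ⟨z0, hz0⟩ hF hFl (Λ := 80 * m) (by linarith) ?_ hk hK ih
  intro ν hν x y δ hδ hx hy hxy
  have hSn : 0 ≤ S x y := hS.nonneg x y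
  show 2 * δ ≤ 80 * m * (1 / 2 * (|u x - u y| + S x y))
  by_cases hcase : δ / 2 ≤ |u x - u y|
  · have h1 : 1 * (δ / 2 + 0) ≤ m * (|u x - u y| + S x y) :=
      mul_le_mul hm1 (add_le_add hcase hSn) (by linarith) (by linarith)
    linarith
  · push Not at hcase
    have hin : ∀ a, ∃ i, D i a ≤ pathDist G ℓ a (ν a) := by
      intro a
      obtain ⟨i, hi⟩ := Set.mem_iUnion.1 (hν.mem a)
      exact ⟨⟨i, _, hi⟩, (hN ⟨i, _, hi⟩).le a _ hi⟩
    obtain ⟨i, hi⟩ := hin x
    obtain ⟨j, hj⟩ := hin y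
    have h1 := hl x y (15 / 8 * δ) (5 / 4 * δ) ⟨i, by linarith⟩ ⟨j, by linarith⟩ (by
      intro i
      by_contra hlt
      push Not at hlt
      rw [max_lt_iff] at hlt
      obtain ⟨h1, h2⟩ := hlt
      have h3 := hiso i.1 (N i x) ((hN i).mem x) (N i y) ((hN i).mem y)
      have h4 := hu x (N i x)
      have h5 := hu y (N i y)
      have h6 : |u (N i x) - u (N i y)| ≤ |u x - u y| + |u x - u (N i x)| +
          |u y - u (N i y)| := by
        have e : u (N i x) - u (N i y) = (u x - u y) + -(u x - u (N i x)) +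
          (u y - u (N i y)) := by ring
        rw [e]
        refine (abs_add_three _ _ _).trans ?_
        rw [abs_neg]
      have h7 := hd.tri x (N i x) y
      have h8 := hd.tri (N i x) (N i y) y
      rw [hd.symm (N i y) y] at h8
      have h9 : D i x = pathDist G ℓ x (N i x) := rfl
      have h10 : D i y = pathDist G ℓ y (N i y) := rfl
      linarith)
    have h2 : 12 * ((Nat.log 2 (Fintype.card I) + 1 : ℕ) : ℝ) * S x y ≤ 12 * m * S x y :=
      mul_le_mul_of_nonneg_right (by linarith) hSn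
    have h3 : 15 / 8 * δ - 5 / 4 * δ ≤ 12 * m * S x y := le_trans h1 h2
    have h4 : 0 ≤ m * |u x - u y| := mul_nonneg (by linarith) (abs_nonneg _)
    have h5 : 0 ≤ m * S x y := mul_nonneg (by linarith) hSn
    nlinarith

/-- `log₂` against the natural logarithm -/
theorem natlog_le (s : ℕ) : ((Nat.log 2 s + 1 : ℕ) : ℝ) ≤ 3 * Real.log (s + 2) := by
  have hl2 := Real.log_two_gt_d9
  have h2 : ((Nat.log 2 s : ℕ) : ℝ) * Real.log 2 ≤ Real.log (s + 2) := by
    have h1 : 2 ^ Nat.log 2 s ≤ s + 2 := by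
      by_cases hs : s = 0
      · subst hs
        simp
      · exact (Nat.pow_log_le_self 2 hs).trans (Nat.le_add_right _ _)
    have h1' : (2 : ℝ) ^ Nat.log 2 s ≤ (s : ℝ) + 2 := by exact_mod_cast h1
    have h3 := Real.log_le_log (by positivity) h1'
    rwa [Real.log_pow] at h3
  have h3 : Real.log 2 ≤ Real.log (s + 2) := by
    apply Real.log_le_log (by norm_num)
    have : (0 : ℝ) ≤ s := Nat.cast_nonneg s
    linarith
  have h4 : (0 : ℝ) ≤ ((Nat.log 2 s : ℕ) : ℝ) := Nat.cast_nonneg _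
  push_cast
  nlinarith

/-- **one round of lanes for the metric on a set `L` of points**: it is enough that the points of
`L` in each component which is left are mapped to a finite metric space which embeds with
distortion at most `C0`, expanding their distances in `G` and no more than the lengths of the walks
inside the component. -/
theorem lanes_points (hc : G.Connected) (hℓ : ∀ e ∈ G.edgeSet, 0 < ℓ e) {u : V → ℝ}
    (hu : ∀ a b, |u a - u b| ≤ pathDist G ℓ a b) {s : ℕ} (Ls : Fin s → Set V)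
    (hiso : ∀ i, ∀ a ∈ Ls i, ∀ b ∈ Ls i, pathDist G ℓ a b ≤ |u a - u b|)
    (hX : (⋃ i, Ls i).Nonempty) (L : Set V) {C0 : ℝ} (hC0 : 0 < C0)
    (hleaf : ∀ v ∉ ⋃ i, Ls i, ∃ (T : Type) (ρ : T → T → ℝ) (κ : V → T), IsMet ρ ∧
      EmbedsL1 ρ C0 ∧
      (∀ x ∈ L, ∀ y ∈ L, x ∈ compSet G (⋃ i, Ls i) v → y ∈ compSet G (⋃ i, Ls i) v →
        pathDist G ℓ x y ≤ ρ (κ x) (κ y)) ∧
      ∀ x ∈ L, ∀ y ∈ L, ∀ q : G.Walk x y, (∀ z ∈ q.support, z ∈ compSet G (⋃ i, Ls i) v) →
        ρ (κ x) (κ y) ≤ wl ℓ q) :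
    EmbedsL1 (fun x y : L => pathDist G ℓ x.1 y.1) (7000000 * (C0 + Real.log (s + 2))) := by
  have hK : (0 : ℝ) < 96 * C0 + 112 + (80 * ((Nat.log 2 s + 1 : ℕ) : ℝ) + 4) := by positivity
  have h := ptL_embeds hc hℓ L (k := 0) (K := 96 * C0 + 112 + (80 * ((Nat.log 2 s + 1 : ℕ) : ℝ) + 4))
    le_rfl hK fun H hH hHl =>
      ptL_lanes hc hℓ hH hHl hu Ls hiso hX le_rfl (by positivity) fun v hv φ hφ0 hφK hφX hφl => by
        obtain ⟨T, ρ, κ, hρ, hE, h1, h2⟩ := hleaf v hv
        exact ptL_leaf' hc hℓ hρ hC0 hE h1 h2 hφK hφl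
  have hlog := natlog_le s
  have hl2 := Real.log_two_gt_d9
  have h3 : Real.log 2 ≤ Real.log (s + 2) := by
    apply Real.log_le_log (by norm_num)
    have : (0 : ℝ) ≤ s := Nat.cast_nonneg s
    linarith
  have hd := pathDist_isMet hc hℓ
  refine H341W.embeds_mono (fun x y => hd.nonneg _ _) ?_ h
  rw [Real.sqrt_zero]
  linarith

end Vale.Agent.P235.T6
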